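import Vale.Agent.Lib.P243.Lev

/-! The Brunn-Minkowski inequality for compact convex sets in the plane. -/

namespace Vale.Agent.Lib.P243

open Set MeasureTheory
open scoped ENNReal

theorem lintegral_comp_mul_left_aux (f : ℝ → ℝ≥0∞) {m : ℝ} (hm : 0 < m) :
    ∫⁻ t, f t = ENNReal.ofReal m * ∫⁻ τ, f (m * τ) := by
  have h1 : ∫⁻ τ, f (m * τ) = ∫⁻ t, f t ∂(Measure.map (m * ·) volume) := by
    have := lintegral_map_equiv (μ := volume) f (Homeomorph.mulLeft₀ m hm.ne').toMeasurableEquiv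
    exact this.symm
  rw [h1, Real.map_volume_mul_left hm.ne', lintegral_smul_measure, abs_of_pos (inv_pos.mpr hm),
    smul_eq_mul, ← mul_assoc, ← ENNReal.ofReal_mul hm.le, mul_inv_cancel₀ hm.ne',
    ENNReal.ofReal_one, one_mul]

theorem setLIntegral_Ioc_scale (f : ℝ → ℝ≥0∞) {m : ℝ} (hm : 0 < m) :
    ∫⁻ t in Ioc 0 m, f t = ENNReal.ofReal m * ∫⁻ τ in Ioc 0 1, f (m * τ) := by
  rw [← lintegral_indicator measurableSet_Ioc, ← lintegral_indicator measurableSet_Ioc,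
    lintegral_comp_mul_left_aux _ hm]
  congr 1
  refine lintegral_congr fun τ => ?_
  by_cases h : τ ∈ Ioc (0 : ℝ) 1
  · rw [indicator_of_mem h, indicator_of_mem]
    exact ⟨mul_pos hm h.1, by nlinarith [h.2]⟩
  · rw [indicator_of_notMem h, indicator_of_notMem]
    intro h'
    apply h
    refine ⟨pos_of_mul_pos_right h'.1 hm.le, ?_⟩
    by_contra hlt
    push Not at hlt
    nlinarith [h'.2]

theorem bm1 {I0 I1 J : Set ℝ} (c0 : Convex ℝ I0) (k0 : IsCompact I0) (n0 : I0.Nonempty)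
    (c1 : Convex ℝ I1) (k1 : IsCompact I1) (n1 : I1.Nonempty) (cJ : Convex ℝ J)
    {p q : ℝ} (hp : 0 ≤ p) (hq : 0 ≤ q) (h : ∀ x ∈ I0, ∀ y ∈ I1, p • x + q • y ∈ J) :
    ENNReal.ofReal p * volume I0 + ENNReal.ofReal q * volume I1 ≤ volume J := by
  have e0 := eq_Icc_of_connected_compact ⟨n0, c0.isPreconnected⟩ k0
  have e1 := eq_Icc_of_connected_compact ⟨n1, c1.isPreconnected⟩ k1
  set a0 := sInf I0
  set b0 := sSup I0
  set a1 := sInf I1
  set b1 := sSup I1
  have h0 : a0 ≤ b0 := by rw [e0] at n0; exact nonempty_Icc.mp n0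
  have h1 : a1 ≤ b1 := by rw [e1] at n1; exact nonempty_Icc.mp n1
  have ma0 : a0 ∈ I0 := by rw [e0]; exact left_mem_Icc.mpr h0
  have mb0 : b0 ∈ I0 := by rw [e0]; exact right_mem_Icc.mpr h0
  have ma1 : a1 ∈ I1 := by rw [e1]; exact left_mem_Icc.mpr h1
  have mb1 : b1 ∈ I1 := by rw [e1]; exact right_mem_Icc.mpr h1
  have hsub : Icc (p • a0 + q • a1) (p • b0 + q • b1) ⊆ J :=
    cJ.ordConnected.out (h a0 ma0 a1 ma1) (h b0 mb0 b1 mb1)
  calc ENNReal.ofReal p * volume I0 + ENNReal.ofReal q * volume I1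
      = ENNReal.ofReal p * ENNReal.ofReal (b0 - a0) + ENNReal.ofReal q * ENNReal.ofReal (b1 - a1) := by
        rw [e0, e1, Real.volume_Icc, Real.volume_Icc]
    _ = ENNReal.ofReal (p * (b0 - a0) + q * (b1 - a1)) := by
        rw [← ENNReal.ofReal_mul hp, ← ENNReal.ofReal_mul hq,
          ← ENNReal.ofReal_add (mul_nonneg hp (by linarith)) (mul_nonneg hq (by linarith))]
    _ = volume (Icc (p • a0 + q • a1) (p • b0 + q • b1)) := by
        rw [Real.volume_Icc]; congr 1; simp only [smul_eq_mul]; ring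
    _ ≤ volume J := measure_mono hsub

section
variable {E : Type*} [MeasurableSpace E]

theorem lintegral_lev_Ioi_eq (μ : Measure E) {K : Set (E × ℝ)} {l s : ℝ} (hs : 0 ≤ s)
    (hl : ∀ t, 0 ≤ t → ((lev K t).Nonempty ↔ t ≤ l)) :
    ∫⁻ t in Ioi s, μ (lev K t) = ∫⁻ t in Ioc s l, μ (lev K t) := by
  rw [← lintegral_indicator measurableSet_Ioi, ← lintegral_indicator measurableSet_Ioc]
  refine lintegral_congr fun t => ?_
  by_cases ht : t ∈ Ioc s l
  · rw [indicator_of_mem ht, indicator_of_mem (show t ∈ Ioi s from ht.1)]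
  · rw [indicator_of_notMem ht]
    by_cases ht0 : t ∈ Ioi s
    · rw [indicator_of_mem ht0]
      have ht0' : s < t := ht0
      have : ¬ (lev K t).Nonempty := fun hne => ht ⟨ht0, (hl t (by linarith)).mp hne⟩
      rw [not_nonempty_iff_eq_empty.mp this, measure_empty]
    · rw [indicator_of_notMem ht0]

end

theorem vol_eq_chord {P : Set (ℝ × ℝ)} (c : Convex ℝ P) (k : IsCompact P) {l : ℝ} (hl0 : 0 ≤ l)
    (hl : ∀ t, 0 ≤ t → ((lev P t).Nonempty ↔ t ≤ l)) :
    volume P = ENNReal.ofReal l * ∫⁻ τ in Ioc 0 1, volume (lev P (l * τ)) := by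
  have hG := goodFibres_of_convex_compact c k
  have h1 : volume P = ∫⁻ t in Ioi 0, volume (lev P t) := by
    rw [Measure.volume_eq_prod]; exact prod_volume_eq volume hG k.measurableSet
  rw [h1, lintegral_lev_Ioi_eq volume le_rfl hl]
  rcases hl0.eq_or_lt with h0 | h0
  · rw [← h0]; simp
  · exact setLIntegral_Ioc_scale _ h0

theorem chord_int_ne_top {P : Set (ℝ × ℝ)} (c : Convex ℝ P) (k : IsCompact P) {l : ℝ}
    (hl0 : 0 ≤ l) : ∫⁻ τ in Ioc 0 1, volume (lev P (l * τ)) ≠ ⊤ := by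
  have hG := goodFibres_of_convex_compact c k
  have h : ∫⁻ τ in Ioc (0 : ℝ) 1, volume (lev P (l * τ)) ≤ ∫⁻ _τ in Ioc (0 : ℝ) 1, volume (lev P 0) :=
    setLIntegral_mono' measurableSet_Ioc fun τ hτ =>
      measure_mono (lev_anti hG le_rfl (mul_nonneg hl0 hτ.1.le))
  rw [setLIntegral_const, Real.volume_Ioc] at h
  refine (h.trans_lt ?_).ne
  exact ENNReal.mul_lt_top (lev_compact k 0).measure_lt_top ENNReal.ofReal_lt_top

/-- Brunn-Minkowski in the plane, for compact convex sets. -/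
theorem bm2 {P0 P1 P : Set (ℝ × ℝ)} (c0 : Convex ℝ P0) (k0 : IsCompact P0) (n0 : P0.Nonempty)
    (c1 : Convex ℝ P1) (k1 : IsCompact P1) (n1 : P1.Nonempty) (cP : Convex ℝ P) (kP : IsCompact P)
    {p q : ℝ} (hp : 0 ≤ p) (hq : 0 ≤ q) (h : ∀ x ∈ P0, ∀ y ∈ P1, p • x + q • y ∈ P) :
    p * √(volume P0).toReal + q * √(volume P1).toReal ≤ √(volume P).toReal := by
  obtain ⟨l0, hl0, H0⟩ := exists_max_chord c0 k0 n0
  obtain ⟨l1, hl1, H1⟩ := exists_max_chord c1 k1 n1
  have e0 := vol_eq_chord c0 k0 hl0 H0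
  have e1 := vol_eq_chord c1 k1 hl1 H1
  have f0 := chord_int_ne_top c0 k0 hl0
  have f1 := chord_int_ne_top c1 k1 hl1
  set G0 := ∫⁻ τ in Ioc 0 1, volume (lev P0 (l0 * τ)) with hG0
  set G1 := ∫⁻ τ in Ioc 0 1, volume (lev P1 (l1 * τ)) with hG1
  set m := p * l0 + q * l1 with hm
  have hm0 : 0 ≤ m := by positivity
  have hG := goodFibres_of_convex_compact cP kP
  have hPge : ENNReal.ofReal m * ∫⁻ τ in Ioc 0 1, volume (lev P (m * τ)) ≤ volume P := by
    rcases hm0.eq_or_lt with h0 | h0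
    · rw [← h0]; simp
    · rw [← setLIntegral_Ioc_scale (fun t => volume (lev P t)) h0, Measure.volume_eq_prod,
        prod_volume_eq volume hG kP.measurableSet]
      exact lintegral_mono_set Ioc_subset_Ioi_self
  have hpt : ∀ τ ∈ Ioc (0 : ℝ) 1, ENNReal.ofReal p * volume (lev P0 (l0 * τ))
      + ENNReal.ofReal q * volume (lev P1 (l1 * τ)) ≤ volume (lev P (m * τ)) := by
    intro τ hτ
    refine bm1 (lev_convex c0 _) (lev_compact k0 _)
      ((H0 _ (mul_nonneg hl0 hτ.1.le)).mpr (by nlinarith [hτ.2]))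
      (lev_convex c1 _) (lev_compact k1 _)
      ((H1 _ (mul_nonneg hl1 hτ.1.le)).mpr (by nlinarith [hτ.2]))
      (lev_convex cP _) hp hq ?_
    have := lev_combo h (t0 := l0 * τ) (t1 := l1 * τ)
    have e : p * (l0 * τ) + q * (l1 * τ) = m * τ := by rw [hm]; ring
    rwa [e] at this
  have hint : ENNReal.ofReal p * G0 + ENNReal.ofReal q * G1
      ≤ ∫⁻ τ in Ioc 0 1, volume (lev P (m * τ)) := by
    calc ENNReal.ofReal p * G0 + ENNReal.ofReal q * G1
        = (∫⁻ τ in Ioc 0 1, ENNReal.ofReal p * volume (lev P0 (l0 * τ)))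
          + ∫⁻ τ in Ioc 0 1, ENNReal.ofReal q * volume (lev P1 (l1 * τ)) := by
          rw [lintegral_const_mul' _ _ ENNReal.ofReal_ne_top,
            lintegral_const_mul' _ _ ENNReal.ofReal_ne_top]
      _ ≤ ∫⁻ τ in Ioc 0 1, (ENNReal.ofReal p * volume (lev P0 (l0 * τ))
          + ENNReal.ofReal q * volume (lev P1 (l1 * τ))) := le_lintegral_add _ _
      _ ≤ _ := setLIntegral_mono' measurableSet_Ioc hpt
  have hfin : ENNReal.ofReal m * (ENNReal.ofReal p * G0 + ENNReal.ofReal q * G1) ≤ volume P :=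
    le_trans (by gcongr) hPge
  have hreal : m * (p * G0.toReal + q * G1.toReal) ≤ (volume P).toReal := by
    have := ENNReal.toReal_mono kP.measure_lt_top.ne hfin
    rwa [ENNReal.toReal_mul, ENNReal.toReal_ofReal hm0,
      ENNReal.toReal_add (ENNReal.mul_ne_top ENNReal.ofReal_ne_top f0)
        (ENNReal.mul_ne_top ENNReal.ofReal_ne_top f1),
      ENNReal.toReal_mul, ENNReal.toReal_mul, ENNReal.toReal_ofReal hp,
      ENNReal.toReal_ofReal hq] at this
  rw [e0, e1, ENNReal.toReal_mul, ENNReal.toReal_mul, ENNReal.toReal_ofReal hl0,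
    ENNReal.toReal_ofReal hl1, Real.sqrt_mul hl0, Real.sqrt_mul hl1]
  have g0 : 0 ≤ G0.toReal := ENNReal.toReal_nonneg
  have g1 : 0 ≤ G1.toReal := ENNReal.toReal_nonneg
  refine Real.le_sqrt_of_sq_le (le_trans ?_ hreal)
  have s0 := Real.sq_sqrt hl0
  have s1 := Real.sq_sqrt hl1
  have s2 := Real.sq_sqrt g0
  have s3 := Real.sq_sqrt g1
  set a0 := √l0
  set a1 := √l1
  set b0 := √G0.toReal
  set b1 := √G1.toReal
  rw [hm, ← s0, ← s1, ← s2, ← s3]
  nlinarith [mul_nonneg (mul_nonneg hp hq) (sq_nonneg (a0 * b1 - a1 * b0))]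

end Vale.Agent.Lib.P243
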