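import Mathlib

/-! Bang's plank theorem for finitely many closed planks covering a compact convex set. -/

namespace Vale.Agent.Lib.P243

open Set Finset
open scoped Pointwise

variable {E : Type*} [NormedAddCommGroup E] [InnerProductSpace ℝ E]

/-- Bang's sign selection lemma. -/
theorem bang_signs {ι : Type*} (s : Finset ι) (n : ι → E) (hn : ∀ i ∈ s, ‖n i‖ = 1)
    (c h : ι → ℝ) (hh : ∀ i ∈ s, 0 < h i) :
    ∃ ε : ι → ℝ, (∀ i, ε i = 1 ∨ ε i = -1) ∧
      ∀ i ∈ s, h i ≤ ε i * (inner ℝ (n i) (∑ j ∈ s, (ε j * h j) • n j) - c i) := by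
  classical
  -- the finite set of sign patterns
  let F : (ι → ℝ) → ℝ := fun ε => ‖∑ j ∈ s, (ε j * h j) • n j‖ ^ 2 - 2 * ∑ j ∈ s, ε j * h j * c j
  -- restrict to patterns supported on s : use Finset.pi-like trick through functions s → Bool
  let ext : (s → Bool) → ι → ℝ := fun b i => if hi : i ∈ s then (if b ⟨i, hi⟩ then 1 else -1) else 1
  obtain ⟨b, -, hb⟩ := Finset.exists_max_image (Finset.univ : Finset (s → Bool)) (fun b => F (ext b))
    ⟨fun _ => true, Finset.mem_univ _⟩
  refine ⟨ext b, ?_, ?_⟩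
  · intro i
    simp only [ext]
    split_ifs <;> simp
  · intro i hi
    -- flip the sign at i
    let b' : s → Bool := Function.update b ⟨i, hi⟩ (!(b ⟨i, hi⟩))
    have hmax := hb b' (Finset.mem_univ _)
    set ε := ext b with hε
    set ε' := ext b' with hε'
    have hεi : ε i = 1 ∨ ε i = -1 := by
      simp only [hε, ext]; split_ifs <;> simp
    have hflip : ε' i = - ε i := by
      simp only [hε, hε', ext, b', dif_pos hi, Function.update_self]
      cases b ⟨i, hi⟩ <;> simp
    have hsame : ∀ j, j ≠ i → ε' j = ε j := by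
      intro j hj
      simp only [hε, hε', ext, b']
      by_cases hjs : j ∈ s
      · have : (⟨j, hjs⟩ : s) ≠ ⟨i, hi⟩ := by
          intro h; exact hj (congrArg Subtype.val h)
        simp [dif_pos hjs, Function.update_of_ne this]
      · simp [dif_neg hjs]
    set x := ∑ j ∈ s, (ε j * h j) • n j with hx
    have hx' : ∑ j ∈ s, (ε' j * h j) • n j = x - (2 * (ε i * h i)) • n i := by
      rw [hx, ← Finset.add_sum_erase s _ hi, ← Finset.add_sum_erase s (fun j => (ε j * h j) • n j) hi]
      have : ∑ j ∈ s.erase i, (ε' j * h j) • n j = ∑ j ∈ s.erase i, (ε j * h j) • n j := by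
        apply Finset.sum_congr rfl
        intro j hj
        rw [hsame j (Finset.ne_of_mem_erase hj)]
      rw [this, hflip]
      module
    have hc' : ∑ j ∈ s, ε' j * h j * c j = ∑ j ∈ s, ε j * h j * c j - 2 * (ε i * h i * c i) := by
      rw [← Finset.add_sum_erase s _ hi, ← Finset.add_sum_erase s (fun j => ε j * h j * c j) hi]
      have : ∑ j ∈ s.erase i, ε' j * h j * c j = ∑ j ∈ s.erase i, ε j * h j * c j := by
        apply Finset.sum_congr rfl
        intro j hj
        rw [hsame j (Finset.ne_of_mem_erase hj)]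
      rw [this, hflip]
      ring
    have hF : F ε' ≤ F ε := hmax
    simp only [F] at hF
    rw [hx', hc'] at hF
    have hnorm : ‖x - (2 * (ε i * h i)) • n i‖ ^ 2
        = ‖x‖ ^ 2 - 2 * (2 * (ε i * h i)) * inner ℝ (n i) x + (2 * (ε i * h i)) ^ 2 := by
      rw [norm_sub_sq_real, inner_smul_right, norm_smul, mul_pow, hn i hi, real_inner_comm,
        Real.norm_eq_abs, sq_abs]
      ring
    rw [hnorm] at hF
    have hsq : (ε i) ^ 2 = 1 := by rcases hεi with h1 | h1 <;> rw [h1] <;> norm_num
    have hpos := hh i hi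
    -- 0 ≥ -4 ε h ⟨n,x⟩ + 4 h^2 + 4 ε h c
    have key : h i * h i ≤ h i * (ε i * (inner ℝ (n i) x - c i)) := by
      have : (2 * (ε i * h i)) ^ 2 = 4 * (h i * h i) := by
        have : (2 * (ε i * h i)) ^ 2 = 4 * (ε i) ^ 2 * (h i * h i) := by ring
        rw [this, hsq]; ring
      nlinarith
    exact le_of_mul_le_mul_left key hpos

/-- Room lemma: a convex set containing a chord `p, p + ω d` for every `d ∈ D` contains a translate
of all the signed sums `∑ ± h i • n i` as soon as `∑ 2 h i < ω` and all `n i ∈ D`. -/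
theorem room_sum {ι : Type*} (D : Set E) (n : ι → E) (h : ι → ℝ) (s : Finset ι) :
    (∀ i ∈ s, n i ∈ D) → (∀ i ∈ s, 0 < h i) →
    ∀ (S : Set E) (ω : ℝ), Convex ℝ S → S.Nonempty →
      (∀ d ∈ D, ∃ p, p ∈ S ∧ p + ω • d ∈ S) → ∑ i ∈ s, 2 * h i < ω →
      ∃ a, ∀ ε : ι → ℝ, (∀ i, ε i = 1 ∨ ε i = -1) → a + ∑ i ∈ s, (ε i * h i) • n i ∈ S := by
  classical
  induction s using Finset.induction_on with
  | empty =>
    intro _ _ S ω _ hne _ _
    obtain ⟨a, ha⟩ := hne
    exact ⟨a, fun ε _ => by simpa using ha⟩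
  | insert i s his ih =>
    intro hnD hh S ω hS hne hroom hsum
    rw [Finset.sum_insert his] at hsum
    have hi : 0 < h i := hh i (Finset.mem_insert_self i s)
    have hsnn : 0 ≤ ∑ j ∈ s, 2 * h j :=
      Finset.sum_nonneg fun j hj => by
        have := hh j (Finset.mem_insert_of_mem hj); linarith
    have hω : 0 < ω := by linarith
    set S' : Set E := {p | p - h i • n i ∈ S ∧ p + h i • n i ∈ S} with hS'
    have hconv' : Convex ℝ S' := by
      intro x hx y hy a b ha hb hab
      refine ⟨?_, ?_⟩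
      · have := hS hx.1 hy.1 ha hb hab
        have e : a • x + b • y - h i • n i = a • (x - h i • n i) + b • (y - h i • n i) := by
          have hb' : b = 1 - a := by linarith
          subst hb'
          module
        rw [e]; exact this
      · have := hS hx.2 hy.2 ha hb hab
        have e : a • x + b • y + h i • n i = a • (x + h i • n i) + b • (y + h i • n i) := by
          have hb' : b = 1 - a := by linarith
          subst hb'
          module
        rw [e]; exact this
    obtain ⟨a0, ha0, ha0'⟩ := hroom (n i) (hnD i (Finset.mem_insert_self i s))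
    obtain ⟨lam, hlam⟩ : ∃ l : ℝ, l = 2 * h i / ω := ⟨_, rfl⟩
    have hlam0 : 0 ≤ lam := by rw [hlam]; positivity
    have hlam1 : lam ≤ 1 := by
      rw [hlam, div_le_one hω]; linarith
    have hlamω : lam * ω = 2 * h i := by
      rw [hlam]; field_simp
    have hd2 : ω - 2 * h i = (1 - lam) * ω := by rw [← hlamω]; ring
    have hroom' : ∀ d ∈ D, ∃ p, p ∈ S' ∧ p + (ω - 2 * h i) • d ∈ S' := by
      intro d hd
      obtain ⟨p, hp, hp'⟩ := hroom d hd
      refine ⟨(1 - lam) • p + lam • a0 + h i • n i, ⟨?_, ?_⟩, ⟨?_, ?_⟩⟩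
      · have := hS hp ha0 (by linarith : 0 ≤ 1 - lam) hlam0 (by ring)
        have e : (1 - lam) • p + lam • a0 + h i • n i - h i • n i = (1 - lam) • p + lam • a0 := by
          module
        rw [e]; exact this
      · have := hS hp ha0' (by linarith : 0 ≤ 1 - lam) hlam0 (by ring)
        have e : (1 - lam) • p + lam • a0 + h i • n i + h i • n i
            = (1 - lam) • p + lam • (a0 + ω • n i) := by
          rw [smul_add, smul_smul, hlamω]
          module
        rw [e]; exact this
      · have := hS hp' ha0 (by linarith : 0 ≤ 1 - lam) hlam0 (by ring)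
        have e : (1 - lam) • p + lam • a0 + h i • n i + (ω - 2 * h i) • d - h i • n i
            = (1 - lam) • (p + ω • d) + lam • a0 := by
          rw [hd2]
          module
        rw [e]; exact this
      · have := hS hp' ha0' (by linarith : 0 ≤ 1 - lam) hlam0 (by ring)
        have e : (1 - lam) • p + lam • a0 + h i • n i + (ω - 2 * h i) • d + h i • n i
            = (1 - lam) • (p + ω • d) + lam • (a0 + ω • n i) := by
          have e1 : lam • (a0 + ω • n i) = lam • a0 + (2 * h i) • n i := by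
            rw [smul_add, smul_smul, hlamω]
          rw [e1, hd2]
          module
        rw [e]; exact this
    have hne' : S'.Nonempty := by
      obtain ⟨p, hp, -⟩ := hroom' (n i) (hnD i (Finset.mem_insert_self i s))
      exact ⟨p, hp⟩
    obtain ⟨a, ha⟩ := ih (fun j hj => hnD j (Finset.mem_insert_of_mem hj))
      (fun j hj => hh j (Finset.mem_insert_of_mem hj)) S' (ω - 2 * h i) hconv' hne' hroom'
      (by linarith)
    refine ⟨a, fun ε hε => ?_⟩
    rw [Finset.sum_insert his]
    have hmem := ha ε hε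
    rcases hε i with h1 | h1
    · have e : a + ((ε i * h i) • n i + ∑ j ∈ s, (ε j * h j) • n j)
          = a + ∑ j ∈ s, (ε j * h j) • n j + h i • n i := by
        rw [h1]; module
      rw [e]; exact hmem.2
    · have e : a + ((ε i * h i) • n i + ∑ j ∈ s, (ε j * h j) • n j)
          = a + ∑ j ∈ s, (ε j * h j) • n j - h i • n i := by
        rw [h1]; module
      rw [e]; exact hmem.1

/-- Bang's plank theorem for finitely many closed planks, relative to a set `D` of directions. -/
theorem bang_plank {ι : Type*} (D : Set E) (s : Finset ι) (n : ι → E) (c h : ι → ℝ)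
    (hn : ∀ i ∈ s, ‖n i‖ = 1) (hnD : ∀ i ∈ s, n i ∈ D) (hh : ∀ i ∈ s, 0 ≤ h i)
    (S : Set E) (ω : ℝ) (hS : Convex ℝ S) (hne : S.Nonempty)
    (hroom : ∀ d ∈ D, ∃ p, p ∈ S ∧ p + ω • d ∈ S)
    (hcov : ∀ p ∈ S, ∃ i ∈ s, |inner ℝ (n i) p - c i| ≤ h i) :
    ω ≤ ∑ i ∈ s, 2 * h i := by
  by_contra hlt
  push Not at hlt
  set gap : ℝ := ω - ∑ i ∈ s, 2 * h i with hgap
  have hgap0 : 0 < gap := by linarith
  set η : ℝ := gap / (4 * ((s.card : ℝ) + 1)) with hη
  have hcard : (0 : ℝ) ≤ s.card := Nat.cast_nonneg _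
  have hη0 : 0 < η := by positivity
  have hsum : ∑ i ∈ s, 2 * (h i + η) < ω := by
    have : ∑ i ∈ s, 2 * (h i + η) = ∑ i ∈ s, 2 * h i + s.card * (2 * η) := by
      simp only [mul_add, Finset.sum_add_distrib, Finset.sum_const, nsmul_eq_mul]
    rw [this]
    have h2 : (s.card : ℝ) * (2 * η) < gap := by
      rw [hη]
      have : (s.card : ℝ) * (2 * (gap / (4 * ((s.card : ℝ) + 1))))
          = gap * ((s.card : ℝ) / (2 * ((s.card : ℝ) + 1))) := by
        field_simp
        ring
      rw [this]
      have : (s.card : ℝ) / (2 * ((s.card : ℝ) + 1)) < 1 := by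
        rw [div_lt_one (by positivity)]; linarith
      nlinarith
    linarith
  obtain ⟨a, ha⟩ := room_sum D n (fun i => h i + η) s hnD
    (fun i hi => by have := hh i hi; linarith) S ω hS hne hroom hsum
  obtain ⟨ε, hε, hsig⟩ := bang_signs s n hn (fun i => c i - inner ℝ (n i) a) (fun i => h i + η)
    (fun i hi => by have := hh i hi; linarith)
  obtain ⟨i, hi, hle⟩ := hcov _ (ha ε hε)
  have h1 := hsig i hi
  rw [inner_add_right] at hle
  set y := inner ℝ (n i) (∑ j ∈ s, (ε j * (h j + η)) • n j) with hy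
  have habs := abs_le.mp hle
  rcases hε i with h2 | h2
  · rw [h2] at h1; linarith [habs.2]
  · rw [h2] at h1; linarith [habs.1]

/-- If a compact convex set lying in a level set of `inner e` has width at least `ω` in every unit
direction orthogonal to `e`, it contains a chord of length `ω` in each such direction. -/
theorem chord_of_width [CompleteSpace E] (e : E) (he : ‖e‖ = 1) (t : ℝ) (S : Set E)
    (hS : Convex ℝ S) (hSc : IsCompact S) (hne : S.Nonempty) (hlev : ∀ p ∈ S, inner ℝ e p = t)
    (ω : ℝ) (hω : 0 ≤ ω)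
    (hw : ∀ ν : E, ‖ν‖ = 1 → inner ℝ ν e = 0 → ∃ p ∈ S, ∃ q ∈ S, ω ≤ inner ℝ ν (q - p))
    (d : E) (hd : ‖d‖ = 1) (hde : inner ℝ d e = 0) : ∃ p, p ∈ S ∧ p + ω • d ∈ S := by
  by_contra hcon
  push Not at hcon
  have hnot : ω • d ∉ S - S := by
    intro hmem
    obtain ⟨q, hq, p, hp, hqp⟩ := Set.mem_sub.mp hmem
    apply hcon p hp
    rw [← hqp]; simpa using hq
  have hcl : IsClosed (S - S) := by
    rw [sub_eq_add_neg]
    exact (hSc.add hSc.neg).isClosed
  obtain ⟨f, u, hfu, huf⟩ := geometric_hahn_banach_closed_point (hS.sub hS) hcl hnot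
  set ν' : E := (InnerProductSpace.toDual ℝ E).symm f with hν'
  have hf : ∀ x, f x = inner ℝ ν' x := fun x => by
    rw [hν', InnerProductSpace.toDual_symm_apply]
  set νh : E := ν' - (inner ℝ e ν') • e with hνh
  have hperp : ∀ z : E, inner ℝ e z = 0 → inner ℝ ν' z = inner ℝ νh z := by
    intro z hz
    rw [hνh, inner_sub_left, inner_smul_left, hz]; simp
  have hνe : inner ℝ νh e = 0 := by
    rw [hνh, inner_sub_left, inner_smul_left, real_inner_self_eq_norm_sq, he, real_inner_comm]
    simp
  have hde' : inner ℝ e (ω • d) = 0 := by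
    rw [inner_smul_right, real_inner_comm, hde, mul_zero]
  obtain ⟨p0, hp0⟩ := hne
  have h0 : (0 : E) ∈ S - S := Set.mem_sub.mpr ⟨p0, hp0, p0, hp0, sub_self _⟩
  have hu0 : 0 < u := by simpa using hfu 0 h0
  by_cases hz : νh = 0
  · have : f (ω • d) = 0 := by rw [hf, hperp _ hde', hz, inner_zero_left]
    linarith
  · have hnorm : 0 < ‖νh‖ := norm_pos_iff.mpr hz
    obtain ⟨p, hp, q, hq, hpq⟩ := hw ((‖νh‖)⁻¹ • νh) (by
        rw [norm_smul, norm_inv, norm_norm]; field_simp) (by
        rw [inner_smul_left, hνe, mul_zero])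
    have hmem : q - p ∈ S - S := Set.mem_sub.mpr ⟨q, hq, p, hp, rfl⟩
    have h1 := hfu _ hmem
    have hqp : inner ℝ e (q - p) = 0 := by rw [inner_sub_right, hlev q hq, hlev p hp, sub_self]
    rw [hf, hperp _ hqp] at h1
    rw [hf, hperp _ hde', inner_smul_right] at huf
    rw [inner_smul_left] at hpq
    have h2 : inner ℝ νh d ≤ ‖νh‖ := by
      have := real_inner_le_norm νh d
      rwa [hd, mul_one] at this
    have h3 : ω * ‖νh‖ ≤ inner ℝ νh (q - p) := by
      have : ω ≤ (‖νh‖)⁻¹ * inner ℝ νh (q - p) := by simpa using hpq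
      have h4 := mul_le_mul_of_nonneg_right this hnorm.le
      have h5 : (‖νh‖)⁻¹ * inner ℝ νh (q - p) * ‖νh‖ = inner ℝ νh (q - p) := by
        field_simp
      linarith
    have h6 : ω * inner ℝ νh d ≤ ω * ‖νh‖ := mul_le_mul_of_nonneg_left h2 hω
    linarith

end Vale.Agent.Lib.P243
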