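import Vale.Agent.Lib.P243.BM2

/-! Comparison of a convex body in `(ℝ × ℝ) × ℝ` with a cone, via Brunn-Minkowski. -/

namespace Vale.Agent.Lib.P243

open Set MeasureTheory
open scoped ENNReal

theorem integral_affine_sq (α β u v : ℝ) :
    ∫ t in u..v, (α + β * t) ^ 2
      = (v - u) / 3 * ((α + β * u) ^ 2 + (α + β * u) * (α + β * v) + (α + β * v) ^ 2) := by
  have hd : ∀ t ∈ uIcc u v,
      HasDerivAt (fun t : ℝ => α ^ 2 * t + α * β * t ^ 2 + β ^ 2 * t ^ 3 / 3) ((α + β * t) ^ 2) t := by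
    intro t _
    have h1 : HasDerivAt (fun t : ℝ => α ^ 2 * t) (α ^ 2) t := by
      simpa using (hasDerivAt_id t).const_mul (α ^ 2)
    have h2 : HasDerivAt (fun t : ℝ => α * β * t ^ 2) (α * β * (2 * t)) t := by
      simpa using (hasDerivAt_pow 2 t).const_mul (α * β)
    have h3 : HasDerivAt (fun t : ℝ => β ^ 2 * t ^ 3 / 3) (β ^ 2 * (3 * t ^ 2) / 3) t := by
      simpa using ((hasDerivAt_pow 3 t).const_mul (β ^ 2)).div_const 3
    have h4 := (h1.add h2).add h3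
    have e : α ^ 2 + α * β * (2 * t) + β ^ 2 * (3 * t ^ 2) / 3 = (α + β * t) ^ 2 := by ring
    rw [e] at h4
    exact h4
  rw [intervalIntegral.integral_eq_sub_of_hasDerivAt hd
    (Continuous.intervalIntegrable (by fun_prop) _ _)]
  ring

theorem lintegral_affine_sq (α β : ℝ) {u v : ℝ} (huv : u ≤ v) :
    ∫⁻ t in Ioc u v, ENNReal.ofReal ((α + β * t) ^ 2)
      = ENNReal.ofReal
        ((v - u) / 3 * ((α + β * u) ^ 2 + (α + β * u) * (α + β * v) + (α + β * v) ^ 2)) := by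
  rw [← integral_affine_sq, intervalIntegral.integral_of_le huv,
    ofReal_integral_eq_lintegral_ofReal]
  · exact (by fun_prop : Continuous fun t : ℝ => (α + β * t) ^ 2).integrableOn_Ioc
  · exact Filter.Eventually.of_forall fun t => sq_nonneg _

theorem lintegral_Ioi_shift (f : ℝ → ℝ≥0∞) (s : ℝ) :
    ∫⁻ t in Ioi 0, f (t + s) = ∫⁻ t in Ioi s, f t := by
  rw [← lintegral_indicator measurableSet_Ioi, ← lintegral_indicator measurableSet_Ioi,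
    ← lintegral_add_right_eq_self ((Ioi s).indicator f) s]
  refine lintegral_congr fun t => ?_
  by_cases h : 0 < t
  · rw [indicator_of_mem (show t ∈ Ioi 0 from h),
      indicator_of_mem (show t + s ∈ Ioi s from by simpa using h)]
  · rw [indicator_of_notMem (show t ∉ Ioi 0 from h),
      indicator_of_notMem (show t + s ∉ Ioi s from by simpa using h)]

theorem cone_alg {V G0 Gs Ll s l y D Ψ : ℝ} (hG0 : 0 < G0) (hGs0 : 0 ≤ Gs)
    (hy0 : 0 ≤ y) (hy1 : y < 1) (hs : 0 < s)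
    (hsV : s * G0 ^ 2 = 3 * V * (1 - y)) (hLl : 0 ≤ Ll)
    (hLl' : s * Ll = s * G0 - l * (G0 - Gs))
    (hD : s / 3 * (G0 ^ 2 + G0 * Gs + Gs ^ 2) ≤ D) (hΨ0 : 0 ≤ Ψ)
    (hΨ : Ψ ≤ (l - s) / 3 * (Gs ^ 2 + Gs * Ll + Ll ^ 2)) (hVD : V = D + Ψ) : Ψ ≤ V * y ^ 3 := by
  rcases le_or_gt (y * G0) Gs with hcase | hcase
  · have hyG : 0 ≤ y * G0 := mul_nonneg hy0 hG0.le
    have h1 : G0 ^ 2 * (1 + y + y ^ 2) ≤ G0 ^ 2 + G0 * Gs + Gs ^ 2 := by
      have a1 : G0 * (y * G0) ≤ G0 * Gs := mul_le_mul_of_nonneg_left hcase hG0.le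
      have a2 : (y * G0) ^ 2 ≤ Gs ^ 2 := pow_le_pow_left₀ hyG hcase 2
      nlinarith
    have h2 : s / 3 * (G0 ^ 2 * (1 + y + y ^ 2)) ≤ D :=
      le_trans (mul_le_mul_of_nonneg_left h1 (by positivity)) hD
    have h3 : s / 3 * (G0 ^ 2 * (1 + y + y ^ 2)) = V * (1 - y ^ 3) := by
      have : s / 3 * (G0 ^ 2 * (1 + y + y ^ 2)) = (s * G0 ^ 2) * (1 + y + y ^ 2) / 3 := by ring
      rw [this, hsV]; ring
    rw [h3] at h2
    linarith
  · have hδ : (1 - y) * G0 ≤ G0 - Gs := by linarith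
    have hδ0 : 0 ≤ G0 - Gs := le_trans (mul_nonneg (by linarith) hG0.le) hδ
    have e1 : (l - s) * (G0 - Gs) = s * (Gs - Ll) := by linarith
    have h1 : Ψ * (G0 - Gs) ≤ s / 3 * (Gs ^ 3 - Ll ^ 3) := by
      calc Ψ * (G0 - Gs) ≤ (l - s) / 3 * (Gs ^ 2 + Gs * Ll + Ll ^ 2) * (G0 - Gs) :=
            mul_le_mul_of_nonneg_right hΨ hδ0
        _ = ((l - s) * (G0 - Gs)) * (Gs ^ 2 + Gs * Ll + Ll ^ 2) / 3 := by ring
        _ = s / 3 * (Gs ^ 3 - Ll ^ 3) := by rw [e1]; ring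
    have h2 : Gs ^ 3 - Ll ^ 3 ≤ (y * G0) ^ 3 := by
      have a1 : Gs ^ 3 ≤ (y * G0) ^ 3 := pow_le_pow_left₀ hGs0 hcase.le 3
      have a2 : 0 ≤ Ll ^ 3 := by positivity
      linarith
    have h3 : Ψ * ((1 - y) * G0) ≤ s / 3 * (y * G0) ^ 3 :=
      calc Ψ * ((1 - y) * G0) ≤ Ψ * (G0 - Gs) := mul_le_mul_of_nonneg_left hδ hΨ0
        _ ≤ s / 3 * (Gs ^ 3 - Ll ^ 3) := h1
        _ ≤ s / 3 * (y * G0) ^ 3 := mul_le_mul_of_nonneg_left h2 (by positivity)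
    have h4 : s / 3 * (y * G0) ^ 3 = (V * y ^ 3) * ((1 - y) * G0) := by
      have : s / 3 * (y * G0) ^ 3 = (s * G0 ^ 2) * (y ^ 3 * G0) / 3 := by ring
      rw [this, hsV]; ring
    rw [h4] at h3
    exact le_of_mul_le_mul_right h3 (mul_pos (by linarith) hG0)

end Vale.Agent.Lib.P243
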