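import Vale.Agent.Lib.P243.Cone

/-! The volume of the part of a convex body inside a cylinder. -/

namespace Vale.Agent.Lib.P243

open Set MeasureTheory
open scoped ENNReal

theorem sqrt_lev_concave {K : Set ((ℝ × ℝ) × ℝ)} (hc : Convex ℝ K) (hk : IsCompact K) {l : ℝ}
    (hl : ∀ t, 0 ≤ t → ((lev K t).Nonempty ↔ t ≤ l)) {t0 t1 p q : ℝ} (h0 : 0 ≤ t0) (h0l : t0 ≤ l)
    (h1 : 0 ≤ t1) (h1l : t1 ≤ l) (hp : 0 ≤ p) (hq : 0 ≤ q) (hpq : p + q = 1) :
    p * √(volume (lev K t0)).toReal + q * √(volume (lev K t1)).toReal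
      ≤ √(volume (lev K (p * t0 + q * t1))).toReal :=
  bm2 (lev_convex hc _) (lev_compact hk _) ((hl _ h0).mpr h0l)
    (lev_convex hc _) (lev_compact hk _) ((hl _ h1).mpr h1l)
    (lev_convex hc _) (lev_compact hk _) hp hq
    (lev_combo (K0 := K) (K1 := K) (K := K) fun _ hx _ hy => hc hx hy hp hq hpq)

theorem tail_le {K : Set ((ℝ × ℝ) × ℝ)} (hc : Convex ℝ K) (hk : IsCompact K) (hne : K.Nonempty)
    {y : ℝ} (hy0 : 0 ≤ y) (hy1 : y < 1) {s : ℝ} (hs : 0 < s) (hA : 0 < (volume (lev K 0)).toReal)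
    (hsV : s * (volume (lev K 0)).toReal = 3 * (volume K).toReal * (1 - y)) :
    ∫⁻ t in Ioi s, volume (lev K t) ≤ ENNReal.ofReal (y ^ 3) * volume K := by
  obtain ⟨l, hl0, hl⟩ := exists_max_chord hc hk hne
  have hG := goodFibres_of_convex_compact hc hk
  rw [lintegral_lev_Ioi_eq volume hs.le hl]
  rcases le_or_gt l s with hls | hsl
  · rw [Ioc_eq_empty (by linarith)]; simp
  set g : ℝ → ℝ := fun t => √(volume (lev K t)).toReal with hg
  have hg0 : ∀ t, 0 ≤ g t := fun t => Real.sqrt_nonneg _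
  have hW : ∀ t, volume (lev K t) = ENNReal.ofReal (g t ^ 2) := by
    intro t
    rw [hg]
    simp only
    rw [Real.sq_sqrt ENNReal.toReal_nonneg, ENNReal.ofReal_toReal (lev_compact hk t).measure_lt_top.ne]
  have hconc : ∀ t0 t1 p q : ℝ, 0 ≤ t0 → t0 ≤ l → 0 ≤ t1 → t1 ≤ l → 0 ≤ p → 0 ≤ q → p + q = 1 →
      p * g t0 + q * g t1 ≤ g (p * t0 + q * t1) :=
    fun t0 t1 p q a1 a2 a3 a4 a5 a6 a7 => sqrt_lev_concave hc hk hl a1 a2 a3 a4 a5 a6 a7
  have hG0 : 0 < g 0 := Real.sqrt_pos.mpr hA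
  have hG0sq : g 0 ^ 2 = (volume (lev K 0)).toReal := Real.sq_sqrt ENNReal.toReal_nonneg
  set β : ℝ := (g s - g 0) / s with hβ
  have hLs : g 0 + β * s = g s := by rw [hβ]; field_simp; ring
  have hL0 : g 0 + β * 0 = g 0 := by ring
  -- lower bound on `[0, s]`
  have hlow : ∀ t ∈ Ioc 0 s, ENNReal.ofReal ((g 0 + β * t) ^ 2) ≤ volume (lev K t) := by
    intro t ht
    rw [hW t]
    have hq : 0 ≤ t / s := div_nonneg ht.1.le hs.le
    have hp : 0 ≤ 1 - t / s := by
      have : t / s ≤ 1 := (div_le_one hs).mpr ht.2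
      linarith
    have h := hconc 0 s (1 - t / s) (t / s) le_rfl hl0 hs.le hsl.le hp hq (by ring)
    have e1 : (1 - t / s) * 0 + t / s * s = t := by field_simp; ring
    have e2 : (1 - t / s) * g 0 + t / s * g s = g 0 + β * t := by rw [hβ]; field_simp; ring
    rw [e1, e2] at h
    have hnn : 0 ≤ g 0 + β * t := by
      rw [← e2]; exact add_nonneg (mul_nonneg hp (hg0 _)) (mul_nonneg hq (hg0 _))
    exact ENNReal.ofReal_le_ofReal (pow_le_pow_left₀ hnn h 2)
  -- upper bound on `[s, l]`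
  have hupp' : ∀ t ∈ Ioc s l, g t ≤ g 0 + β * t := by
    intro t ht
    have ht0 : 0 < t := lt_trans hs ht.1
    have hq : 0 ≤ s / t := div_nonneg hs.le ht0.le
    have hp : 0 ≤ 1 - s / t := by
      have : s / t ≤ 1 := (div_le_one ht0).mpr ht.1.le
      linarith
    have h := hconc 0 t (1 - s / t) (s / t) le_rfl hl0 ht0.le ht.2 hp hq (by ring)
    have e1 : (1 - s / t) * 0 + s / t * t = s := by field_simp; ring
    rw [e1] at h
    have h2 := mul_le_mul_of_nonneg_left h (div_nonneg ht0.le hs.le)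
    have e2 : t / s * ((1 - s / t) * g 0 + s / t * g t) = t / s * g 0 - g 0 + g t := by
      field_simp
    have e3 : g 0 + β * t = g 0 + t / s * g s - t / s * g 0 := by rw [hβ]; field_simp; ring
    rw [e2] at h2
    rw [e3]
    linarith
  have hupp : ∀ t ∈ Ioc s l, volume (lev K t) ≤ ENNReal.ofReal ((g 0 + β * t) ^ 2) := by
    intro t ht
    rw [hW t]
    exact ENNReal.ofReal_le_ofReal (pow_le_pow_left₀ (hg0 t) (hupp' t ht) 2)
  have hD : ENNReal.ofReal (s / 3 * (g 0 ^ 2 + g 0 * g s + g s ^ 2))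
      ≤ ∫⁻ t in Ioc 0 s, volume (lev K t) := by
    have := lintegral_affine_sq (g 0) β hs.le
    rw [hL0, hLs, sub_zero] at this
    rw [← this]
    exact setLIntegral_mono' measurableSet_Ioc hlow
  have hΨ : ∫⁻ t in Ioc s l, volume (lev K t)
      ≤ ENNReal.ofReal ((l - s) / 3 * (g s ^ 2 + g s * (g 0 + β * l) + (g 0 + β * l) ^ 2)) := by
    have := lintegral_affine_sq (g 0) β hsl.le
    rw [hLs] at this
    rw [← this]
    exact setLIntegral_mono' measurableSet_Ioc hupp
  have hVsplit : volume K = (∫⁻ t in Ioc 0 s, volume (lev K t))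
      + ∫⁻ t in Ioc s l, volume (lev K t) := by
    rw [Measure.volume_eq_prod, prod_volume_eq volume hG hk.measurableSet,
      ← lintegral_lev_Ioi_eq volume hs.le hl, ← Ioc_union_Ioi_eq_Ioi hs.le,
      lintegral_union measurableSet_Ioi]
    exact Set.disjoint_left.mpr fun t h1 h2 => not_lt.mpr h1.2 h2
  have hVtop : volume K ≠ ⊤ := hk.measure_lt_top.ne
  set D := ∫⁻ t in Ioc 0 s, volume (lev K t) with hDdef
  set Ψ := ∫⁻ t in Ioc s l, volume (lev K t) with hΨdef
  have hDtop : D ≠ ⊤ := fun h => hVtop (by rw [hVsplit, h]; simp)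
  have hΨtop : Ψ ≠ ⊤ := fun h => hVtop (by rw [hVsplit, h]; simp)
  have hLl : 0 ≤ g 0 + β * l := le_trans (hg0 l) (hupp' l ⟨hsl, le_rfl⟩)
  have key : Ψ.toReal ≤ (volume K).toReal * y ^ 3 := by
    refine cone_alg (G0 := g 0) (Gs := g s) (Ll := g 0 + β * l) (s := s) (l := l) (D := D.toReal)
      hG0 (hg0 s) hy0 hy1 hs ?_ hLl ?_ ?_ ENNReal.toReal_nonneg ?_ ?_
    · rw [hG0sq]; exact hsV
    · rw [hβ]; field_simp; ring
    · exact (ENNReal.ofReal_le_iff_le_toReal hDtop).mp hD
    · refine ENNReal.toReal_le_of_le_ofReal ?_ hΨ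
      have : 0 ≤ l - s := by linarith
      have := hg0 s
      positivity
    · rw [hVsplit, ENNReal.toReal_add hDtop hΨtop]
  calc Ψ = ENNReal.ofReal Ψ.toReal := (ENNReal.ofReal_toReal hΨtop).symm
    _ ≤ ENNReal.ofReal ((volume K).toReal * y ^ 3) := ENNReal.ofReal_le_ofReal key
    _ = ENNReal.ofReal (y ^ 3) * volume K := by
      rw [mul_comm, ENNReal.ofReal_mul (by positivity), ENNReal.ofReal_toReal hVtop]

/-- The part of a convex body `K` inside a cylinder over `B`, where `B` has at most the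
fraction `y ^ 2` of the area of the shadow of `K`. -/
theorem cyl_inter_le {K : Set ((ℝ × ℝ) × ℝ)} (hc : Convex ℝ K) (hk : IsCompact K)
    {B : Set (ℝ × ℝ)} (hB : MeasurableSet B) {y : ℝ} (hy0 : 0 ≤ y) (hy1 : y ≤ 1)
    (hBy : y < 1 → volume B ≤ ENNReal.ofReal (y ^ 2) * volume (Prod.fst '' K)) :
    volume (K ∩ B ×ˢ univ) ≤ ENNReal.ofReal (3 * y ^ 2 - 2 * y ^ 3) * volume K := by
  rcases eq_or_ne (volume K) 0 with hV0 | hV0
  · rw [hV0, mul_zero]
    exact le_trans (measure_mono inter_subset_left) hV0.le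
  rcases hy1.eq_or_lt with h1 | h1
  · rw [h1]
    norm_num
    exact measure_mono inter_subset_left
  have hne : K.Nonempty := by
    by_contra h
    rw [not_nonempty_iff_eq_empty] at h
    exact hV0 (by rw [h, measure_empty])
  have hG := goodFibres_of_convex_compact hc hk
  have hVtop : volume K ≠ ⊤ := hk.measure_lt_top.ne
  have hAtop : volume (lev K 0) ≠ ⊤ := (lev_compact hk 0).measure_lt_top.ne
  have hV : 0 < (volume K).toReal := ENNReal.toReal_pos hV0 hVtop
  have hA0 : volume (lev K 0) ≠ 0 := by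
    intro h
    apply hV0
    have hsub : K ⊆ (lev K 0) ×ˢ (univ : Set ℝ) := by
      intro x hx
      refine ⟨?_, mem_univ _⟩
      rw [lev_zero]
      exact ⟨x, hx, rfl⟩
    have := measure_mono (μ := volume) hsub
    rw [Measure.volume_eq_prod, Measure.prod_prod, h, zero_mul] at this
    rw [Measure.volume_eq_prod]
    exact le_antisymm this zero_le
  have hA : 0 < (volume (lev K 0)).toReal := ENNReal.toReal_pos hA0 hAtop
  set V := (volume K).toReal with hVdef
  set A := (volume (lev K 0)).toReal with hAdef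
  set s : ℝ := 3 * V * (1 - y) / A with hsdef
  have hs : 0 < s := by
    have : 0 < 1 - y := by linarith
    positivity
  have hsV : s * A = 3 * V * (1 - y) := by rw [hsdef]; field_simp
  have h2 := prod_volume_inter_le volume hG hk.measurableSet hB hs.le
  rw [← Measure.volume_eq_prod, lintegral_Ioi_shift (fun t => volume (lev K t)) s] at h2
  have h3 := tail_le hc hk hne hy0 h1 hs hA hsV
  have h4 : ENNReal.ofReal s * volume B ≤ ENNReal.ofReal (3 * V * (1 - y) * y ^ 2) := by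
    calc ENNReal.ofReal s * volume B
        ≤ ENNReal.ofReal s * (ENNReal.ofReal (y ^ 2) * volume (Prod.fst '' K)) := by
          have := hBy h1
          gcongr
      _ = ENNReal.ofReal s * (ENNReal.ofReal (y ^ 2) * ENNReal.ofReal A) := by
          rw [← lev_zero, hAdef, ENNReal.ofReal_toReal hAtop]
      _ = ENNReal.ofReal (3 * V * (1 - y) * y ^ 2) := by
          rw [← ENNReal.ofReal_mul (by positivity), ← ENNReal.ofReal_mul hs.le]
          congr 1
          rw [← hsV]; ring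
  calc volume (K ∩ B ×ˢ univ)
      ≤ ENNReal.ofReal s * volume B + ∫⁻ t in Ioi s, volume (lev K t) := h2
    _ ≤ ENNReal.ofReal (3 * V * (1 - y) * y ^ 2) + ENNReal.ofReal (y ^ 3) * volume K :=
        add_le_add h4 h3
    _ = ENNReal.ofReal (3 * V * (1 - y) * y ^ 2) + ENNReal.ofReal (y ^ 3 * V) := by
        rw [ENNReal.ofReal_mul (p := y ^ 3) (by positivity), hVdef, ENNReal.ofReal_toReal hVtop]
    _ = ENNReal.ofReal ((3 * y ^ 2 - 2 * y ^ 3) * V) := by
        rw [← ENNReal.ofReal_add]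
        · congr 1; ring
        · have : 0 ≤ 1 - y := by linarith
          positivity
        · positivity
    _ = ENNReal.ofReal (3 * y ^ 2 - 2 * y ^ 3) * volume K := by
        rw [ENNReal.ofReal_mul, hVdef, ENNReal.ofReal_toReal hVtop]
        nlinarith [pow_nonneg hy0 2, mul_nonneg (pow_nonneg hy0 2) (by linarith : (0:ℝ) ≤ 1 - y)]

end Vale.Agent.Lib.P243
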