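import Vale.Agent.Lib.P243.Hausdorff
import Vale.Agent.Lib.P243.Tail

/-! Orthonormal coordinates in three-space adapted to a cylinder direction. -/

namespace Vale.Agent.Lib.P243

open Set MeasureTheory Module
open scoped ENNReal

/-- Orthonormal coordinates on three-space as a measure preserving equivalence. -/
theorem exists_coords3 (a b u : EuclideanSpace ℝ (Fin 3)) (ha : ‖a‖ = 1) (hb : ‖b‖ = 1)
    (hu : ‖u‖ = 1) (hab : inner ℝ a b = 0) (hau : inner ℝ a u = 0) (hbu : inner ℝ b u = 0) :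
    ∃ Φ : EuclideanSpace ℝ (Fin 3) ≃ᵐ (ℝ × ℝ) × ℝ, MeasurePreserving Φ volume volume ∧
      ∀ x, Φ x = (((inner ℝ a x : ℝ), (inner ℝ b x : ℝ)), (inner ℝ u x : ℝ)) := by
  have hv : Orthonormal ℝ ![a, b, u] := by
    refine ⟨fun i => ?_, fun i j hij => ?_⟩
    · fin_cases i <;> simp [ha, hb, hu]
    · fin_cases i <;> fin_cases j <;> simp_all [real_inner_comm]
  let bs := basisOfOrthonormalOfCardEqFinrank hv (by simp)
  have hbs : (bs : Fin 3 → EuclideanSpace ℝ (Fin 3)) = ![a, b, u] :=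
    coe_basisOfOrthonormalOfCardEqFinrank hv _
  let ob : OrthonormalBasis (Fin 3) ℝ (EuclideanSpace ℝ (Fin 3)) :=
    bs.toOrthonormalBasis (by rw [hbs]; exact hv)
  have hob : (ob : Fin 3 → EuclideanSpace ℝ (Fin 3)) = ![a, b, u] := by
    rw [Basis.coe_toOrthonormalBasis, hbs]
  let Φ : EuclideanSpace ℝ (Fin 3) ≃ᵐ (ℝ × ℝ) × ℝ := ob.measurableEquiv.trans
    ((MeasurableEquiv.toLp 2 (Fin 3 → ℝ)).symm.trans
      ((MeasurableEquiv.piFinSuccAbove (fun _ : Fin 3 => ℝ) (Fin.last 2)).trans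
        (MeasurableEquiv.prodComm.trans
          (MeasurableEquiv.prodCongr MeasurableEquiv.finTwoArrow (MeasurableEquiv.refl ℝ)))))
  have hΦ : MeasurePreserving Φ volume volume :=
    ob.measurePreserving_measurableEquiv.trans
      ((EuclideanSpace.volume_preserving_symm_measurableEquiv_toLp (Fin 3)).trans
        ((volume_preserving_piFinSuccAbove (fun _ : Fin 3 => ℝ) (Fin.last 2)).trans
          (Measure.measurePreserving_swap.trans
            ((volume_preserving_finTwoArrow ℝ).prod (MeasurePreserving.id volume)))))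
  refine ⟨Φ, hΦ, fun x => ?_⟩
  have h0 : ob.repr x 0 = inner ℝ a x := by
    rw [OrthonormalBasis.repr_apply_apply, hob]; rfl
  have h1 : ob.repr x 1 = inner ℝ b x := by
    rw [OrthonormalBasis.repr_apply_apply, hob]; rfl
  have h2 : ob.repr x 2 = inner ℝ u x := by
    rw [OrthonormalBasis.repr_apply_apply, hob]; rfl
  rw [← h0, ← h1, ← h2]
  rfl

/-- Area of a subset of the plane orthogonal to `u`, in orthonormal coordinates. -/
theorem planar_coords (u a b : EuclideanSpace ℝ (Fin 3)) (hu : ‖u‖ = 1) (ha : ‖a‖ = 1)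
    (hb : ‖b‖ = 1) (hab : inner ℝ a b = 0) (hau : inner ℝ a u = 0) (hbu : inner ℝ b u = 0)
    (S : Set (EuclideanSpace ℝ (Fin 3))) (hS : ∀ x ∈ S, inner ℝ u x = 0) :
    volume ((fun x : EuclideanSpace ℝ (Fin 3) => ((inner ℝ a x : ℝ), (inner ℝ b x : ℝ))) '' S)
      = μHE[2] S := by
  have hma : a ∈ (ℝ ∙ u)ᗮ := Submodule.mem_orthogonal_singleton_iff_inner_left.mpr hau
  have hmb : b ∈ (ℝ ∙ u)ᗮ := Submodule.mem_orthogonal_singleton_iff_inner_left.mpr hbu
  have h1 := coords_volume (finrank_perp u hu) (⟨a, hma⟩ : (ℝ ∙ u)ᗮ) ⟨b, hmb⟩ ha hb hab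
    (Subtype.val ⁻¹' S)
  have h2 : Subtype.val '' (Subtype.val ⁻¹' S : Set ↥(ℝ ∙ u)ᗮ) = S :=
    image_preimage_eq_of_subset fun x hx =>
      ⟨⟨x, Submodule.mem_orthogonal_singleton_iff_inner_right.mpr (hS x hx)⟩, rfl⟩
  rw [volume_eq_muHE u hu, h2] at h1
  rw [← h1]
  congr 1
  conv_lhs => rw [← h2]
  rw [image_image]
  rfl

/-- The volume of the part of `K` inside one cylinder. -/
theorem cyl_piece (K : Set (EuclideanSpace ℝ (Fin 3))) (hconv : Convex ℝ K) (hcomp : IsCompact K)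
    (u : EuclideanSpace ℝ (Fin 3)) (hu : ‖u‖ = 1) (B : Set (EuclideanSpace ℝ (Fin 3)))
    (hB : ∀ b ∈ B, inner ℝ u b = 0) (y : ℝ) (hy0 : 0 ≤ y) (hy1 : y ≤ 1)
    (hBy : y < 1 → μHE[2] B ≤ ENNReal.ofReal (y ^ 2) *
      μHE[2] ((fun x : EuclideanSpace ℝ (Fin 3) => x - (inner ℝ u x : ℝ) • u) '' K)) :
    volume (K ∩ {x | ∃ b ∈ B, ∃ t : ℝ, x = b + t • u})
      ≤ ENNReal.ofReal (3 * y ^ 2 - 2 * y ^ 3) * volume K := by
  have hu0 : u ≠ 0 := by
    intro h; rw [h, norm_zero] at hu; exact zero_ne_one hu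
  obtain ⟨a, ha, hau⟩ := exists_unit_perp (k := 1) (by simp) u hu0
  obtain ⟨b, hb, hbu, hba⟩ := exists_third u a hu ha hau
  have hab : inner ℝ a b = 0 := by rw [real_inner_comm]; exact hba
  obtain ⟨Φ, hΦ, hΦf⟩ := exists_coords3 a b u ha hb hu hab hau hbu
  set ψ : EuclideanSpace ℝ (Fin 3) → ℝ × ℝ := fun x => ((inner ℝ a x : ℝ), (inner ℝ b x : ℝ))
    with hψ
  have hfun : (Φ : EuclideanSpace ℝ (Fin 3) → (ℝ × ℝ) × ℝ)
      = fun x => (((inner ℝ a x : ℝ), (inner ℝ b x : ℝ)), (inner ℝ u x : ℝ)) := funext hΦf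
  have hK'c : Convex ℝ (Φ '' K) := by
    rintro _ ⟨x, hx, rfl⟩ _ ⟨z, hz, rfl⟩ p q hp hq hpq
    refine ⟨p • x + q • z, hconv hx hz hp hq hpq, ?_⟩
    rw [hΦf, hΦf, hΦf]
    ext <;> simp [inner_add_right, inner_smul_right]
  have hK'k : IsCompact (Φ '' K) := by
    rw [hfun]; exact hcomp.image (by fun_prop)
  have hK'v : volume (Φ '' K) = volume K := by
    rw [MeasurableEquiv.image_eq_preimage_symm]
    exact hΦ.symm.measure_preimage_equiv K
  have hfst : Prod.fst '' (Φ '' K) = ψ '' K := by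
    rw [image_image]
    refine image_congr fun x _ => ?_
    rw [hΦf]
  have hshadow : ψ '' K
      = ψ '' ((fun x : EuclideanSpace ℝ (Fin 3) => x - (inner ℝ u x : ℝ) • u) '' K) := by
    rw [image_image]
    refine image_congr fun x _ => ?_
    simp only [hψ, inner_sub_right, inner_smul_right, hau, hbu, mul_zero, sub_zero]
  have hshv : volume (ψ '' K)
      = μHE[2] ((fun x : EuclideanSpace ℝ (Fin 3) => x - (inner ℝ u x : ℝ) • u) '' K) := by
    rw [hshadow]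
    refine planar_coords u a b hu ha hb hab hau hbu _ ?_
    rintro _ ⟨x, -, rfl⟩
    rw [inner_sub_right, inner_smul_right, real_inner_self_eq_norm_sq, hu]
    ring
  have hBv : volume (toMeasurable volume (ψ '' B)) = μHE[2] B := by
    rw [measure_toMeasurable]
    exact planar_coords u a b hu ha hb hab hau hbu B hB
  have hmain := cyl_inter_le hK'c hK'k (measurableSet_toMeasurable volume (ψ '' B)) hy0 hy1
    (by
      intro h
      rw [hBv, hfst, hshv]
      exact hBy h)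
  rw [hK'v] at hmain
  refine le_trans ?_ hmain
  rw [← hΦ.measure_preimage_equiv]
  refine measure_mono ?_
  rintro x ⟨hx, b', hb', t, rfl⟩
  refine ⟨mem_image_of_mem _ hx, ?_, mem_univ _⟩
  apply subset_toMeasurable
  refine ⟨b', hb', ?_⟩
  rw [hΦf]
  simp only [hψ, inner_add_right, inner_smul_right, hau, hbu, mul_zero, add_zero]

/-- The refined volumetric inequality. -/
theorem refined_core (K : Set (EuclideanSpace ℝ (Fin 3))) (hconv : Convex ℝ K)
    (hcomp : IsCompact K) (hV : volume K ≠ 0)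
    (m : ℕ) (u : Fin m → EuclideanSpace ℝ (Fin 3)) (hu : ∀ i, ‖u i‖ = 1)
    (B : Fin m → Set (EuclideanSpace ℝ (Fin 3))) (hB : ∀ i, ∀ b ∈ B i, inner ℝ (u i) b = 0)
    (hcov : ∀ x ∈ K, ∃ i, ∃ b ∈ B i, ∃ t : ℝ, x = b + t • u i)
    (y : Fin m → ℝ) (hy0 : ∀ i, 0 ≤ y i) (hy1 : ∀ i, y i ≤ 1)
    (hBy : ∀ i, y i < 1 → μHE[2] (B i) ≤ ENNReal.ofReal (y i ^ 2) *
      μHE[2] ((fun x : EuclideanSpace ℝ (Fin 3) => x - (inner ℝ (u i) x : ℝ) • u i) '' K)) :
    1 ≤ ∑ i, (3 * y i ^ 2 - 2 * y i ^ 3) := by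
  have hVtop : volume K ≠ ⊤ := hcomp.measure_lt_top.ne
  have hφ : ∀ i, 0 ≤ 3 * y i ^ 2 - 2 * y i ^ 3 := by
    intro i
    nlinarith [pow_nonneg (hy0 i) 2, mul_nonneg (pow_nonneg (hy0 i) 2) (sub_nonneg.mpr (hy1 i))]
  have h1 : volume K ≤ ∑ i, volume (K ∩ {x | ∃ b ∈ B i, ∃ t : ℝ, x = b + t • u i}) := by
    refine le_trans (measure_mono ?_) (measure_iUnion_fintype_le _ _)
    intro x hx
    obtain ⟨i, hi⟩ := hcov x hx
    exact mem_iUnion.mpr ⟨i, hx, hi⟩
  have h2 : volume K ≤ ENNReal.ofReal (∑ i, (3 * y i ^ 2 - 2 * y i ^ 3)) * volume K := by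
    rw [ENNReal.ofReal_sum_of_nonneg fun i _ => hφ i, Finset.sum_mul]
    exact le_trans h1 (Finset.sum_le_sum fun i _ =>
      cyl_piece K hconv hcomp (u i) (hu i) (B i) (hB i) (y i) (hy0 i) (hy1 i) (hBy i))
  have h3 : (1 : ℝ≥0∞) ≤ ENNReal.ofReal (∑ i, (3 * y i ^ 2 - 2 * y i ^ 3)) := by
    have : 1 * volume K ≤ ENNReal.ofReal (∑ i, (3 * y i ^ 2 - 2 * y i ^ 3)) * volume K := by
      rwa [one_mul]
    exact (ENNReal.mul_le_mul_iff_left hV hVtop).mp this
  exact ENNReal.one_le_ofReal.mp h3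

end Vale.Agent.Lib.P243
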