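import Mathlib

/-! Area bound for a planar compact convex set in terms of one horizontal section. -/

namespace Vale.Agent.Lib.P243

open Set MeasureTheory
open scoped ENNReal

/-- Horizontal sections of a planar compact convex set are compact intervals. -/
theorem section_eq_Icc (P : Set (ℝ × ℝ)) (hP : Convex ℝ P) (hPc : IsCompact P) (t : ℝ)
    (hne : ∃ s, (s, t) ∈ P) : ∃ α β, α ≤ β ∧ {s | (s, t) ∈ P} = Icc α β := by
  have himg : {s | (s, t) ∈ P} = Prod.fst '' (P ∩ {z | z.2 = t}) := by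
    ext s
    simp only [mem_ofPred_eq, mem_image, mem_inter_iff, Prod.exists, exists_and_right,
      exists_eq_right]
  have hcomp : IsCompact {s | (s, t) ∈ P} := by
    rw [himg]
    exact (hPc.inter_right (isClosed_eq continuous_snd continuous_const)).image continuous_fst
  have hconv : Convex ℝ {s | (s, t) ∈ P} := by
    intro x hx y hy a b ha hb hab
    have := hP hx hy ha hb hab
    simp only [mem_ofPred_eq]
    have e : a • (x, t) + b • (y, t) = (a • x + b • y, t) := by
      ext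
      · simp
      · simp only [Prod.snd_add, Prod.smul_snd, smul_eq_mul]
        rw [← add_mul, hab, one_mul]
    rwa [e] at this
  have hconn : IsConnected {s | (s, t) ∈ P} := ⟨hne, hconv.isPreconnected⟩
  have := eq_Icc_of_connected_compact hconn hcomp
  refine ⟨_, _, ?_, this⟩
  obtain ⟨s, hs⟩ := hne
  have hs' : s ∈ {s | (s, t) ∈ P} := hs
  rw [this] at hs'
  exact hs'.1.trans hs'.2

/-- A concave function on an interval has an affine majorant touching it at an interior point. -/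
theorem exists_supergradient (W : ℝ → ℝ) (t0 t1 ts : ℝ) (hW : ConcaveOn ℝ (Icc t0 t1) W)
    (h0 : t0 < ts) (h1 : ts < t1) : ∃ κ : ℝ, ∀ x ∈ Icc t0 t1, W x ≤ W ts + κ * (x - ts) := by
  set Sl : Set ℝ := (fun x => (W ts - W x) / (ts - x)) '' Ico t0 ts with hSl
  have hne : Sl.Nonempty := ⟨_, mem_image_of_mem _ (left_mem_Ico.mpr h0)⟩
  have hlow : ∀ y ∈ Ioc ts t1, ∀ r ∈ Sl, (W y - W ts) / (y - ts) ≤ r := by
    rintro y hy r ⟨x, hx, rfl⟩
    exact hW.slope_anti_adjacent ⟨hx.1, hx.2.le.trans h1.le⟩ ⟨h0.le.trans hy.1.le, hy.2⟩ hx.2 hy.1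
  have hbdd : BddBelow Sl := ⟨_, fun r hr => hlow t1 (right_mem_Ioc.mpr h1) r hr⟩
  refine ⟨sInf Sl, fun x hx => ?_⟩
  rcases lt_trichotomy x ts with hlt | heq | hgt
  · have h2 : sInf Sl ≤ (W ts - W x) / (ts - x) := csInf_le hbdd (mem_image_of_mem _ ⟨hx.1, hlt⟩)
    rw [le_div_iff₀ (by linarith)] at h2
    linarith
  · rw [heq]; simp
  · have h2 : (W x - W ts) / (x - ts) ≤ sInf Sl := le_csInf hne (hlow x ⟨hgt, hx.2⟩)
    rw [div_le_iff₀ (by linarith)] at h2
    linarith

theorem integral_affine (c κ ts t0 t1 : ℝ) :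
    ∫ t in t0..t1, (c + κ * (t - ts))
      = c * (t1 - t0) + κ * ((t1 ^ 2 - t0 ^ 2) / 2 - ts * (t1 - t0)) := by
  have h1 : IntervalIntegrable (fun _ : ℝ => c) volume t0 t1 := intervalIntegrable_const
  have h2 : IntervalIntegrable (fun t : ℝ => κ * (t - ts)) volume t0 t1 :=
    (by fun_prop : Continuous fun t : ℝ => κ * (t - ts)).intervalIntegrable _ _
  rw [intervalIntegral.integral_add h1 h2, intervalIntegral.integral_const,
    intervalIntegral.integral_const_mul,
    intervalIntegral.integral_sub intervalIntegral.intervalIntegrable_id intervalIntegrable_const,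
    integral_id, intervalIntegral.integral_const]
  simp only [smul_eq_mul]
  ring

theorem lintegral_affine (c κ ts t0 t1 : ℝ) (h01 : t0 ≤ t1)
    (hnn : ∀ t ∈ Icc t0 t1, 0 ≤ c + κ * (t - ts)) :
    ∫⁻ t in Icc t0 t1, ENNReal.ofReal (c + κ * (t - ts))
      = ENNReal.ofReal (c * (t1 - t0) + κ * ((t1 ^ 2 - t0 ^ 2) / 2 - ts * (t1 - t0))) := by
  rw [← integral_affine, intervalIntegral.integral_of_le h01, ← integral_Icc_eq_integral_Ioc]
  rw [ofReal_integral_eq_lintegral_ofReal]
  · exact (by fun_prop : Continuous fun t : ℝ => c + κ * (t - ts)).integrableOn_Icc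
  · exact ae_restrict_of_forall_mem measurableSet_Icc hnn

theorem planar_area_bound (P : Set (ℝ × ℝ)) (hP : Convex ℝ P) (hPc : IsCompact P)
    (t0 t1 s0 s1 : ℝ) (h0 : (s0, t0) ∈ P) (h1 : (s1, t1) ∈ P)
    (hrange : ∀ z ∈ P, t0 ≤ z.2 ∧ z.2 ≤ t1) (ts : ℝ) (hts0 : t0 < ts) (hts1 : ts < t1) :
    ∃ α β, α ≤ β ∧ (α, ts) ∈ P ∧ (β, ts) ∈ P ∧
      volume P ≤ ENNReal.ofReal ((β - α) * ((t1 - t0) ^ 2 / (2 * min (ts - t0) (t1 - ts)))) := by
  have h01 : t0 < t1 := hts0.trans hts1
  have hsec : ∀ t ∈ Icc t0 t1, ∃ α β, α ≤ β ∧ {s | (s, t) ∈ P} = Icc α β := by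
    intro t ht
    refine section_eq_Icc P hP hPc t ?_
    set b : ℝ := (t - t0) / (t1 - t0) with hb
    have hb0 : 0 ≤ b := div_nonneg (by linarith [ht.1]) (by linarith)
    have hb1 : b ≤ 1 := by rw [hb, div_le_one (by linarith)]; linarith [ht.2]
    have := hP h0 h1 (by linarith : 0 ≤ 1 - b) hb0 (by ring)
    refine ⟨(1 - b) * s0 + b * s1, ?_⟩
    have e : (1 - b) • (s0, t0) + b • (s1, t1) = ((1 - b) * s0 + b * s1, t) := by
      ext
      · simp
      · simp only [Prod.snd_add, Prod.smul_snd, smul_eq_mul]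
        have hne : t1 - t0 ≠ 0 := by linarith
        rw [hb]; field_simp; ring
    rwa [e] at this
  choose! α β hαβ hsecEq using hsec
  have hαP : ∀ t ∈ Icc t0 t1, (α t, t) ∈ P := by
    intro t ht
    have : α t ∈ {s | (s, t) ∈ P} := by rw [hsecEq t ht]; exact left_mem_Icc.mpr (hαβ t ht)
    exact this
  have hβP : ∀ t ∈ Icc t0 t1, (β t, t) ∈ P := by
    intro t ht
    have : β t ∈ {s | (s, t) ∈ P} := by rw [hsecEq t ht]; exact right_mem_Icc.mpr (hαβ t ht)
    exact this
  set W : ℝ → ℝ := fun t => β t - α t with hW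
  have hconc : ConcaveOn ℝ (Icc t0 t1) W := by
    refine ⟨convex_Icc t0 t1, fun x hx y hy a b ha hb hab => ?_⟩
    have hz : a • x + b • y ∈ Icc t0 t1 := convex_Icc t0 t1 hx hy ha hb hab
    have hA := hP (hαP x hx) (hαP y hy) ha hb hab
    have hB := hP (hβP x hx) (hβP y hy) ha hb hab
    have hA' : a * α x + b * α y ∈ {s | (s, a • x + b • y) ∈ P} := by
      simpa using hA
    have hB' : a * β x + b * β y ∈ {s | (s, a • x + b • y) ∈ P} := by
      simpa using hB
    rw [hsecEq _ hz] at hA' hB'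
    simp only [hW, smul_eq_mul]
    simp only [smul_eq_mul] at hA' hB'
    nlinarith [hA'.1, hB'.2]
  have htsI : ts ∈ Icc t0 t1 := ⟨hts0.le, hts1.le⟩
  obtain ⟨κ, hκ⟩ := exists_supergradient W t0 t1 ts hconc hts0 hts1
  have hWnn : ∀ t ∈ Icc t0 t1, 0 ≤ W t := fun t ht => by
    simp only [hW]; linarith [hαβ t ht]
  have hLnn : ∀ t ∈ Icc t0 t1, 0 ≤ W ts + κ * (t - ts) := fun t ht => (hWnn t ht).trans (hκ t ht)
  refine ⟨α ts, β ts, hαβ ts htsI, hαP ts htsI, hβP ts htsI, ?_⟩
  have hvol : volume P = ∫⁻ t, volume ((fun s => (s, t)) ⁻¹' P) := by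
    rw [Measure.volume_eq_prod, Measure.prod_apply_symm hPc.measurableSet]
  have hle : ∀ t, volume ((fun s => (s, t)) ⁻¹' P)
      ≤ (Icc t0 t1).indicator (fun t => ENNReal.ofReal (W ts + κ * (t - ts))) t := by
    intro t
    by_cases ht : t ∈ Icc t0 t1
    · rw [indicator_of_mem ht]
      have : (fun s => (s, t)) ⁻¹' P = Icc (α t) (β t) := hsecEq t ht
      rw [this, Real.volume_Icc]
      exact ENNReal.ofReal_le_ofReal (hκ t ht)
    · rw [indicator_of_notMem ht]
      have : (fun s => (s, t)) ⁻¹' P = ∅ := by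
        ext s
        simp only [mem_preimage, mem_empty_iff_false, iff_false]
        intro hs
        exact ht (hrange _ hs)
      rw [this]; simp
  rw [hvol]
  refine (lintegral_mono hle).trans ?_
  rw [lintegral_indicator measurableSet_Icc, lintegral_affine _ _ _ _ _ h01.le hLnn]
  refine ENNReal.ofReal_le_ofReal ?_
  have hW0 : 0 ≤ W ts := hWnn ts htsI
  have hL0 := hLnn t0 (left_mem_Icc.mpr h01.le)
  have hL1 := hLnn t1 (right_mem_Icc.mpr h01.le)
  have hWts : β ts - α ts = W ts := rfl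
  rw [hWts]
  set w := W ts with hw
  set a := ts - t0 with ha
  set b := t1 - ts with hb
  have ha0 : 0 < a := by linarith
  have hb0 : 0 < b := by linarith
  have hT : t1 - t0 = a + b := by rw [ha, hb]; ring
  have e1 : w * (t1 - t0) + κ * ((t1 ^ 2 - t0 ^ 2) / 2 - ts * (t1 - t0))
      = w * (a + b) + κ * ((a + b) * (b - a) / 2) := by
    rw [ha, hb]; ring
  have hκa : κ * a ≤ w := by
    have : t0 - ts = -a := by rw [ha]; ring
    rw [this] at hL0; linarith
  have hκb : -(κ * b) ≤ w := by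
    linarith
  rw [e1, hT]
  rcases le_total a b with hab | hab
  · have e2 : w * ((a + b) ^ 2 / (2 * a)) = (w * (a + b) ^ 2) / (2 * a) := by ring
    rw [min_eq_left hab, e2, le_div_iff₀ (by positivity)]
    have := mul_le_mul_of_nonneg_right hκa (by nlinarith : 0 ≤ (a + b) * (b - a))
    nlinarith
  · have e2 : w * ((a + b) ^ 2 / (2 * b)) = (w * (a + b) ^ 2) / (2 * b) := by ring
    rw [min_eq_right hab, e2, le_div_iff₀ (by positivity)]
    have := mul_le_mul_of_nonneg_right hκb (by nlinarith : 0 ≤ (a + b) * (a - b))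
    nlinarith

end Vale.Agent.Lib.P243
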