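import Vale.Agent.Lib.P243.PlankMeasure
import Vale.Agent.Lib.P243.Planar

/-! Coplanar axes: the half-area inequality. -/

namespace Vale.Agent.Lib.P243

open Set MeasureTheory
open scoped ENNReal

theorem integral_tent (k t0 t1 : ℝ) (h01 : t0 ≤ t1) :
    ∫ t in t0..t1, k * min (t - t0) (t1 - t) = k * (t1 - t0) ^ 2 / 4 := by
  set c : ℝ := (t0 + t1) / 2 with hc
  have hc0 : t0 ≤ c := by rw [hc]; linarith
  have hc1 : c ≤ t1 := by rw [hc]; linarith
  have hcont : Continuous fun t : ℝ => k * min (t - t0) (t1 - t) := by fun_prop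
  rw [← intervalIntegral.integral_add_adjacent_intervals (hcont.intervalIntegrable t0 c)
    (hcont.intervalIntegrable c t1)]
  have h1 : ∫ t in t0..c, k * min (t - t0) (t1 - t) = ∫ t in t0..c, (0 + k * (t - t0)) := by
    refine intervalIntegral.integral_congr fun t ht => ?_
    rw [uIcc_of_le hc0] at ht
    have : t - t0 ≤ t1 - t := by have := ht.2; rw [hc] at this; linarith
    simp only [min_eq_left this, zero_add]
  have h2 : ∫ t in c..t1, k * min (t - t0) (t1 - t) = ∫ t in c..t1, (0 + (-k) * (t - t1)) := by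
    refine intervalIntegral.integral_congr fun t ht => ?_
    rw [uIcc_of_le hc1] at ht
    have : t1 - t ≤ t - t0 := by have := ht.1; rw [hc] at this; linarith
    simp only [min_eq_right this, zero_add]
    ring
  rw [h1, h2, integral_affine, integral_affine, hc]
  ring

theorem lintegral_tent (k t0 t1 : ℝ) (hk : 0 ≤ k) (h01 : t0 ≤ t1) :
    ∫⁻ t in Icc t0 t1, ENNReal.ofReal (k * min (t - t0) (t1 - t))
      = ENNReal.ofReal (k * (t1 - t0) ^ 2 / 4) := by
  rw [← integral_tent k t0 t1 h01, intervalIntegral.integral_of_le h01,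
    ← integral_Icc_eq_integral_Ioc, ofReal_integral_eq_lintegral_ofReal]
  · exact (by fun_prop : Continuous fun t : ℝ => k * min (t - t0) (t1 - t)).integrableOn_Icc
  · refine ae_restrict_of_forall_mem measurableSet_Icc fun t ht => ?_
    exact mul_nonneg hk (le_min (by linarith [ht.1]) (by linarith [ht.2]))

variable {E : Type*} [NormedAddCommGroup E] [InnerProductSpace ℝ E]

theorem shadow_convex (K : Set E) (hK : Convex ℝ K) (ν e : E) :
    Convex ℝ ((fun x : E => ((inner ℝ ν x : ℝ), (inner ℝ e x : ℝ))) '' K) := by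
  rintro _ ⟨x, hx, rfl⟩ _ ⟨y, hy, rfl⟩ a b ha hb hab
  refine ⟨a • x + b • y, hK hx hy ha hb hab, ?_⟩
  ext <;> simp [inner_add_right, inner_smul_right]

theorem shadow_compact (K : Set E) (hKc : IsCompact K) (ν e : E) :
    IsCompact ((fun x : E => ((inner ℝ ν x : ℝ), (inner ℝ e x : ℝ))) '' K) :=
  hKc.image (by fun_prop)

/-- Core inequality with measurable bases. -/
theorem coplanar_core_measurable [CompleteSpace E] (K : Set E) (hK : Convex ℝ K) (hKc : IsCompact K)
    (e : E) (he : ‖e‖ = 1) (hD : ∃ ν : E, ‖ν‖ = 1 ∧ inner ℝ ν e = 0)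
    {m : ℕ} (n : Fin m → E) (hn : ∀ i, ‖n i‖ = 1) (hne : ∀ i, inner ℝ (n i) e = 0)
    (B : Fin m → Set (ℝ × ℝ)) (hB : ∀ i, MeasurableSet (B i))
    (hcov : ∀ x ∈ K, ∃ i, ((inner ℝ (n i) x : ℝ), (inner ℝ e x : ℝ)) ∈ B i) :
    (1 / 2 : ℝ≥0∞) * ⨅ ν : {ν : E // ‖ν‖ = 1 ∧ inner ℝ ν e = 0},
        volume ((fun x : E => ((inner ℝ ν.1 x : ℝ), (inner ℝ e x : ℝ))) '' K)
      ≤ ∑ i, volume (B i) := by
  obtain ⟨ν0, hν0, hν0e⟩ := hD
  set A : ℝ≥0∞ := ⨅ ν : {ν : E // ‖ν‖ = 1 ∧ inner ℝ ν e = 0},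
        volume ((fun x : E => ((inner ℝ ν.1 x : ℝ), (inner ℝ e x : ℝ))) '' K) with hA
  have hAle : ∀ ν : E, ‖ν‖ = 1 → inner ℝ ν e = 0 →
      A ≤ volume ((fun x : E => ((inner ℝ ν x : ℝ), (inner ℝ e x : ℝ))) '' K) :=
    fun ν h1 h2 => iInf_le_of_le ⟨ν, h1, h2⟩ le_rfl
  have hAtop : A ≠ ⊤ :=
    ((hAle ν0 hν0 hν0e).trans_lt (shadow_compact K hKc ν0 e).measure_lt_top).ne
  rcases K.eq_empty_or_nonempty with hemp | hKne
  · have : A ≤ 0 := by
      have := hAle ν0 hν0 hν0e
      rwa [hemp, image_empty, measure_empty] at this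
    rw [le_zero_iff.mp this, mul_zero]
    exact zero_le
  have hcont : ContinuousOn (fun x : E => (inner ℝ e x : ℝ)) K := by fun_prop
  obtain ⟨x0, hx0, hmin⟩ := hKc.exists_isMinOn hKne hcont
  obtain ⟨x1, hx1, hmax⟩ := hKc.exists_isMaxOn hKne hcont
  set t0 : ℝ := inner ℝ e x0 with ht0
  set t1 : ℝ := inner ℝ e x1 with ht1
  have hlo : ∀ x ∈ K, t0 ≤ inner ℝ e x := fun x hx => hmin hx
  have hhi : ∀ x ∈ K, inner ℝ e x ≤ t1 := fun x hx => hmax hx
  rcases (hlo x1 hx1).eq_or_lt with heq | hlt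
  · -- flat case
    have hsub : (fun x : E => ((inner ℝ ν0 x : ℝ), (inner ℝ e x : ℝ))) '' K
        ⊆ (univ : Set ℝ) ×ˢ ({t0} : Set ℝ) := by
      rintro _ ⟨x, hx, rfl⟩
      refine ⟨mem_univ _, ?_⟩
      simp only [mem_singleton_iff]
      exact le_antisymm ((hhi x hx).trans heq.ge) (hlo x hx)
    have hz : volume ((univ : Set ℝ) ×ˢ ({t0} : Set ℝ)) = 0 := by
      rw [Measure.volume_eq_prod, Measure.prod_prod]; simp
    have : A ≤ 0 := (hAle ν0 hν0 hν0e).trans ((measure_mono hsub).trans hz.le)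
    rw [le_zero_iff.mp this, mul_zero]
    exact zero_le
  -- main case
  set T : ℝ := t1 - t0 with hT
  have hT0 : 0 < T := by linarith
  set k : ℝ := A.toReal * 2 / T ^ 2 with hk
  have hk0 : 0 ≤ k := by positivity
  have hpoint : ∀ t ∈ Icc t0 t1, ENNReal.ofReal (k * min (t - t0) (t1 - t))
      ≤ ∑ i, volume ((fun s => (s, t)) ⁻¹' B i) := by
    intro t ht
    rcases ht.1.eq_or_lt with h0 | h0
    · have : min (t - t0) (t1 - t) = 0 := by
        rw [← h0, sub_self]; exact min_eq_left (by linarith)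
      rw [this, mul_zero, ENNReal.ofReal_zero]; exact zero_le
    rcases ht.2.eq_or_lt with h1 | h1
    · have : min (t - t0) (t1 - t) = 0 := by
        rw [h1, sub_self]; exact min_eq_right (by linarith)
      rw [this, mul_zero, ENNReal.ofReal_zero]; exact zero_le
    set d : ℝ := min (t - t0) (t1 - t) with hd
    have hd0 : 0 < d := lt_min (by linarith) (by linarith)
    set S : Set E := K ∩ {x | inner ℝ e x = t} with hS
    have hSconv : Convex ℝ S := by
      refine hK.inter ?_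
      intro x hx y hy a b _ _ hab
      simp only [mem_ofPred_eq] at hx hy ⊢
      rw [inner_add_right, inner_smul_right, inner_smul_right, hx, hy, ← add_mul, hab, one_mul]
    have hScomp : IsCompact S :=
      hKc.inter_right (isClosed_eq (by fun_prop) continuous_const)
    have hSne : S.Nonempty := by
      set b : ℝ := (t - t0) / (t1 - t0) with hb
      have hb0 : 0 ≤ b := div_nonneg (by linarith) (by linarith)
      have hb1 : b ≤ 1 := by rw [hb, div_le_one (by linarith)]; linarith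
      refine ⟨(1 - b) • x0 + b • x1, hK hx0 hx1 (by linarith) hb0 (by ring), ?_⟩
      simp only [mem_ofPred_eq]
      rw [inner_add_right, inner_smul_right, inner_smul_right, ← ht0, ← ht1, hb]
      have hne' : t1 - t0 ≠ 0 := by linarith
      field_simp
      ring
    refine plank_measure e he t S hSconv hScomp hSne (fun p hp => hp.2) n hn hne
      (fun i => (fun s => (s, t)) ⁻¹' B i) ?_ (k * d) (by positivity) ?_
    · intro p hp
      obtain ⟨i, hi⟩ := hcov p hp.1
      refine ⟨i, ?_⟩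
      have hpt : inner ℝ e p = t := hp.2
      rw [hpt] at hi
      exact hi
    · intro ν hν hνe
      obtain ⟨α, β, hαβ, hα, hβ, hvol⟩ := planar_area_bound _ (shadow_convex K hK ν e)
        (shadow_compact K hKc ν e) t0 t1 (inner ℝ ν x0) (inner ℝ ν x1) ⟨x0, hx0, rfl⟩
        ⟨x1, hx1, rfl⟩ (by
          rintro _ ⟨x, hx, rfl⟩
          exact ⟨hlo x hx, hhi x hx⟩) t h0 h1
      obtain ⟨p, hp, hpe⟩ := hα
      obtain ⟨q, hq, hqe⟩ := hβ
      have hp1 : inner ℝ ν p = α := congrArg Prod.fst hpe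
      have hp2 : inner ℝ e p = t := congrArg Prod.snd hpe
      have hq1 : inner ℝ ν q = β := congrArg Prod.fst hqe
      have hq2 : inner ℝ e q = t := congrArg Prod.snd hqe
      refine ⟨p, ⟨hp, hp2⟩, q, ⟨hq, hq2⟩, ?_⟩
      rw [inner_sub_right, hp1, hq1]
      have hreal : A.toReal ≤ (β - α) * ((t1 - t0) ^ 2 / (2 * d)) :=
        ENNReal.toReal_le_of_le_ofReal (mul_nonneg (by linarith) (by positivity))
          ((hAle ν hν hνe).trans hvol)
      rw [← hT] at hreal
      have e1 : k * d = A.toReal / (T ^ 2 / (2 * d)) := by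
        rw [hk]; field_simp
      rw [e1, div_le_iff₀ (by positivity)]
      exact hreal
  have hsum : ∑ i, volume (B i) = ∫⁻ t, ∑ i, volume ((fun s => (s, t)) ⁻¹' B i) := by
    rw [lintegral_finsetSum _ fun i _ => measurable_measure_prodMk_right (hB i)]
    refine Finset.sum_congr rfl fun i _ => ?_
    rw [Measure.volume_eq_prod, Measure.prod_apply_symm (hB i)]
  rw [hsum]
  calc (1 / 2 : ℝ≥0∞) * A = ENNReal.ofReal (k * (t1 - t0) ^ 2 / 4) := by
        have h2 : (1 / 2 : ℝ≥0∞) = ENNReal.ofReal (1 / 2) := by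
          rw [ENNReal.ofReal_div_of_pos two_pos]; simp
        rw [h2, ← ENNReal.ofReal_toReal hAtop, ← ENNReal.ofReal_mul (by norm_num)]
        congr 1
        rw [hk, ← hT]; field_simp; ring
    _ = ∫⁻ t in Icc t0 t1, ENNReal.ofReal (k * min (t - t0) (t1 - t)) :=
        (lintegral_tent k t0 t1 hk0 hlt.le).symm
    _ ≤ ∫⁻ t in Icc t0 t1, ∑ i, volume ((fun s => (s, t)) ⁻¹' B i) :=
        setLIntegral_mono' measurableSet_Icc hpoint
    _ ≤ ∫⁻ t, ∑ i, volume ((fun s => (s, t)) ⁻¹' B i) := setLIntegral_le_lintegral _ _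

/-- Core inequality, arbitrary bases (outer measure). -/
theorem coplanar_core [CompleteSpace E] (K : Set E) (hK : Convex ℝ K) (hKc : IsCompact K)
    (e : E) (he : ‖e‖ = 1) (hD : ∃ ν : E, ‖ν‖ = 1 ∧ inner ℝ ν e = 0)
    {m : ℕ} (n : Fin m → E) (hn : ∀ i, ‖n i‖ = 1) (hne : ∀ i, inner ℝ (n i) e = 0)
    (B : Fin m → Set (ℝ × ℝ))
    (hcov : ∀ x ∈ K, ∃ i, ((inner ℝ (n i) x : ℝ), (inner ℝ e x : ℝ)) ∈ B i) :
    (1 / 2 : ℝ≥0∞) * ⨅ ν : {ν : E // ‖ν‖ = 1 ∧ inner ℝ ν e = 0},
        volume ((fun x : E => ((inner ℝ ν.1 x : ℝ), (inner ℝ e x : ℝ))) '' K)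
      ≤ ∑ i, volume (B i) := by
  have := coplanar_core_measurable K hK hKc e he hD n hn hne
    (fun i => toMeasurable volume (B i)) (fun i => measurableSet_toMeasurable _ _)
    (fun x hx => by
      obtain ⟨i, hi⟩ := hcov x hx
      exact ⟨i, subset_toMeasurable _ _ hi⟩)
  simpa only [measure_toMeasurable] using this

end Vale.Agent.Lib.P243
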