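import Vale.Agent.Lib.P243.Core

/-! Passage from orthonormal coordinates to the intrinsic area on the planes `(ℝ ∙ u)ᗮ`. -/

namespace Vale.Agent.Lib.P243

open Set MeasureTheory Module
open scoped ENNReal

/-- Orthonormal coordinates on a two-dimensional inner product space preserve area. -/
theorem coords_volume {F : Type*} [NormedAddCommGroup F] [InnerProductSpace ℝ F]
    [FiniteDimensional ℝ F] [MeasurableSpace F] [BorelSpace F] (hF : finrank ℝ F = 2)
    (a b : F) (ha : ‖a‖ = 1) (hb : ‖b‖ = 1) (hab : inner ℝ a b = 0) (s : Set F) :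
    volume ((fun w : F => ((inner ℝ a w : ℝ), (inner ℝ b w : ℝ))) '' s) = volume s := by
  have hv : Orthonormal ℝ ![a, b] := by
    refine ⟨fun i => ?_, fun i j hij => ?_⟩
    · fin_cases i <;> simp [ha, hb]
    · fin_cases i <;> fin_cases j <;> simp_all [real_inner_comm]
  let bs := basisOfOrthonormalOfCardEqFinrank hv (by simp [hF])
  have hbs : (bs : Fin 2 → F) = ![a, b] := coe_basisOfOrthonormalOfCardEqFinrank hv _
  let ob : OrthonormalBasis (Fin 2) ℝ F := bs.toOrthonormalBasis (by rw [hbs]; exact hv)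
  have hob : (ob : Fin 2 → F) = ![a, b] := by
    rw [Basis.coe_toOrthonormalBasis, hbs]
  let Φ : F ≃ᵐ ℝ × ℝ := ob.measurableEquiv.trans
    ((MeasurableEquiv.toLp 2 (Fin 2 → ℝ)).symm.trans MeasurableEquiv.finTwoArrow)
  have hΦ : MeasurePreserving Φ volume volume :=
    ob.measurePreserving_measurableEquiv.trans
      ((EuclideanSpace.volume_preserving_symm_measurableEquiv_toLp (Fin 2)).trans
        (volume_preserving_finTwoArrow ℝ))
  have hfun : (fun w : F => ((inner ℝ a w : ℝ), (inner ℝ b w : ℝ))) = Φ := by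
    funext w
    have h0 : ob.repr w 0 = inner ℝ a w := by
      rw [OrthonormalBasis.repr_apply_apply, hob]; rfl
    have h1 : ob.repr w 1 = inner ℝ b w := by
      rw [OrthonormalBasis.repr_apply_apply, hob]; rfl
    rw [← h0, ← h1]
    rfl
  rw [hfun, MeasurableEquiv.image_eq_preimage_symm]
  exact hΦ.symm.measure_preimage_equiv s

/-- In dimension at least two there is a unit vector orthogonal to a given nonzero vector. -/
theorem exists_unit_perp {F : Type*} [NormedAddCommGroup F] [InnerProductSpace ℝ F]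
    [FiniteDimensional ℝ F] {k : ℕ} (hF : finrank ℝ F = k + 2) (a : F) (ha : a ≠ 0) :
    ∃ n : F, ‖n‖ = 1 ∧ inner ℝ n a = 0 := by
  haveI : Fact (finrank ℝ F = (k + 1) + 1) := ⟨hF⟩
  have h1 : finrank ℝ (ℝ ∙ a)ᗮ = k + 1 := Submodule.finrank_orthogonal_span_singleton ha
  have h2 : 0 < finrank ℝ (ℝ ∙ a)ᗮ := by omega
  obtain ⟨x, hx⟩ := Module.finrank_pos_iff_exists_ne_zero.mp h2
  have hx0 : (x : F) ≠ 0 := fun h => hx (Subtype.ext h)
  have hperp : inner ℝ a (x : F) = 0 := Submodule.mem_orthogonal_singleton_iff_inner_right.mp x.2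
  refine ⟨(‖(x : F)‖)⁻¹ • (x : F), ?_, ?_⟩
  · rw [norm_smul, norm_inv, norm_norm]
    exact inv_mul_cancel₀ (norm_ne_zero_iff.mpr hx0)
  · rw [inner_smul_left, real_inner_comm, hperp, mul_zero]

local instance : Fact (finrank ℝ (EuclideanSpace ℝ (Fin 3)) = 2 + 1) := ⟨by simp⟩

theorem finrank_perp (v : EuclideanSpace ℝ (Fin 3)) (hv : ‖v‖ = 1) :
    finrank ℝ (ℝ ∙ v)ᗮ = 2 :=
  Submodule.finrank_orthogonal_span_singleton (by
    intro h; rw [h, norm_zero] at hv; exact zero_ne_one hv)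

/-- A unit vector orthogonal to two given orthonormal vectors of three-space. -/
theorem exists_third (v e : EuclideanSpace ℝ (Fin 3)) (hv : ‖v‖ = 1) (he : ‖e‖ = 1)
    (hev : inner ℝ e v = 0) :
    ∃ n : EuclideanSpace ℝ (Fin 3), ‖n‖ = 1 ∧ inner ℝ n v = 0 ∧ inner ℝ n e = 0 := by
  have hmem : e ∈ (ℝ ∙ v)ᗮ := Submodule.mem_orthogonal_singleton_iff_inner_left.mpr hev
  have hne : (⟨e, hmem⟩ : (ℝ ∙ v)ᗮ) ≠ 0 := by
    intro h
    have : e = 0 := congrArg Subtype.val h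
    rw [this, norm_zero] at he; exact zero_ne_one he
  obtain ⟨n, hn, hne'⟩ := exists_unit_perp (k := 0) (finrank_perp v hv) ⟨e, hmem⟩ hne
  refine ⟨n, hn, Submodule.mem_orthogonal_singleton_iff_inner_left.mp n.2, hne'⟩

/-- The area of the orthogonal projection onto `(ℝ ∙ v)ᗮ`, in orthonormal coordinates. -/
theorem shadow_volume (K : Set (EuclideanSpace ℝ (Fin 3))) (v a b : EuclideanSpace ℝ (Fin 3))
    (hv : ‖v‖ = 1) (ha : ‖a‖ = 1) (hb : ‖b‖ = 1) (hab : inner ℝ a b = 0)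
    (hav : inner ℝ a v = 0) (hbv : inner ℝ b v = 0) :
    volume ((ℝ ∙ v)ᗮ.orthogonalProjectionOnto '' K)
      = volume ((fun x : EuclideanSpace ℝ (Fin 3) => ((inner ℝ a x : ℝ), (inner ℝ b x : ℝ))) '' K) := by
  have hma : a ∈ (ℝ ∙ v)ᗮ := Submodule.mem_orthogonal_singleton_iff_inner_left.mpr hav
  have hmb : b ∈ (ℝ ∙ v)ᗮ := Submodule.mem_orthogonal_singleton_iff_inner_left.mpr hbv
  rw [← coords_volume (finrank_perp v hv) (⟨a, hma⟩ : (ℝ ∙ v)ᗮ) ⟨b, hmb⟩ ha hb hab, image_image]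
  congr 1
  refine image_congr fun x _ => ?_
  rw [Submodule.inner_orthogonalProjectionOnto_eq_of_mem_left,
    Submodule.inner_orthogonalProjectionOnto_eq_of_mem_left]

theorem coplanar_faithful (K : Set (EuclideanSpace ℝ (Fin 3))) (hconv : Convex ℝ K)
    (hcomp : IsCompact K) (m : ℕ) (u : Fin m → EuclideanSpace ℝ (Fin 3)) (hu : ∀ i, ‖u i‖ = 1)
    (e : EuclideanSpace ℝ (Fin 3)) (he : ‖e‖ = 1) (hcop : ∀ i, inner ℝ e (u i) = 0)
    (B : ∀ i, Set ↥(ℝ ∙ u i)ᗮ)
    (hcov : ∀ x ∈ K, ∃ i, (ℝ ∙ u i)ᗮ.orthogonalProjectionOnto x ∈ B i) :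
    (1 / 2 : ℝ≥0∞) * ⨅ v : {v : EuclideanSpace ℝ (Fin 3) // ‖v‖ = 1 ∧ inner ℝ e v = 0},
        volume ((ℝ ∙ v.1)ᗮ.orthogonalProjectionOnto '' K) ≤ ∑ i, volume (B i) := by
  have he0 : e ≠ 0 := by
    intro h; rw [h, norm_zero] at he; exact zero_ne_one he
  choose n hn hnu hne using fun i => exists_third (u i) e (hu i) he (hcop i)
  have hmn : ∀ i, n i ∈ (ℝ ∙ u i)ᗮ := fun i =>
    Submodule.mem_orthogonal_singleton_iff_inner_left.mpr (hnu i)
  have hme : ∀ i, e ∈ (ℝ ∙ u i)ᗮ := fun i =>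
    Submodule.mem_orthogonal_singleton_iff_inner_left.mpr (hcop i)
  let ψ : ∀ i, ↥(ℝ ∙ u i)ᗮ → ℝ × ℝ := fun i w =>
    ((inner ℝ (⟨n i, hmn i⟩ : (ℝ ∙ u i)ᗮ) w : ℝ), (inner ℝ (⟨e, hme i⟩ : (ℝ ∙ u i)ᗮ) w : ℝ))
  have hvol : ∀ i, volume (ψ i '' B i) = volume (B i) := fun i =>
    coords_volume (finrank_perp (u i) (hu i)) ⟨n i, hmn i⟩ ⟨e, hme i⟩ (hn i) he (hne i) (B i)
  have hcore := coplanar_core K hconv hcomp e he
    (exists_unit_perp (k := 1) (by simp) e he0) n hn hne (fun i => ψ i '' B i) (by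
      intro x hx
      obtain ⟨i, hi⟩ := hcov x hx
      refine ⟨i, _, hi, ?_⟩
      simp only [ψ]
      rw [Submodule.inner_orthogonalProjectionOnto_eq_of_mem_left,
        Submodule.inner_orthogonalProjectionOnto_eq_of_mem_left])
  simp only [hvol] at hcore
  refine le_trans ?_ hcore
  gcongr
  refine le_iInf fun ν => ?_
  obtain ⟨v, hv, hvν, hve⟩ := exists_third ν.1 e ν.2.1 he (by rw [real_inner_comm]; exact ν.2.2)
  refine iInf_le_of_le ⟨v, hv, by rw [real_inner_comm]; exact hve⟩ ?_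
  rw [shadow_volume K v ν.1 e hv ν.2.1 he ν.2.2 (by rw [real_inner_comm]; exact hvν)
    (by rw [real_inner_comm]; exact hve)]

end Vale.Agent.Lib.P243
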