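import Vale.Agent.Lib.P243.Faithful

/-! The coplanar-axes inequality with areas measured by the Euclidean Hausdorff measure `μHE[2]`
of three-space. -/

namespace Vale.Agent.Lib.P243

open Set MeasureTheory Module
open scoped ENNReal

/-- Area in the plane `(ℝ ∙ v)ᗮ` is the two-dimensional Euclidean Hausdorff measure. -/
theorem volume_eq_muHE (v : EuclideanSpace ℝ (Fin 3)) (hv : ‖v‖ = 1) (s : Set ↥(ℝ ∙ v)ᗮ) :
    volume s = μHE[2] (Subtype.val '' s : Set (EuclideanSpace ℝ (Fin 3))) := by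
  have h := InnerProductSpace.euclideanHausdorffMeasure_eq_volume (V := ↥(ℝ ∙ v)ᗮ)
  rw [finrank_perp v hv] at h
  rw [isometry_subtype_coe.euclideanHausdorffMeasure_image, h]

theorem proj_formula (v : EuclideanSpace ℝ (Fin 3)) (hv : ‖v‖ = 1) (x : EuclideanSpace ℝ (Fin 3)) :
    (((ℝ ∙ v)ᗮ.orthogonalProjectionOnto x : ↥(ℝ ∙ v)ᗮ) : EuclideanSpace ℝ (Fin 3))
      = x - (inner ℝ v x : ℝ) • v := by
  rw [Submodule.coe_orthogonalProjectionOnto_apply, Submodule.starProjection_orthogonal_val,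
    Submodule.starProjection_unit_singleton ℝ hv]

theorem coplanar_hausdorff (K : Set (EuclideanSpace ℝ (Fin 3))) (hconv : Convex ℝ K)
    (hcomp : IsCompact K) (m : ℕ) (u : Fin m → EuclideanSpace ℝ (Fin 3)) (hu : ∀ i, ‖u i‖ = 1)
    (e : EuclideanSpace ℝ (Fin 3)) (he : ‖e‖ = 1) (hcop : ∀ i, inner ℝ e (u i) = 0)
    (B : Fin m → Set (EuclideanSpace ℝ (Fin 3))) (hB : ∀ i, ∀ b ∈ B i, inner ℝ (u i) b = 0)
    (hcov : ∀ x ∈ K, ∃ i, ∃ b ∈ B i, ∃ t : ℝ, x = b + t • u i) :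
    (1 / 2 : ℝ≥0∞) * ⨅ v : {v : EuclideanSpace ℝ (Fin 3) // ‖v‖ = 1 ∧ inner ℝ e v = 0},
        μHE[2] ((fun x : EuclideanSpace ℝ (Fin 3) => x - (inner ℝ v.1 x : ℝ) • v.1) '' K)
      ≤ ∑ i, μHE[2] (B i) := by
  have hmain := coplanar_faithful K hconv hcomp m u hu e he hcop
    (fun i => (Subtype.val ⁻¹' B i : Set ↥(ℝ ∙ u i)ᗮ)) (by
      intro x hx
      obtain ⟨i, b, hb, t, rfl⟩ := hcov x hx
      refine ⟨i, ?_⟩
      rw [mem_preimage, proj_formula (u i) (hu i), inner_add_right, hB i b hb, inner_smul_right,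
        real_inner_self_eq_norm_sq, hu i]
      simpa using hb)
  have hBv : ∀ i, volume (Subtype.val ⁻¹' B i : Set ↥(ℝ ∙ u i)ᗮ) = μHE[2] (B i) := by
    intro i
    rw [volume_eq_muHE (u i) (hu i), image_preimage_eq_of_subset]
    intro b hb
    exact ⟨⟨b, Submodule.mem_orthogonal_singleton_iff_inner_right.mpr (hB i b hb)⟩, rfl⟩
  simp only [hBv] at hmain
  refine le_trans (le_of_eq ?_) hmain
  congr 1
  refine iInf_congr fun v => ?_
  rw [volume_eq_muHE v.1 v.2.1, image_image]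
  congr 1
  exact image_congr fun x _ => (proj_formula v.1 v.2.1 x).symm

end Vale.Agent.Lib.P243
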