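import Mathlib

/-! Layer-cake formula for subsets of `α × ℝ` whose fibres are compact intervals. -/

namespace Vale.Agent.Lib.P243

open Set MeasureTheory
open scoped ENNReal

variable {α : Type*}

/-- The points over which the fibre of `K` contains two points at distance `t`. -/
def lev (K : Set (α × ℝ)) (t : ℝ) : Set α := {a | ∃ z, (a, z) ∈ K ∧ (a, z + t) ∈ K}

/-- All fibres are compact intervals. -/
structure GoodFibres (K : Set (α × ℝ)) : Prop where
  ord : ∀ a, OrdConnected {z | (a, z) ∈ K}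
  comp : ∀ a, IsCompact {z | (a, z) ∈ K}

theorem fibre_volume_ne_top {K : Set (α × ℝ)} (hK : GoodFibres K) (a : α) :
    volume {z | (a, z) ∈ K} ≠ ⊤ := (hK.comp a).measure_lt_top.ne

theorem le_fibre_iff {K : Set (α × ℝ)} (hK : GoodFibres K) (a : α) {t : ℝ} (ht : 0 < t) :
    t ≤ (volume {z | (a, z) ∈ K}).toReal ↔ a ∈ lev K t := by
  constructor
  · intro h
    have hne : {z | (a, z) ∈ K}.Nonempty := by
      by_contra hemp
      rw [not_nonempty_iff_eq_empty] at hemp
      rw [hemp, measure_empty] at h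
      simp at h
      linarith
    have hconn : IsConnected {z | (a, z) ∈ K} := ⟨hne, (hK.ord a).isPreconnected⟩
    have hI := eq_Icc_of_connected_compact hconn (hK.comp a)
    set c := sInf {z | (a, z) ∈ K}
    set d := sSup {z | (a, z) ∈ K}
    rw [hI, Real.volume_Icc] at h
    have hcd : t ≤ d - c := by
      by_contra hlt
      push Not at hlt
      rcases le_or_gt 0 (d - c) with h0 | h0
      · rw [ENNReal.toReal_ofReal h0] at h; linarith
      · rw [ENNReal.ofReal_of_nonpos h0.le] at h; simp at h; linarith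
    refine ⟨c, ?_, ?_⟩
    · have : c ∈ Icc c d := ⟨le_rfl, by linarith⟩
      rw [← hI] at this; exact this
    · have : c + t ∈ Icc c d := ⟨by linarith, by linarith⟩
      rw [← hI] at this; exact this
  · rintro ⟨z, hz1, hz2⟩
    have hsub : Icc z (z + t) ⊆ {z | (a, z) ∈ K} := (hK.ord a).out hz1 hz2
    have h1 : ENNReal.ofReal t ≤ volume {z | (a, z) ∈ K} := by
      have := measure_mono (μ := volume) hsub
      rwa [Real.volume_Icc, add_sub_cancel_left] at this
    exact (ENNReal.ofReal_le_iff_le_toReal (fibre_volume_ne_top hK a)).mp h1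

theorem lev_anti {K : Set (α × ℝ)} (hK : GoodFibres K) {s t : ℝ} (hs : 0 ≤ s) (hst : s ≤ t) :
    lev K t ⊆ lev K s := by
  rintro a ⟨z, hz1, hz2⟩
  exact ⟨z, hz1, (hK.ord a).out hz1 hz2 ⟨by linarith, by linarith⟩⟩

theorem lev_zero (K : Set (α × ℝ)) : lev K 0 = Prod.fst '' K := by
  ext a
  constructor
  · rintro ⟨z, hz, -⟩; exact ⟨(a, z), hz, rfl⟩
  · rintro ⟨⟨a', z⟩, hz, rfl⟩; exact ⟨z, hz, by simpa using hz⟩

variable [MeasurableSpace α]

theorem measurable_fibre_len {K : Set (α × ℝ)} (hKm : MeasurableSet K) :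
    Measurable fun a => (volume {z | (a, z) ∈ K}).toReal :=
  (measurable_measure_prodMk_left hKm).ennreal_toReal

/-- Layer-cake formula with a shift. -/
theorem lintegral_fibre_sub (μ : Measure α) {K : Set (α × ℝ)} (hK : GoodFibres K)
    (hKm : MeasurableSet K) {s : ℝ} (hs : 0 ≤ s) :
    ∫⁻ a, ENNReal.ofReal ((volume {z | (a, z) ∈ K}).toReal - s) ∂μ
      = ∫⁻ t in Ioi 0, μ (lev K (t + s)) := by
  have h1 : ∫⁻ a, ENNReal.ofReal ((volume {z | (a, z) ∈ K}).toReal - s) ∂μ
      = ∫⁻ a, ENNReal.ofReal (max ((volume {z | (a, z) ∈ K}).toReal - s) 0) ∂μ := by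
    refine lintegral_congr fun a => ?_
    rcases le_total ((volume {z | (a, z) ∈ K}).toReal - s) 0 with h | h
    · rw [max_eq_right h, ENNReal.ofReal_of_nonpos h, ENNReal.ofReal_zero]
    · rw [max_eq_left h]
  have h2 := lintegral_eq_lintegral_meas_le μ
    (f := fun a => max ((volume {z | (a, z) ∈ K}).toReal - s) 0)
    (Filter.Eventually.of_forall fun a => le_max_right _ _)
    (((measurable_fibre_len hKm).sub_const s).max measurable_const).aemeasurable
  rw [h1, h2]
  refine setLIntegral_congr_fun measurableSet_Ioi fun t ht => ?_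
  have ht0 : (0 : ℝ) < t := ht
  congr 1
  ext a
  rw [mem_ofPred_eq, ← le_fibre_iff hK a (by linarith : 0 < t + s)]
  constructor
  · intro h
    rcases le_max_iff.mp h with h | h
    · linarith
    · linarith
  · intro h
    exact le_max_of_le_left (by linarith)

theorem prod_volume_eq (μ : Measure α) [SFinite μ] {K : Set (α × ℝ)} (hK : GoodFibres K)
    (hKm : MeasurableSet K) : (μ.prod volume) K = ∫⁻ t in Ioi 0, μ (lev K t) := by
  have h := lintegral_fibre_sub μ hK hKm (le_refl 0)
  simp only [sub_zero, add_zero] at h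
  rw [← h, Measure.prod_apply hKm]
  refine lintegral_congr fun a => ?_
  exact (ENNReal.ofReal_toReal (fibre_volume_ne_top hK a)).symm

/-- Bathtub bound. -/
theorem prod_volume_inter_le (μ : Measure α) [SFinite μ] {K : Set (α × ℝ)} (hK : GoodFibres K)
    (hKm : MeasurableSet K) {B : Set α} (hB : MeasurableSet B) {s : ℝ} (hs : 0 ≤ s) :
    (μ.prod volume) (K ∩ B ×ˢ univ) ≤ ENNReal.ofReal s * μ B + ∫⁻ t in Ioi 0, μ (lev K (t + s)) := by
  rw [← lintegral_fibre_sub μ hK hKm hs, Measure.prod_apply (hKm.inter (hB.prod MeasurableSet.univ))]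
  have h1 : ∀ a, volume (Prod.mk a ⁻¹' (K ∩ B ×ˢ univ))
      ≤ B.indicator (fun _ => ENNReal.ofReal s) a
        + ENNReal.ofReal ((volume {z | (a, z) ∈ K}).toReal - s) := by
    intro a
    by_cases ha : a ∈ B
    · rw [indicator_of_mem ha]
      have e : Prod.mk a ⁻¹' (K ∩ B ×ˢ univ) = {z | (a, z) ∈ K} := by
        ext z; simp [ha]
      rw [e, ← ENNReal.ofReal_toReal (fibre_volume_ne_top hK a)]
      rw [ENNReal.toReal_ofReal ENNReal.toReal_nonneg]
      calc ENNReal.ofReal (volume {z | (a, z) ∈ K}).toReal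
          = ENNReal.ofReal (s + ((volume {z | (a, z) ∈ K}).toReal - s)) := by congr 1; ring
        _ ≤ _ := ENNReal.ofReal_add_le
    · have e : Prod.mk a ⁻¹' (K ∩ B ×ˢ univ) = ∅ := by
        ext z; simp [ha]
      rw [e, measure_empty]; exact zero_le
  calc ∫⁻ a, volume (Prod.mk a ⁻¹' (K ∩ B ×ˢ univ)) ∂μ
      ≤ ∫⁻ a, (B.indicator (fun _ => ENNReal.ofReal s) a
        + ENNReal.ofReal ((volume {z | (a, z) ∈ K}).toReal - s)) ∂μ := lintegral_mono h1
    _ = _ := by
      rw [lintegral_add_left (measurable_const.indicator hB), lintegral_indicator_const hB]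

end Vale.Agent.Lib.P243
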