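import Vale.Agent.Lib.P243.LayerCake

/-! Level sets `lev K t` of compact convex subsets of `E × ℝ`. -/

namespace Vale.Agent.Lib.P243

open Set MeasureTheory
open scoped ENNReal

variable {E : Type*} [NormedAddCommGroup E] [NormedSpace ℝ E]

theorem goodFibres_of_convex_compact {K : Set (E × ℝ)} (hc : Convex ℝ K) (hk : IsCompact K) :
    GoodFibres K := by
  refine ⟨fun a => ?_, fun a => ?_⟩
  · refine Convex.ordConnected ?_
    intro x hx y hy p q hp hq hpq
    have := hc hx hy hp hq hpq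
    have e : p • (a, x) + q • (a, y) = (a, p • x + q • y) := by
      ext
      · simp only [Prod.fst_add, Prod.smul_fst]
        rw [← add_smul, hpq, one_smul]
      · simp
    rw [e] at this
    exact this
  · have e : {z | (a, z) ∈ K} = Prod.snd '' (K ∩ {p | p.1 = a}) := by
      ext z
      constructor
      · intro hz; exact ⟨(a, z), ⟨hz, rfl⟩, rfl⟩
      · rintro ⟨⟨a', z'⟩, ⟨h1, h2⟩, rfl⟩
        simp only [mem_ofPred_eq] at h2
        subst h2
        exact h1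
    rw [e]
    exact (hk.inter_right (isClosed_eq continuous_fst continuous_const)).image continuous_snd

omit [NormedAddCommGroup E] [NormedSpace ℝ E] in
theorem lev_eq_image (K : Set (E × ℝ)) (t : ℝ) :
    lev K t = Prod.fst '' (K ∩ (fun p : E × ℝ => (p.1, p.2 + t)) ⁻¹' K) := by
  ext a
  constructor
  · rintro ⟨z, h1, h2⟩; exact ⟨(a, z), ⟨h1, h2⟩, rfl⟩
  · rintro ⟨⟨a', z⟩, ⟨h1, h2⟩, rfl⟩; exact ⟨z, h1, h2⟩

theorem lev_compact {K : Set (E × ℝ)} (hk : IsCompact K) (t : ℝ) : IsCompact (lev K t) := by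
  rw [lev_eq_image]
  refine (hk.inter_right (hk.isClosed.preimage ?_)).image continuous_fst
  fun_prop

/-- Convex combinations of level sets. -/
theorem lev_combo {K0 K1 K : Set (E × ℝ)} {p q : ℝ}
    (h : ∀ x ∈ K0, ∀ y ∈ K1, p • x + q • y ∈ K) {t0 t1 : ℝ} :
    ∀ a ∈ lev K0 t0, ∀ b ∈ lev K1 t1, p • a + q • b ∈ lev K (p * t0 + q * t1) := by
  rintro a ⟨z, hz1, hz2⟩ b ⟨w, hw1, hw2⟩
  refine ⟨p * z + q * w, ?_, ?_⟩
  · have := h _ hz1 _ hw1
    simpa using this
  · have := h _ hz2 _ hw2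
    have e : p • (a, z + t0) + q • (b, w + t1)
        = (p • a + q • b, p * z + q * w + (p * t0 + q * t1)) := by
      ext
      · simp
      · simp; ring
    rwa [e] at this

theorem lev_convex {K : Set (E × ℝ)} (hc : Convex ℝ K) (t : ℝ) : Convex ℝ (lev K t) := by
  intro a ha b hb p q hp hq hpq
  have := lev_combo (K0 := K) (K1 := K) (K := K) (p := p) (q := q)
    (fun x hx y hy => hc hx hy hp hq hpq) a ha b hb
  rwa [← add_mul, hpq, one_mul] at this

/-- The longest chord in the fibre direction. -/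
theorem exists_max_chord {K : Set (E × ℝ)} (hc : Convex ℝ K) (hk : IsCompact K)
    (hne : K.Nonempty) : ∃ l : ℝ, 0 ≤ l ∧ ∀ t, 0 ≤ t → ((lev K t).Nonempty ↔ t ≤ l) := by
  set D : Set ((E × ℝ) × (E × ℝ)) := (K ×ˢ K) ∩ {r | r.1.1 = r.2.1} with hD
  have hDc : IsCompact D :=
    (hk.prod hk).inter_right (isClosed_eq (by fun_prop) (by fun_prop))
  obtain ⟨x0, hx0⟩ := hne
  have hDne : D.Nonempty := ⟨(x0, x0), ⟨hx0, hx0⟩, rfl⟩
  obtain ⟨r, hr, hmax⟩ := hDc.exists_isMaxOn hDne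
    (f := fun r : (E × ℝ) × (E × ℝ) => r.2.2 - r.1.2) (by fun_prop)
  refine ⟨r.2.2 - r.1.2, ?_, fun t ht => ⟨?_, ?_⟩⟩
  · have := hmax (show (x0, x0) ∈ D from ⟨⟨hx0, hx0⟩, rfl⟩)
    simpa using this
  · rintro ⟨a, z, h1, h2⟩
    have := hmax (show ((a, z), (a, z + t)) ∈ D from ⟨⟨h1, h2⟩, rfl⟩)
    simp only [mem_ofPred_eq] at this
    linarith
  · intro hle
    have hmem : r.1.1 ∈ lev K (r.2.2 - r.1.2) := by
      refine ⟨r.1.2, hr.1.1, ?_⟩
      have h2 : r.2 ∈ K := hr.1.2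
      have h3 : r.1.1 = r.2.1 := hr.2
      have e : (r.1.1, r.1.2 + (r.2.2 - r.1.2)) = r.2 := by
        ext
        · exact h3
        · simp
      rw [e]; exact h2
    exact ⟨_, lev_anti (goodFibres_of_convex_compact hc hk) ht hle hmem⟩

end Vale.Agent.Lib.P243
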