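import Vale.Agent.Lib.P243.Bang

/-! Measure version of the plank theorem: a compact convex set covered by finitely many sets
`{p | inner (n i) p ∈ X i}` forces `∑ volume (X i)` to be at least the minimal width. -/

namespace Vale.Agent.Lib.P243

open Set MeasureTheory Metric
open scoped ENNReal

variable {E : Type*} [NormedAddCommGroup E] [InnerProductSpace ℝ E] [CompleteSpace E]

theorem grid_disjoint (δ : ℝ) (hδ : 0 < δ) (s : Finset ℤ) :
    Set.PairwiseDisjoint (↑s : Set ℤ) (fun k : ℤ => Ico ((k : ℝ) * δ) (((k : ℝ) + 1) * δ)) := by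
  intro k _ k' _ hkk'
  refine Set.disjoint_left.mpr fun x hx hx' => hkk' ?_
  have h1 : ⌊x / δ⌋ = k := by
    rw [Int.floor_eq_iff]
    exact ⟨(le_div_iff₀ hδ).mpr hx.1, (div_lt_iff₀ hδ).mpr hx.2⟩
  have h2 : ⌊x / δ⌋ = k' := by
    rw [Int.floor_eq_iff]
    exact ⟨(le_div_iff₀ hδ).mpr hx'.1, (div_lt_iff₀ hδ).mpr hx'.2⟩
  rw [← h1, h2]

theorem grid_measure_le (δ : ℝ) (hδ : 0 < δ) (s : Finset ℤ) (U : Set ℝ)
    (hs : ∀ k ∈ s, Icc ((k : ℝ) * δ) (((k : ℝ) + 1) * δ) ⊆ U) :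
    ∑ _k ∈ s, ENNReal.ofReal δ ≤ volume U := by
  have h1 : volume (⋃ k ∈ s, Ico ((k : ℝ) * δ) (((k : ℝ) + 1) * δ))
      = ∑ k ∈ s, volume (Ico ((k : ℝ) * δ) (((k : ℝ) + 1) * δ)) :=
    measure_biUnion_finset (grid_disjoint δ hδ s) (fun _ _ => measurableSet_Ico)
  have h2 : ∑ k ∈ s, volume (Ico ((k : ℝ) * δ) (((k : ℝ) + 1) * δ)) = ∑ _k ∈ s, ENNReal.ofReal δ := by
    refine Finset.sum_congr rfl fun k _ => ?_
    rw [Real.volume_Ico]
    congr 1
    ring
  rw [← h2, ← h1]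
  refine measure_mono ?_
  intro x hx
  simp only [mem_iUnion] at hx
  obtain ⟨k, hk, hxk⟩ := hx
  exact hs k hk (Ico_subset_Icc_self hxk)

theorem plank_open (e : E) (he : ‖e‖ = 1) (t : ℝ) (S : Set E)
    (hS : Convex ℝ S) (hSc : IsCompact S) (hne : S.Nonempty) (hlev : ∀ p ∈ S, inner ℝ e p = t)
    {m : ℕ} (n : Fin m → E) (hn : ∀ i, ‖n i‖ = 1) (hne' : ∀ i, inner ℝ (n i) e = 0)
    (U : Fin m → Set ℝ) (hU : ∀ i, IsOpen (U i)) (hcov : ∀ p ∈ S, ∃ i, inner ℝ (n i) p ∈ U i)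
    (ω : ℝ) (hω : 0 ≤ ω)
    (hw : ∀ ν : E, ‖ν‖ = 1 → inner ℝ ν e = 0 → ∃ p ∈ S, ∃ q ∈ S, ω ≤ inner ℝ ν (q - p)) :
    ENNReal.ofReal ω ≤ ∑ i, volume (U i) := by
  classical
  have hopen : ∀ i, IsOpen ((fun p : E => inner ℝ (n i) p) ⁻¹' U i) := fun i =>
    (hU i).preimage (by fun_prop)
  have hsub : S ⊆ ⋃ i, (fun p : E => inner ℝ (n i) p) ⁻¹' U i := by
    intro p hp
    obtain ⟨i, hi⟩ := hcov p hp
    exact mem_iUnion.mpr ⟨i, hi⟩
  obtain ⟨δ, hδ, hball⟩ := lebesgue_number_lemma_of_metric hSc hopen hsub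
  obtain ⟨R, hR⟩ := hSc.isBounded.exists_norm_le
  set δ' : ℝ := δ / 2 with hδ'
  have hδ'0 : 0 < δ' := by positivity
  set N : ℤ := ⌈R / δ'⌉ + 1 with hN
  let T : Fin m → Finset ℤ := fun i =>
    (Finset.Icc (-N) N).filter (fun k => Icc ((k : ℝ) * δ') (((k : ℝ) + 1) * δ') ⊆ U i)
  let s : Finset ((_ : Fin m) × ℤ) := Finset.univ.sigma T
  have key : ω ≤ ∑ ik ∈ s, 2 * (δ' / 2) := by
    refine bang_plank {d : E | ‖d‖ = 1 ∧ inner ℝ d e = 0} s (fun ik => n ik.1)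
      (fun ik => ((ik.2 : ℝ) + 1 / 2) * δ') (fun _ => δ' / 2) (fun ik _ => hn ik.1)
      (fun ik _ => ⟨hn ik.1, hne' ik.1⟩) (fun _ _ => by positivity) S ω hS hne ?_ ?_
    · intro d hd
      exact chord_of_width e he t S hS hSc hne hlev ω hω hw d hd.1 hd.2
    · intro p hp
      obtain ⟨i, hi⟩ := hball p hp
      set x : ℝ := inner ℝ (n i) p with hx
      set k : ℤ := ⌊x / δ'⌋ with hk
      have hk1 : (k : ℝ) * δ' ≤ x := by
        have := Int.floor_le (x / δ')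
        rwa [← hk, le_div_iff₀ hδ'0] at this
      have hk2 : x < ((k : ℝ) + 1) * δ' := by
        have := Int.lt_floor_add_one (x / δ')
        rwa [← hk, div_lt_iff₀ hδ'0] at this
      have hxR : |x| ≤ R := by
        have h1 := abs_real_inner_le_norm (n i) p
        rw [hn i, one_mul] at h1
        exact h1.trans (hR p hp)
      have hcell : Icc ((k : ℝ) * δ') (((k : ℝ) + 1) * δ') ⊆ U i := by
        intro y hy
        have hmem : p + (y - x) • n i ∈ ball p δ := by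
          rw [mem_ball, dist_eq_norm, add_sub_cancel_left, norm_smul, hn i, mul_one,
            Real.norm_eq_abs, abs_lt]
          constructor
          · have := hy.1; nlinarith
          · have := hy.2; nlinarith
        have := hi hmem
        simp only [mem_preimage, inner_add_right, inner_smul_right, real_inner_self_eq_norm_sq,
          hn i] at this
        have e1 : inner ℝ (n i) p + (y - x) * 1 ^ 2 = y := by rw [← hx]; ring
        rwa [e1] at this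
      have hkN : k ∈ Finset.Icc (-N) N := by
        have hq : |x / δ'| ≤ R / δ' := by
          rw [abs_div, abs_of_pos hδ'0]
          exact div_le_div_of_nonneg_right hxR hδ'0.le
        have hq' := abs_le.mp hq
        have hc : R / δ' ≤ (⌈R / δ'⌉ : ℝ) := Int.le_ceil _
        rw [Finset.mem_Icc]
        constructor
        · rw [hk, Int.le_floor, hN]
          push_cast
          linarith [hq'.1]
        · have : (k : ℝ) ≤ x / δ' := Int.floor_le _
          have h3 : (k : ℝ) ≤ (N : ℝ) := by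
            rw [hN]; push_cast; linarith [hq'.2]
          exact_mod_cast h3
      refine ⟨⟨i, k⟩, ?_, ?_⟩
      · simp only [s, T, Finset.mem_sigma, Finset.mem_univ, true_and, Finset.mem_filter]
        exact ⟨hkN, hcell⟩
      · simp only
        rw [abs_le]
        constructor <;> nlinarith
  have h2 : ∑ ik ∈ s, 2 * (δ' / 2) = ∑ _ik ∈ s, δ' :=
    Finset.sum_congr rfl fun _ _ => by ring
  rw [h2] at key
  calc ENNReal.ofReal ω ≤ ENNReal.ofReal (∑ _ik ∈ s, δ') := ENNReal.ofReal_le_ofReal key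
    _ = ∑ _ik ∈ s, ENNReal.ofReal δ' := ENNReal.ofReal_sum_of_nonneg fun _ _ => hδ'0.le
    _ = ∑ i, ∑ _k ∈ T i, ENNReal.ofReal δ' := by
        simp only [s]
        rw [Finset.sum_sigma]
    _ ≤ ∑ i, volume (U i) := by
        refine Finset.sum_le_sum fun i _ => grid_measure_le δ' hδ'0 (T i) (U i) ?_
        intro k hk
        exact (Finset.mem_filter.mp hk).2

theorem plank_measure (e : E) (he : ‖e‖ = 1) (t : ℝ) (S : Set E)
    (hS : Convex ℝ S) (hSc : IsCompact S) (hne : S.Nonempty) (hlev : ∀ p ∈ S, inner ℝ e p = t)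
    {m : ℕ} (n : Fin m → E) (hn : ∀ i, ‖n i‖ = 1) (hne' : ∀ i, inner ℝ (n i) e = 0)
    (X : Fin m → Set ℝ) (hcov : ∀ p ∈ S, ∃ i, inner ℝ (n i) p ∈ X i)
    (ω : ℝ) (hω : 0 ≤ ω)
    (hw : ∀ ν : E, ‖ν‖ = 1 → inner ℝ ν e = 0 → ∃ p ∈ S, ∃ q ∈ S, ω ≤ inner ℝ ν (q - p)) :
    ENNReal.ofReal ω ≤ ∑ i, volume (X i) := by
  refine ENNReal.le_of_forall_pos_le_add fun ε hε _ => ?_
  set δ : ℝ≥0∞ := (ε : ℝ≥0∞) / ((m : ℝ≥0∞) + 1) with hδ
  have hδ0 : δ ≠ 0 := by
    rw [hδ]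
    refine (ENNReal.div_pos (by exact_mod_cast hε.ne') ?_).ne'
    exact ENNReal.add_ne_top.mpr ⟨ENNReal.natCast_ne_top m, ENNReal.one_ne_top⟩
  choose U hXU hUo hUm using fun i => (X i).exists_isOpen_le_add volume hδ0
  have h1 := plank_open e he t S hS hSc hne hlev n hn hne' U hUo
    (fun p hp => by obtain ⟨i, hi⟩ := hcov p hp; exact ⟨i, hXU i hi⟩) ω hω hw
  refine h1.trans ((Finset.sum_le_sum fun i _ => hUm i).trans ?_)
  rw [Finset.sum_add_distrib, Finset.sum_const, Finset.card_univ, Fintype.card_fin, nsmul_eq_mul]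
  gcongr
  rw [hδ]
  calc (m : ℝ≥0∞) * ((ε : ℝ≥0∞) / ((m : ℝ≥0∞) + 1))
      ≤ ((m : ℝ≥0∞) + 1) * ((ε : ℝ≥0∞) / ((m : ℝ≥0∞) + 1)) := by gcongr; exact le_self_add
    _ = ε := by
      refine ENNReal.mul_div_cancel ?_ ?_
      · simp
      · exact ENNReal.add_ne_top.mpr ⟨ENNReal.natCast_ne_top m, ENNReal.one_ne_top⟩

end Vale.Agent.Lib.P243
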