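import Vale.Agent.Lib.P243.Coords3

/-! The refined volumetric inequality, with cylinders grouped by direction, and its consequences. -/

namespace Vale.Agent.Lib.P243

open Set MeasureTheory Module
open scoped ENNReal

theorem tangent_ineq {b t : ℝ} (hb : 0 ≤ b) (ht : 0 ≤ t) :
    3 * b - 2 * b * √b ≤ 3 * t ^ 2 - 2 * t ^ 3 + 3 * (1 - t) * (b - t ^ 2) := by
  have hx := Real.sqrt_nonneg b
  have hsq := Real.sq_sqrt hb
  set x := √b
  rw [← hsq]
  nlinarith [mul_nonneg (sq_nonneg (x - t)) (by positivity : 0 ≤ 2 * x + t)]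

theorem refined_consequences (m : ℕ) (β : Fin m → ℝ) (h0 : ∀ i, 0 ≤ β i)
    (h : 1 ≤ ∑ i, (3 * β i - 2 * β i * √(β i))) :
    1 / 3 + 2 / 3 * ∑ i, β i * √(β i) ≤ ∑ i, β i ∧
    (∀ t : ℝ, 0 ≤ t → t < 1 → m * (3 * t ^ 2 - 2 * t ^ 3) ≤ 1 → m * t ^ 2 ≤ ∑ i, β i) ∧
    (m ≤ 2 → 1 / 2 ≤ ∑ i, β i) ∧
    1 / 3 + 2 / (9 * √(3 * m)) ≤ ∑ i, β i := by
  have hsplit : ∑ i, (3 * β i - 2 * β i * √(β i)) = 3 * ∑ i, β i - 2 * ∑ i, β i * √(β i) := by
    simp only [mul_assoc, Finset.sum_sub_distrib, ← Finset.mul_sum]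
  have htan : ∀ t : ℝ, 0 ≤ t →
      1 ≤ m * (3 * t ^ 2 - 2 * t ^ 3) + 3 * (1 - t) * (∑ i, β i - m * t ^ 2) := by
    intro t ht
    have h1 : ∑ i, (3 * β i - 2 * β i * √(β i))
        ≤ ∑ i, (3 * t ^ 2 - 2 * t ^ 3 + 3 * (1 - t) * (β i - t ^ 2)) :=
      Finset.sum_le_sum fun i _ => tangent_ineq (h0 i) ht
    have h2 : ∑ i : Fin m, (3 * t ^ 2 - 2 * t ^ 3 + 3 * (1 - t) * (β i - t ^ 2))
        = m * (3 * t ^ 2 - 2 * t ^ 3) + 3 * (1 - t) * (∑ i, β i - m * t ^ 2) := by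
      simp only [Finset.sum_add_distrib, ← Finset.mul_sum, Finset.sum_sub_distrib,
        Finset.sum_const, Finset.card_univ, Fintype.card_fin, nsmul_eq_mul]
      ring
    linarith
  have hT0 : 0 ≤ ∑ i, β i * √(β i) :=
    Finset.sum_nonneg fun i _ => mul_nonneg (h0 i) (Real.sqrt_nonneg _)
  have hA : 1 / 3 + 2 / 3 * ∑ i, β i * √(β i) ≤ ∑ i, β i := by
    rw [hsplit] at h; linarith
  refine ⟨hA, ?_, ?_, ?_⟩
  · intro t ht0 ht1 hm
    have := htan t ht0
    have h3 : 0 ≤ (1 - t) * (∑ i, β i - m * t ^ 2) := by linarith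
    have h4 : 0 ≤ ∑ i, β i - m * t ^ 2 := nonneg_of_mul_nonneg_right h3 (by linarith)
    linarith
  · intro hm
    have := htan (1 / 2) (by norm_num)
    have hm' : (m : ℝ) ≤ 2 := by exact_mod_cast hm
    nlinarith
  · have hm0 : m ≠ 0 := by
      rintro rfl
      simp at h
      linarith
    have hmpos : (0 : ℝ) < m := by exact_mod_cast Nat.pos_of_ne_zero hm0
    have hrt : 0 < √(3 * (m : ℝ)) := Real.sqrt_pos.mpr (by positivity)
    have hrt2 : √(3 * (m : ℝ)) ^ 2 = 3 * m := Real.sq_sqrt (by positivity)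
    set w := √(3 * (m : ℝ)) with hw
    set x0 : ℝ := 1 / w with hx0
    have hx0pos : 0 < x0 := by positivity
    have hmx : (m : ℝ) * x0 ^ 2 = 1 / 3 := by
      rw [hx0, div_pow, one_pow, hrt2]; field_simp
    have hcube : ∀ i, 3 / 2 * x0 * β i - x0 ^ 3 / 2 ≤ β i * √(β i) := by
      intro i
      have hx := Real.sqrt_nonneg (β i)
      have hsq := Real.sq_sqrt (h0 i)
      set x := √(β i)
      rw [← hsq]
      nlinarith [mul_nonneg (sq_nonneg (x - x0)) (by positivity : 0 ≤ 2 * x + x0)]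
    have h5 : ∑ i, (3 / 2 * x0 * β i - x0 ^ 3 / 2) ≤ ∑ i, β i * √(β i) :=
      Finset.sum_le_sum fun i _ => hcube i
    have h6 : ∑ i : Fin m, (3 / 2 * x0 * β i - x0 ^ 3 / 2)
        = 3 / 2 * x0 * ∑ i, β i - m * (x0 ^ 3 / 2) := by
      simp only [← Finset.mul_sum, Finset.sum_sub_distrib,
        Finset.sum_const, Finset.card_univ, Fintype.card_fin, nsmul_eq_mul]
    have h7 : (m : ℝ) * (x0 ^ 3 / 2) = x0 / 6 := by
      have : (m : ℝ) * (x0 ^ 3 / 2) = (m * x0 ^ 2) * x0 / 2 := by ring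
      rw [this, hmx]; ring
    have hS : 1 / 3 ≤ ∑ i, β i := by linarith
    have h8 : x0 / 3 ≤ ∑ i, β i * √(β i) := by
      have : 3 / 2 * x0 * (1 / 3) ≤ 3 / 2 * x0 * ∑ i, β i :=
        mul_le_mul_of_nonneg_left hS (by positivity)
      linarith
    have h9 : 2 / (9 * w) = 2 / 9 * x0 := by rw [hx0]; field_simp
    rw [h9]
    linarith

theorem shadow_perp (K : Set (EuclideanSpace ℝ (Fin 3))) (u : EuclideanSpace ℝ (Fin 3))
    (hu : ‖u‖ = 1) :
    ∀ x ∈ (fun x : EuclideanSpace ℝ (Fin 3) => x - (inner ℝ u x : ℝ) • u) '' K,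
      inner ℝ u x = 0 := by
  rintro _ ⟨x, -, rfl⟩
  rw [inner_sub_right, inner_smul_right, real_inner_self_eq_norm_sq, hu]
  ring

theorem shadow_ne_top (K : Set (EuclideanSpace ℝ (Fin 3))) (hcomp : IsCompact K)
    (u : EuclideanSpace ℝ (Fin 3)) (hu : ‖u‖ = 1) :
    μHE[2] ((fun x : EuclideanSpace ℝ (Fin 3) => x - (inner ℝ u x : ℝ) • u) '' K) ≠ ⊤ := by
  have hu0 : u ≠ 0 := by
    intro h; rw [h, norm_zero] at hu; exact zero_ne_one hu
  obtain ⟨a, ha, hau⟩ := exists_unit_perp (k := 1) (by simp) u hu0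
  obtain ⟨b, hb, hbu, hba⟩ := exists_third u a hu ha hau
  have hab : inner ℝ a b = 0 := by rw [real_inner_comm]; exact hba
  rw [← planar_coords u a b hu ha hb hab hau hbu _ (shadow_perp K u hu)]
  exact ((hcomp.image (by fun_prop)).image (by fun_prop)).measure_lt_top.ne

theorem shadow_ne_zero (K : Set (EuclideanSpace ℝ (Fin 3))) (hconv : Convex ℝ K)
    (hcomp : IsCompact K) (hV : volume K ≠ 0) (u : EuclideanSpace ℝ (Fin 3)) (hu : ‖u‖ = 1) :
    μHE[2] ((fun x : EuclideanSpace ℝ (Fin 3) => x - (inner ℝ u x : ℝ) • u) '' K) ≠ 0 := by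
  intro h
  apply hV
  have := cyl_piece K hconv hcomp u hu _ (shadow_perp K u hu) 0 le_rfl zero_le_one
    (fun _ => by rw [h]; exact zero_le)
  have e : K ∩ {x | ∃ b ∈ (fun x : EuclideanSpace ℝ (Fin 3) => x - (inner ℝ u x : ℝ) • u) '' K,
      ∃ t : ℝ, x = b + t • u} = K :=
    inter_eq_left.mpr fun x hx => ⟨x - (inner ℝ u x : ℝ) • u, ⟨x, hx, rfl⟩, inner ℝ u x, by simp⟩
  rw [e] at this
  simpa using this

/-- The refined volumetric inequality, cylinders grouped by direction. -/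
theorem refined_directions (K : Set (EuclideanSpace ℝ (Fin 3))) (hconv : Convex ℝ K)
    (hcomp : IsCompact K) (hint : (interior K).Nonempty)
    (m n : ℕ) (u : Fin m → EuclideanSpace ℝ (Fin 3)) (hu : ∀ i, ‖u i‖ = 1) (d : Fin n → Fin m)
    (B : Fin n → Set (EuclideanSpace ℝ (Fin 3)))
    (hB : ∀ j, ∀ b ∈ B j, inner ℝ (u (d j)) b = 0) (hfin : ∀ j, μHE[2] (B j) ≠ ⊤)
    (hcov : ∀ x ∈ K, ∃ j, ∃ b ∈ B j, ∃ t : ℝ, x = b + t • u (d j))
    (r : Fin n → ℝ) (hr : ∀ j, r j = (μHE[2] (B j)).toReal / (μHE[2] ((fun x :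
      EuclideanSpace ℝ (Fin 3) => x - (inner ℝ (u (d j)) x : ℝ) • u (d j)) '' K)).toReal)
    (β : Fin m → ℝ) (hβ : ∀ i, β i = min 1 (∑ j with d j = i, r j)) :
    (∀ i, 0 ≤ β i) ∧ ∑ i, β i ≤ ∑ j, r j ∧ 1 ≤ ∑ i, (3 * β i - 2 * β i * √(β i)) := by
  have hV : volume K ≠ 0 :=
    ((isOpen_interior.measure_pos volume hint).trans_le (measure_mono interior_subset)).ne'
  have hA0 := fun i => shadow_ne_zero K hconv hcomp hV (u i) (hu i)
  have hAtop := fun i => shadow_ne_top K hcomp (u i) (hu i)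
  have hr0 : ∀ j, 0 ≤ r j := by intro j; rw [hr]; positivity
  have hβ0 : ∀ i, 0 ≤ β i := by
    intro i; rw [hβ]; exact le_min zero_le_one (Finset.sum_nonneg fun j _ => hr0 j)
  have hβ1 : ∀ i, β i ≤ 1 := by intro i; rw [hβ]; exact min_le_left _ _
  refine ⟨hβ0, ?_, ?_⟩
  · rw [← Finset.sum_fiberwise Finset.univ d r]
    exact Finset.sum_le_sum fun i _ => by rw [hβ]; exact min_le_right _ _
  have key := refined_core K hconv hcomp hV m u hu
    (fun i => ⋃ j ∈ Finset.univ.filter (fun j => d j = i), B j) ?_ ?_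
    (fun i => √(β i)) (fun i => Real.sqrt_nonneg _) (fun i => Real.sqrt_le_one.mpr (hβ1 i)) ?_
  · refine le_trans key (le_of_eq (Finset.sum_congr rfl fun i _ => ?_))
    have hsq := Real.sq_sqrt (hβ0 i)
    have : √(β i) ^ 3 = β i * √(β i) := by rw [pow_succ, hsq]
    rw [hsq, this]; ring
  · intro i b hb
    simp only [Finset.mem_filter, Finset.mem_univ, true_and, mem_iUnion, exists_prop] at hb
    obtain ⟨j, rfl, hj⟩ := hb
    exact hB j b hj
  · intro x hx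
    obtain ⟨j, b, hb, t, rfl⟩ := hcov x hx
    refine ⟨d j, b, ?_, t, rfl⟩
    simp only [Finset.mem_filter, Finset.mem_univ, true_and, mem_iUnion, exists_prop]
    exact ⟨j, rfl, hb⟩
  · intro i hi
    simp only at hi ⊢
    have hlt : β i < 1 := by
      have := (Real.sqrt_lt' one_pos).mp hi
      simpa using this
    have hβi : β i = ∑ j with d j = i, r j := by
      rw [hβ i] at hlt ⊢
      rcases min_lt_iff.mp hlt with h | h
      · exact absurd h (lt_irrefl _)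
      · exact min_eq_right h.le
    rw [Real.sq_sqrt (hβ0 i), hβi, ENNReal.ofReal_sum_of_nonneg fun j _ => hr0 j, Finset.sum_mul]
    refine le_trans (measure_biUnion_finset_le _ _) (Finset.sum_le_sum fun j hj => le_of_eq ?_)
    have hj' : d j = i := (Finset.mem_filter.mp hj).2
    subst hj'
    rw [hr j, ENNReal.ofReal_div_of_pos (ENNReal.toReal_pos (hA0 _) (hAtop _)),
      ENNReal.ofReal_toReal (hfin j), ENNReal.ofReal_toReal (hAtop _),
      ENNReal.div_mul_cancel (hA0 _) (hAtop _)]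

end Vale.Agent.Lib.P243
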