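import Mathlib

/-! The total mass of the weight `1 / 2 + gauge K` on a convex body `K` in three-space. -/

namespace Vale.Agent.Lib.P243

open Set MeasureTheory Module Topology
open scoped ENNReal Pointwise

theorem integral_one_sub_cube : ∫ t in (0 : ℝ)..1, (1 - t ^ 3) = 3 / 4 := by
  rw [intervalIntegral.integral_sub intervalIntegrable_const
    (Continuous.intervalIntegrable (by fun_prop) _ _), integral_pow]
  norm_num

theorem lintegral_one_sub_cube :
    ∫⁻ t in Ioc (0 : ℝ) 1, ENNReal.ofReal (1 - t ^ 3) = ENNReal.ofReal (3 / 4) := by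
  rw [← integral_one_sub_cube, intervalIntegral.integral_of_le zero_le_one,
    ofReal_integral_eq_lintegral_ofReal]
  · exact (by fun_prop : Continuous fun t : ℝ => 1 - t ^ 3).integrableOn_Ioc
  · refine ae_restrict_of_forall_mem measurableSet_Ioc fun t ht => ?_
    have : t ^ 3 ≤ 1 := pow_le_one₀ ht.1.le ht.2
    simpa using this

theorem sym_mass (K : Set (EuclideanSpace ℝ (Fin 3))) (hconv : Convex ℝ K) (hcomp : IsCompact K)
    (h0 : K ∈ 𝓝 (0 : EuclideanSpace ℝ (Fin 3))) :
    ENNReal.ofReal (5 / 4) * volume K ≤ ∫⁻ x in K, ENNReal.ofReal (1 / 2 + gauge K x) := by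
  have hVtop : volume K ≠ ⊤ := hcomp.measure_lt_top.ne
  have hgc : Continuous (gauge K) := continuous_gauge hconv h0
  have hlay := lintegral_eq_lintegral_meas_lt (volume.restrict K) (f := gauge K)
    (Filter.Eventually.of_forall fun x => gauge_nonneg x) hgc.measurable.aemeasurable
  have hpt : ∀ t ∈ Ioc (0 : ℝ) 1,
      ENNReal.ofReal (1 - t ^ 3) * volume K ≤ (volume.restrict K) {a | t < gauge K a} := by
    intro t ht
    have hmeas : MeasurableSet {a | t < gauge K a} := (isOpen_lt continuous_const hgc).measurableSet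
    rw [Measure.restrict_apply hmeas]
    have hsub : K ⊆ ({a | t < gauge K a} ∩ K) ∪ t • K := by
      intro x hx
      by_cases hxt : t < gauge K x
      · exact Or.inl ⟨hxt, hx⟩
      · right
        push Not at hxt
        have h1 : gauge K (t⁻¹ • x) ≤ 1 := by
          rw [gauge_smul_of_nonneg (inv_pos.mpr ht.1).le, smul_eq_mul, inv_mul_le_iff₀ ht.1, mul_one]
          exact hxt
        have h2 : t⁻¹ • x ∈ K := by
          have := (gauge_le_one_iff_mem_closure hconv h0).mp h1
          rwa [hcomp.isClosed.closure_eq] at this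
        exact ⟨t⁻¹ • x, h2, by simp [smul_smul, ht.1.ne']⟩
    have h3 : volume K ≤ volume ({a | t < gauge K a} ∩ K) + ENNReal.ofReal (t ^ 3) * volume K := by
      refine le_trans (measure_mono hsub) (le_trans (measure_union_le _ _) ?_)
      rw [Measure.addHaar_smul, finrank_euclideanSpace, Fintype.card_fin,
        abs_of_nonneg (pow_nonneg ht.1.le 3)]
    have h4 : volume K = ENNReal.ofReal (1 - t ^ 3) * volume K + ENNReal.ofReal (t ^ 3) * volume K := by
      rw [← add_mul, ← ENNReal.ofReal_add (by
        have : t ^ 3 ≤ 1 := pow_le_one₀ ht.1.le ht.2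
        linarith) (pow_nonneg ht.1.le 3)]
      simp
    refine (ENNReal.add_le_add_iff_right
      (ENNReal.mul_ne_top (ENNReal.ofReal_ne_top (r := t ^ 3)) hVtop)).mp ?_
    rw [← h4]
    exact h3
  have hM : ENNReal.ofReal (3 / 4) * volume K ≤ ∫⁻ x in K, ENNReal.ofReal (gauge K x) := by
    rw [hlay, ← lintegral_one_sub_cube, ← lintegral_mul_const' _ _ hVtop]
    exact le_trans (setLIntegral_mono' measurableSet_Ioc hpt) (lintegral_mono_set Ioc_subset_Ioi_self)
  have hsplit : ∫⁻ x in K, ENNReal.ofReal (1 / 2 + gauge K x)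
      = ENNReal.ofReal (1 / 2) * volume K + ∫⁻ x in K, ENNReal.ofReal (gauge K x) := by
    have : ∀ x, ENNReal.ofReal (1 / 2 + gauge K x)
        = ENNReal.ofReal (1 / 2) + ENNReal.ofReal (gauge K x) :=
      fun x => ENNReal.ofReal_add (by norm_num) (gauge_nonneg x)
    simp only [this]
    rw [lintegral_add_left measurable_const, setLIntegral_const]
  rw [hsplit]
  calc ENNReal.ofReal (5 / 4) * volume K
      = ENNReal.ofReal (1 / 2) * volume K + ENNReal.ofReal (3 / 4) * volume K := by
        rw [← add_mul, ← ENNReal.ofReal_add (by norm_num) (by norm_num)]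
        norm_num
    _ ≤ _ := by gcongr

end Vale.Agent.Lib.P243
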