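import Vale.Agent.Lib.P243.SymXray
import Vale.Agent.Lib.P243.SymMass
import Vale.Agent.Lib.P243.Refined

/-! Cylinder coverings of centrally symmetric convex bodies in three-space. -/

namespace Vale.Agent.Lib.P243

open Set MeasureTheory Module Topology
open scoped ENNReal

theorem sym_nhds_zero (K : Set (EuclideanSpace ℝ (Fin 3))) (hconv : Convex ℝ K)
    (hint : (interior K).Nonempty) (hsym : ∀ x ∈ K, -x ∈ K) :
    K ∈ 𝓝 (0 : EuclideanSpace ℝ (Fin 3)) := by
  obtain ⟨x, hx⟩ := hint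
  have hneg : -x ∈ interior K := by
    have h1 : -interior K ⊆ K := by
      intro z hz
      have := hsym _ (interior_subset (Set.mem_neg.mp hz))
      simpa using this
    have h2 : -interior K ⊆ interior K := interior_maximal h1 isOpen_interior.neg
    exact h2 (by simpa using hx)
  have h0 : (0 : EuclideanSpace ℝ (Fin 3)) ∈ interior K := by
    have := hconv.interior hx hneg (by norm_num : (0 : ℝ) ≤ 1 / 2)
      (by norm_num : (0 : ℝ) ≤ 1 / 2) (by norm_num)
    rwa [smul_neg, add_neg_cancel] at this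
  exact mem_interior_iff_mem_nhds.mp h0

/-- The mass of the weight `1 / 2 + gauge K` inside one cylinder. -/
theorem sym_cyl_piece (K : Set (EuclideanSpace ℝ (Fin 3))) (hconv : Convex ℝ K)
    (hcomp : IsCompact K) (hsym : ∀ x ∈ K, -x ∈ K) (h0 : K ∈ 𝓝 (0 : EuclideanSpace ℝ (Fin 3)))
    (u : EuclideanSpace ℝ (Fin 3)) (hu : ‖u‖ = 1) (B : Set (EuclideanSpace ℝ (Fin 3)))
    (hB : ∀ b ∈ B, inner ℝ u b = 0) :
    (∫⁻ x in K ∩ {x | ∃ b ∈ B, ∃ t : ℝ, x = b + t • u}, ENNReal.ofReal (1 / 2 + gauge K x))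
        * μHE[2] ((fun x : EuclideanSpace ℝ (Fin 3) => x - (inner ℝ u x : ℝ) • u) '' K)
      ≤ 3 * μHE[2] B * volume K := by
  have hu0 : u ≠ 0 := by
    intro h; rw [h, norm_zero] at hu; exact zero_ne_one hu
  obtain ⟨a, ha, hau⟩ := exists_unit_perp (k := 1) (by simp) u hu0
  obtain ⟨b, hb, hbu, hba⟩ := exists_third u a hu ha hau
  have hab : inner ℝ a b = 0 := by rw [real_inner_comm]; exact hba
  obtain ⟨Φ, hΦ, hΦf⟩ := exists_coords3 a b u ha hb hu hab hau hbu
  set ψ : EuclideanSpace ℝ (Fin 3) → ℝ × ℝ := fun x => ((inner ℝ a x : ℝ), (inner ℝ b x : ℝ))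
    with hψ
  have hfun : (Φ : EuclideanSpace ℝ (Fin 3) → (ℝ × ℝ) × ℝ)
      = fun x => (((inner ℝ a x : ℝ), (inner ℝ b x : ℝ)), (inner ℝ u x : ℝ)) := funext hΦf
  have hK'c : Convex ℝ (Φ '' K) := by
    rintro _ ⟨x, hx, rfl⟩ _ ⟨z, hz, rfl⟩ p q hp hq hpq
    refine ⟨p • x + q • z, hconv hx hz hp hq hpq, ?_⟩
    rw [hΦf, hΦf, hΦf]
    ext <;> simp [inner_add_right, inner_smul_right]
  have hK'k : IsCompact (Φ '' K) := by
    rw [hfun]; exact hcomp.image (by fun_prop)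
  have hK's : ∀ p ∈ Φ '' K, -p ∈ Φ '' K := by
    rintro _ ⟨x, hx, rfl⟩
    refine ⟨-x, hsym x hx, ?_⟩
    rw [hΦf, hΦf]
    ext <;> simp
  have hK'v : volume (Φ '' K) = volume K := by
    rw [MeasurableEquiv.image_eq_preimage_symm]
    exact hΦ.symm.measure_preimage_equiv K
  have hfst : Prod.fst '' (Φ '' K) = ψ '' K := by
    rw [image_image]
    refine image_congr fun x _ => ?_
    rw [hΦf]
  have hshadow : ψ '' K
      = ψ '' ((fun x : EuclideanSpace ℝ (Fin 3) => x - (inner ℝ u x : ℝ) • u) '' K) := by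
    rw [image_image]
    refine image_congr fun x _ => ?_
    simp only [hψ, inner_sub_right, inner_smul_right, hau, hbu, mul_zero, sub_zero]
  have hshv : volume (ψ '' K)
      = μHE[2] ((fun x : EuclideanSpace ℝ (Fin 3) => x - (inner ℝ u x : ℝ) • u) '' K) := by
    rw [hshadow]
    exact planar_coords u a b hu ha hb hab hau hbu _ (shadow_perp K u hu)
  have hBv : volume (toMeasurable volume (ψ '' B)) = μHE[2] B := by
    rw [measure_toMeasurable]
    exact planar_coords u a b hu ha hb hab hau hbu B hB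
  -- the gauge in coordinates
  set T : (ℝ × ℝ) × ℝ → EuclideanSpace ℝ (Fin 3) := fun p => p.1.1 • a + p.1.2 • b + p.2 • u
    with hT
  have hua : inner ℝ u a = 0 := by rw [real_inner_comm]; exact hau
  have hub : inner ℝ u b = 0 := by rw [real_inner_comm]; exact hbu
  have hΦT : ∀ p, Φ (T p) = p := by
    intro p
    rw [hΦf]
    simp only [hT, inner_add_right, inner_smul_right, real_inner_self_eq_norm_sq, ha, hb, hu, hab,
      hba, hau, hbu, hua, hub]
    ext <;> simp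
  have hTΦ : ∀ x, T (Φ x) = x := fun x => Φ.injective (hΦT _)
  have hTlin : ∀ p q : (ℝ × ℝ) × ℝ, ∀ α β : ℝ, T (α • p + β • q) = α • T p + β • T q := by
    intro p q α β
    simp only [hT, Prod.fst_add, Prod.snd_add, Prod.smul_fst, Prod.smul_snd, smul_eq_mul]
    module
  have habs : Absorbent ℝ K := absorbent_nhds_zero h0
  have hmain := sym_cyl (K := Φ '' K) (g := fun p => gauge K (T p)) hK'c hK'k hK's
    ((continuous_gauge hconv h0).comp (by fun_prop)) (fun p => gauge_nonneg _)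
    (by
      intro p q α β hα hβ
      rw [hTlin]
      refine le_trans (gauge_add_le hconv habs _ _) (le_of_eq ?_)
      rw [gauge_smul_of_nonneg hα, gauge_smul_of_nonneg hβ, smul_eq_mul, smul_eq_mul])
    (by
      rintro _ ⟨x, hx, rfl⟩
      rw [hTΦ]
      exact gauge_le_one_of_mem hx)
    (measurableSet_toMeasurable volume (ψ '' B))
  rw [hK'v, hBv, hfst, hshv] at hmain
  refine le_trans (mul_le_mul_left ?_ _) hmain
  have hms : MeasurableSet (Φ '' K ∩ toMeasurable volume (ψ '' B) ×ˢ (univ : Set ℝ)) :=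
    hK'k.measurableSet.inter ((measurableSet_toMeasurable volume (ψ '' B)).prod MeasurableSet.univ)
  have hgm : Measurable fun p : (ℝ × ℝ) × ℝ => ENNReal.ofReal (1 / 2 + gauge K (T p)) :=
    (ENNReal.continuous_ofReal.comp (continuous_const.add
      ((continuous_gauge hconv h0).comp (by fun_prop)))).measurable
  rw [← hΦ.setLIntegral_comp_preimage hms hgm]
  simp only [hTΦ]
  refine lintegral_mono_set ?_
  rintro x ⟨hx, b', hb', t, rfl⟩
  refine ⟨mem_image_of_mem _ hx, ?_, mem_univ _⟩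
  apply subset_toMeasurable
  refine ⟨b', hb', ?_⟩
  rw [hΦf]
  simp only [hψ, inner_add_right, inner_smul_right, hau, hbu, mul_zero, add_zero]

/-- Cylinder coverings of a centrally symmetric convex body: the directionwise relative area is
at least `5 / 12`. -/
theorem sym_cover (K : Set (EuclideanSpace ℝ (Fin 3))) (hconv : Convex ℝ K)
    (hcomp : IsCompact K) (hint : (interior K).Nonempty) (hsym : ∀ x ∈ K, -x ∈ K)
    (n : ℕ) (u : Fin n → EuclideanSpace ℝ (Fin 3)) (hu : ∀ j, ‖u j‖ = 1)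
    (B : Fin n → Set (EuclideanSpace ℝ (Fin 3)))
    (hB : ∀ j, ∀ b ∈ B j, inner ℝ (u j) b = 0) (hfin : ∀ j, μHE[2] (B j) ≠ ⊤)
    (hcov : ∀ x ∈ K, ∃ j, ∃ b ∈ B j, ∃ t : ℝ, x = b + t • u j) :
    5 / 12 ≤ ∑ j, (μHE[2] (B j)).toReal / (μHE[2] ((fun x :
      EuclideanSpace ℝ (Fin 3) => x - (inner ℝ (u j) x : ℝ) • u j) '' K)).toReal := by
  have hV : volume K ≠ 0 :=
    ((isOpen_interior.measure_pos volume hint).trans_le (measure_mono interior_subset)).ne'
  have hVtop : volume K ≠ ⊤ := hcomp.measure_lt_top.ne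
  have h0 := sym_nhds_zero K hconv hint hsym
  have hA0 := fun j => shadow_ne_zero K hconv hcomp hV (u j) (hu j)
  have hAtop := fun j => shadow_ne_top K hcomp (u j) (hu j)
  set r : Fin n → ℝ := fun j => (μHE[2] (B j)).toReal / (μHE[2] ((fun x :
      EuclideanSpace ℝ (Fin 3) => x - (inner ℝ (u j) x : ℝ) • u j) '' K)).toReal with hr
  have hr0 : ∀ j, 0 ≤ r j := by intro j; rw [hr]; positivity
  have hpiece : ∀ j, ∫⁻ x in K ∩ {x | ∃ b ∈ B j, ∃ t : ℝ, x = b + t • u j},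
      ENNReal.ofReal (1 / 2 + gauge K x) ≤ ENNReal.ofReal (3 * r j) * volume K := by
    intro j
    have h := sym_cyl_piece K hconv hcomp hsym h0 (u j) (hu j) (B j) (hB j)
    have e : ENNReal.ofReal (3 * r j) = 3 * μHE[2] (B j) / μHE[2] ((fun x :
        EuclideanSpace ℝ (Fin 3) => x - (inner ℝ (u j) x : ℝ) • u j) '' K) := by
      rw [ENNReal.ofReal_mul (by norm_num), hr]
      simp only
      rw [ENNReal.ofReal_div_of_pos (ENNReal.toReal_pos (hA0 _) (hAtop _)),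
        ENNReal.ofReal_toReal (hfin j), ENNReal.ofReal_toReal (hAtop _), mul_div_assoc]
      simp
    rw [e, ENNReal.div_eq_inv_mul, mul_assoc, ← ENNReal.div_eq_inv_mul]
    exact (ENNReal.le_div_iff_mul_le (Or.inl (hA0 j)) (Or.inl (hAtop j))).mpr h
  have h1 : ∫⁻ x in K, ENNReal.ofReal (1 / 2 + gauge K x)
      ≤ ∑ j, ∫⁻ x in K ∩ {x | ∃ b ∈ B j, ∃ t : ℝ, x = b + t • u j},
        ENNReal.ofReal (1 / 2 + gauge K x) := by
    have hsub : K ⊆ ⋃ j, K ∩ {x | ∃ b ∈ B j, ∃ t : ℝ, x = b + t • u j} := by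
      intro x hx
      obtain ⟨j, hj⟩ := hcov x hx
      exact mem_iUnion.mpr ⟨j, hx, hj⟩
    refine le_trans (lintegral_mono_set hsub) (le_trans (lintegral_iUnion_le _ _) ?_)
    rw [tsum_fintype]
  have h2 : ENNReal.ofReal (5 / 4) * volume K ≤ ENNReal.ofReal (∑ j, 3 * r j) * volume K := by
    rw [ENNReal.ofReal_sum_of_nonneg fun j _ => mul_nonneg (by norm_num) (hr0 j), Finset.sum_mul]
    exact le_trans (sym_mass K hconv hcomp h0)
      (le_trans h1 (Finset.sum_le_sum fun j _ => hpiece j))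
  have h3 : ENNReal.ofReal (5 / 4) ≤ ENNReal.ofReal (∑ j, 3 * r j) :=
    (ENNReal.mul_le_mul_iff_left hV hVtop).mp h2
  have h4 : (5 / 4 : ℝ) ≤ ∑ j, 3 * r j := by
    refine (ENNReal.ofReal_le_ofReal_iff ?_).mp h3
    exact Finset.sum_nonneg fun j _ => mul_nonneg (by norm_num) (hr0 j)
  rw [← Finset.mul_sum] at h4
  linarith

/-- Absolute form: the total base area is at least `5 / 12` of the minimal shadow area. -/
theorem sym_cover_abs (K : Set (EuclideanSpace ℝ (Fin 3))) (hconv : Convex ℝ K)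
    (hcomp : IsCompact K) (hint : (interior K).Nonempty) (hsym : ∀ x ∈ K, -x ∈ K)
    (n : ℕ) (u : Fin n → EuclideanSpace ℝ (Fin 3)) (hu : ∀ j, ‖u j‖ = 1)
    (B : Fin n → Set (EuclideanSpace ℝ (Fin 3)))
    (hB : ∀ j, ∀ b ∈ B j, inner ℝ (u j) b = 0)
    (hcov : ∀ x ∈ K, ∃ j, ∃ b ∈ B j, ∃ t : ℝ, x = b + t • u j) :
    (5 / 12 : ℝ≥0∞) * (⨅ v : {v : EuclideanSpace ℝ (Fin 3) // ‖v‖ = 1},
        μHE[2] ((fun x : EuclideanSpace ℝ (Fin 3) => x - (inner ℝ v.1 x : ℝ) • v.1) '' K))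
      ≤ ∑ j, μHE[2] (B j) := by
  have hV : volume K ≠ 0 :=
    ((isOpen_interior.measure_pos volume hint).trans_le (measure_mono interior_subset)).ne'
  have hVtop : volume K ≠ ⊤ := hcomp.measure_lt_top.ne
  have h0 := sym_nhds_zero K hconv hint hsym
  set Amin := ⨅ v : {v : EuclideanSpace ℝ (Fin 3) // ‖v‖ = 1},
        μHE[2] ((fun x : EuclideanSpace ℝ (Fin 3) => x - (inner ℝ v.1 x : ℝ) • v.1) '' K) with hAmin
  have hAj : ∀ j, Amin ≤ μHE[2] ((fun x :
      EuclideanSpace ℝ (Fin 3) => x - (inner ℝ (u j) x : ℝ) • u j) '' K) :=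
    fun j => iInf_le_of_le ⟨u j, hu j⟩ le_rfl
  have h1 : ∫⁻ x in K, ENNReal.ofReal (1 / 2 + gauge K x)
      ≤ ∑ j, ∫⁻ x in K ∩ {x | ∃ b ∈ B j, ∃ t : ℝ, x = b + t • u j},
        ENNReal.ofReal (1 / 2 + gauge K x) := by
    have hsub : K ⊆ ⋃ j, K ∩ {x | ∃ b ∈ B j, ∃ t : ℝ, x = b + t • u j} := by
      intro x hx
      obtain ⟨j, hj⟩ := hcov x hx
      exact mem_iUnion.mpr ⟨j, hx, hj⟩
    refine le_trans (lintegral_mono_set hsub) (le_trans (lintegral_iUnion_le _ _) ?_)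
    rw [tsum_fintype]
  have h2 : (ENNReal.ofReal (5 / 4) * Amin) * volume K ≤ (3 * ∑ j, μHE[2] (B j)) * volume K := by
    calc (ENNReal.ofReal (5 / 4) * Amin) * volume K
        = (ENNReal.ofReal (5 / 4) * volume K) * Amin := by ring
      _ ≤ (∑ j, ∫⁻ x in K ∩ {x | ∃ b ∈ B j, ∃ t : ℝ, x = b + t • u j},
            ENNReal.ofReal (1 / 2 + gauge K x)) * Amin :=
          mul_le_mul_left (le_trans (sym_mass K hconv hcomp h0) h1) _
      _ = ∑ j, (∫⁻ x in K ∩ {x | ∃ b ∈ B j, ∃ t : ℝ, x = b + t • u j},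
            ENNReal.ofReal (1 / 2 + gauge K x)) * Amin := Finset.sum_mul _ _ _
      _ ≤ ∑ j, 3 * μHE[2] (B j) * volume K :=
          Finset.sum_le_sum fun j _ => le_trans (mul_le_mul_right (hAj j) _)
            (sym_cyl_piece K hconv hcomp hsym h0 (u j) (hu j) (B j) (hB j))
      _ = (3 * ∑ j, μHE[2] (B j)) * volume K := by
          rw [Finset.mul_sum, Finset.sum_mul]
  have h3 : ENNReal.ofReal (5 / 4) * Amin ≤ 3 * ∑ j, μHE[2] (B j) :=
    (ENNReal.mul_le_mul_iff_left hV hVtop).mp h2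
  have e : (5 / 12 : ℝ≥0∞) = 3⁻¹ * ENNReal.ofReal (5 / 4) := by
    rw [ENNReal.ofReal_div_of_pos (by norm_num)]
    simp only [ENNReal.ofReal_ofNat]
    rw [show (12 : ℝ≥0∞) = 3 * 4 by norm_num, ENNReal.div_eq_inv_mul, ENNReal.div_eq_inv_mul,
      ENNReal.mul_inv (by simp) (by simp), mul_assoc]
  calc (5 / 12 : ℝ≥0∞) * Amin = 3⁻¹ * (ENNReal.ofReal (5 / 4) * Amin) := by rw [e, mul_assoc]
    _ ≤ 3⁻¹ * (3 * ∑ j, μHE[2] (B j)) := mul_le_mul_right h3 _
    _ = ∑ j, μHE[2] (B j) := by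
        rw [← mul_assoc, ENNReal.inv_mul_cancel (by simp) (by simp), one_mul]

end Vale.Agent.Lib.P243
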