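import Vale.Agent.Lib.P243.BM2

/-! Area of the sum of a centrally symmetric planar convex set and a segment. -/

namespace Vale.Agent.Lib.P243

open Set MeasureTheory
open scoped ENNReal

/-- Aligned version: the segment is vertical. -/
theorem sym_planar_aligned {P S : Set (ℝ × ℝ)} (hc : Convex ℝ P) (hk : IsCompact P)
    (hsym : ∀ p ∈ P, -p ∈ P) (hS : MeasurableSet S) {s t : ℝ} (hs : 0 ≤ s)
    (hsP : ∀ τ : ℝ, ((0 : ℝ), τ) ∈ P → s * τ ≤ 1) (ht0 : 0 ≤ t) (ht1 : t ≤ 1)
    (hPS : ∀ p ∈ P, ∀ θ ∈ Icc (-1 : ℝ) 1, (1 - t) • p + ((0 : ℝ), t * θ) ∈ S) :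
    ENNReal.ofReal ((1 - t) * (1 - t + t * s)) * volume P ≤ volume S := by
  rcases ht1.eq_or_lt with h1 | h1
  · subst h1; simp
  have hm : 0 < 1 - t := by linarith
  have hG := goodFibres_of_convex_compact hc hk
  have hPv : volume P = ∫⁻ a, volume {z | (a, z) ∈ P} := by
    rw [Measure.volume_eq_prod, Measure.prod_apply hk.measurableSet]; rfl
  have hSv : volume S = ∫⁻ a, volume {z | (a, z) ∈ S} := by
    rw [Measure.volume_eq_prod, Measure.prod_apply hS]; rfl
  rw [hSv, lintegral_comp_mul_left_aux _ hm, hPv, ENNReal.ofReal_mul hm.le, mul_assoc]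
  gcongr
  rw [← lintegral_const_mul' _ _ ENNReal.ofReal_ne_top]
  refine lintegral_mono fun a => ?_
  by_cases hne : {z | (a, z) ∈ P}.Nonempty
  · have hI := eq_Icc_of_connected_compact ⟨hne, (hG.ord a).isPreconnected⟩ (hG.comp a)
    set α := sInf {z | (a, z) ∈ P}
    set β := sSup {z | (a, z) ∈ P}
    have hαβ : α ≤ β := by rw [hI] at hne; exact nonempty_Icc.mp hne
    have hα : (a, α) ∈ P := by
      have : α ∈ {z | (a, z) ∈ P} := by rw [hI]; exact left_mem_Icc.mpr hαβ
      exact this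
    have hβ : (a, β) ∈ P := by
      have : β ∈ {z | (a, z) ∈ P} := by rw [hI]; exact right_mem_Icc.mpr hαβ
      exact this
    have hmid : ((0 : ℝ), (β - α) / 2) ∈ P := by
      have h := hc hβ (hsym _ hα) (by norm_num : (0 : ℝ) ≤ 1 / 2) (by norm_num : (0 : ℝ) ≤ 1 / 2)
        (by norm_num)
      have e : (1 / 2 : ℝ) • (a, β) + (1 / 2 : ℝ) • (-(a, α)) = ((0 : ℝ), (β - α) / 2) := by
        ext <;> simp <;> ring
      rwa [e] at h
    have hsb : s * ((β - α) / 2) ≤ 1 := hsP _ hmid
    have hsub : Icc ((1 - t) * α - t) ((1 - t) * β + t) ⊆ {z | ((1 - t) * a, z) ∈ S} := by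
      intro w hw
      -- write `w = (1 - t) z + t θ`
      have hlen : 0 ≤ (1 - t) * (β - α) + 2 * t := by nlinarith
      rcases hlen.eq_or_lt with h0 | h0
      · -- degenerate: `t = 0` and `α = β`
        have ht : t = 0 := by nlinarith [mul_nonneg hm.le (sub_nonneg.mpr hαβ)]
        subst ht
        have hw1 := hw.1
        have hw2 := hw.2
        have hab : α = β := by nlinarith
        have hwα : w = α := by
          apply le_antisymm <;> nlinarith
        have := hPS _ hα 0 (by constructor <;> norm_num)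
        simpa [hwα] using this
      · set lam := (w - ((1 - t) * α - t)) / ((1 - t) * (β - α) + 2 * t) with hlam
        have hl0 : 0 ≤ lam := div_nonneg (by linarith [hw.1]) h0.le
        have hl1 : lam ≤ 1 := by
          rw [hlam, div_le_one h0]; linarith [hw.2]
        have hz : (a, α + lam * (β - α)) ∈ P := by
          have : α + lam * (β - α) ∈ Icc α β := by
            constructor
            · nlinarith
            · nlinarith
          rw [← hI] at this; exact this
        have := hPS _ hz (-1 + 2 * lam) (by constructor <;> linarith)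
        have e : (1 - t) • (a, α + lam * (β - α)) + ((0 : ℝ), t * (-1 + 2 * lam))
            = ((1 - t) * a, w) := by
          ext
          · simp
          · simp only [Prod.snd_add, Prod.smul_snd, smul_eq_mul]
            have : lam * ((1 - t) * (β - α) + 2 * t) = w - ((1 - t) * α - t) := by
              rw [hlam, div_mul_cancel₀ _ h0.ne']
            linarith
        rw [e] at this
        exact this
    calc ENNReal.ofReal (1 - t + t * s) * volume {z | (a, z) ∈ P}
        = ENNReal.ofReal ((1 - t + t * s) * (β - α)) := by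
          rw [hI, Real.volume_Icc, ← ENNReal.ofReal_mul (by nlinarith [mul_nonneg ht0 hs])]
      _ ≤ ENNReal.ofReal ((1 - t) * β + t - ((1 - t) * α - t)) := by
          apply ENNReal.ofReal_le_ofReal
          nlinarith
      _ = volume (Icc ((1 - t) * α - t) ((1 - t) * β + t)) := by rw [Real.volume_Icc]
      _ ≤ volume {z | ((1 - t) * a, z) ∈ S} := measure_mono hsub
  · rw [not_nonempty_iff_eq_empty.mp hne]; simp

/-- General version: the segment has an arbitrary nonzero direction `y`. -/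
theorem sym_planar {P S : Set (ℝ × ℝ)} (hc : Convex ℝ P) (hk : IsCompact P)
    (hsym : ∀ p ∈ P, -p ∈ P) (hS : MeasurableSet S) {y : ℝ × ℝ} (hy : y ≠ 0) {s t : ℝ}
    (hs : 0 ≤ s) (hsP : ∀ τ : ℝ, τ • y ∈ P → s * τ ≤ 1) (ht0 : 0 ≤ t) (ht1 : t ≤ 1)
    (hPS : ∀ p ∈ P, ∀ θ ∈ Icc (-1 : ℝ) 1, (1 - t) • p + (t * θ) • y ∈ S) :
    ENNReal.ofReal ((1 - t) * (1 - t + t * s)) * volume P ≤ volume S := by
  obtain ⟨A, hA⟩ := SeparatingDual.exists_continuousLinearEquiv_apply_eq (R := ℝ) hy
    (show ((0 : ℝ), (1 : ℝ)) ≠ 0 by simp)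
  have hτ : ∀ τ : ℝ, ((0 : ℝ), τ) = A (τ • y) := by
    intro τ
    rw [map_smul, hA]
    ext <;> simp
  have h := sym_planar_aligned (P := A '' P) (S := A '' S) (s := s) (t := t)
    (hc.linear_image A.toLinearMap) (hk.image A.continuous) ?_
    (A.toHomeomorph.measurableEmbedding.measurableSet_image.mpr hS) hs ?_ ht0 ht1 ?_
  · rw [Measure.addHaar_image_continuousLinearEquiv, Measure.addHaar_image_continuousLinearEquiv,
      mul_left_comm] at h
    have hdet : ENNReal.ofReal |LinearMap.det ((A : (ℝ × ℝ) →L[ℝ] (ℝ × ℝ)) : (ℝ × ℝ) →ₗ[ℝ] (ℝ × ℝ))| ≠ 0 := by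
      rw [Ne, ENNReal.ofReal_eq_zero, not_le, abs_pos]
      exact (LinearEquiv.isUnit_det' A.toLinearEquiv).ne_zero
    exact (ENNReal.mul_le_mul_iff_right hdet ENNReal.ofReal_ne_top).mp h
  · rintro _ ⟨p, hp, rfl⟩
    exact ⟨-p, hsym p hp, map_neg A p⟩
  · intro τ hτP
    rw [hτ] at hτP
    obtain ⟨p, hp, hpe⟩ := hτP
    rw [A.injective hpe] at hp
    exact hsP τ hp
  · rintro _ ⟨p, hp, rfl⟩ θ hθ
    refine ⟨_, hPS p hp θ hθ, ?_⟩
    rw [map_add, map_smul, ← hτ]

end Vale.Agent.Lib.P243
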