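import Vale.Agent.Lib.P243.SymPlanar

/-! Volume of a centrally symmetric convex body in terms of a chord and its shadow. -/

namespace Vale.Agent.Lib.P243

open Set MeasureTheory
open scoped ENNReal

theorem integral_sym_weight (s : ℝ) :
    ∫ t in (0 : ℝ)..1, (1 - t) * (1 - t + t * s) = 1 / 3 + s / 6 := by
  have hd : ∀ t ∈ uIcc (0 : ℝ) 1,
      HasDerivAt (fun t : ℝ => t + (s - 2) * t ^ 2 / 2 + (1 - s) * t ^ 3 / 3)
        ((1 - t) * (1 - t + t * s)) t := by
    intro t _
    have h1 : HasDerivAt (fun t : ℝ => t) 1 t := hasDerivAt_id t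
    have h2 : HasDerivAt (fun t : ℝ => (s - 2) * t ^ 2 / 2) ((s - 2) * (2 * t) / 2) t := by
      simpa using ((hasDerivAt_pow 2 t).const_mul (s - 2)).div_const 2
    have h3 : HasDerivAt (fun t : ℝ => (1 - s) * t ^ 3 / 3) ((1 - s) * (3 * t ^ 2) / 3) t := by
      simpa using ((hasDerivAt_pow 3 t).const_mul (1 - s)).div_const 3
    have h4 := (h1.add h2).add h3
    have e : 1 + (s - 2) * (2 * t) / 2 + (1 - s) * (3 * t ^ 2) / 3
        = (1 - t) * (1 - t + t * s) := by ring
    rw [e] at h4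
    exact h4
  rw [intervalIntegral.integral_eq_sub_of_hasDerivAt hd
    (Continuous.intervalIntegrable (by fun_prop) _ _)]
  ring

theorem lintegral_sym_weight {s : ℝ} (hs : 0 ≤ s) :
    ∫⁻ t in Ioc (0 : ℝ) 1, ENNReal.ofReal ((1 - t) * (1 - t + t * s))
      = ENNReal.ofReal (1 / 3 + s / 6) := by
  rw [← integral_sym_weight, intervalIntegral.integral_of_le zero_le_one,
    ofReal_integral_eq_lintegral_ofReal]
  · exact (by fun_prop : Continuous fun t : ℝ => (1 - t) * (1 - t + t * s)).integrableOn_Ioc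
  · refine ae_restrict_of_forall_mem measurableSet_Ioc fun t ht => ?_
    have h1 : 0 ≤ 1 - t := by linarith [ht.2]
    exact mul_nonneg h1 (add_nonneg h1 (mul_nonneg ht.1.le hs))

theorem lev_neg {K : Set ((ℝ × ℝ) × ℝ)} (hsym : ∀ p ∈ K, -p ∈ K) {y : ℝ × ℝ} {L : ℝ}
    (hyL : y ∈ lev K L) : -y ∈ lev K L := by
  obtain ⟨z, h1, h2⟩ := hyL
  refine ⟨-(z + L), hsym _ h2, ?_⟩
  have := hsym _ h1
  have e : (-y, -(z + L) + L) = -(y, z) := by
    ext <;> simp
  rw [e]; exact this

theorem sym_vol {K : Set ((ℝ × ℝ) × ℝ)} (hc : Convex ℝ K) (hk : IsCompact K)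
    (hsym : ∀ p ∈ K, -p ∈ K) {y : ℝ × ℝ} (hy : y ≠ 0) {L s : ℝ} (hL : 0 ≤ L)
    (hyL : y ∈ lev K L) (hs : 0 ≤ s) (hsP : ∀ τ : ℝ, τ • y ∈ Prod.fst '' K → s * τ ≤ 1) :
    ENNReal.ofReal (L * (1 / 3 + s / 6)) * volume (Prod.fst '' K) ≤ volume K := by
  rcases hL.eq_or_lt with h0 | h0
  · rw [← h0]; simp
  have hG := goodFibres_of_convex_compact hc hk
  have hPsym : ∀ p ∈ Prod.fst '' K, -p ∈ Prod.fst '' K := by
    rintro _ ⟨p, hp, rfl⟩
    exact ⟨-p, hsym p hp, rfl⟩
  have hPc : Convex ℝ (Prod.fst '' K) := by rw [← lev_zero]; exact lev_convex hc 0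
  have hPk : IsCompact (Prod.fst '' K) := hk.image continuous_fst
  have hpt : ∀ t ∈ Ioc (0 : ℝ) 1,
      ENNReal.ofReal ((1 - t) * (1 - t + t * s)) * volume (Prod.fst '' K)
        ≤ volume (lev K (L * t)) := by
    intro t ht
    refine sym_planar hPc hPk hPsym (lev_compact hk _).measurableSet hy hs hsP ht.1.le ht.2 ?_
    intro p hp θ hθ
    have hθy : θ • y ∈ lev K L := by
      have := lev_convex hc L hyL (lev_neg hsym hyL)
        (show 0 ≤ (1 + θ) / 2 by linarith [hθ.1]) (show 0 ≤ (1 - θ) / 2 by linarith [hθ.2])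
        (by ring)
      have e : ((1 + θ) / 2) • y + ((1 - θ) / 2) • (-y) = θ • y := by
        rw [smul_neg, ← sub_eq_add_neg, ← sub_smul]
        congr 1; ring
      rwa [e] at this
    rw [← lev_zero] at hp
    have := lev_combo (K0 := K) (K1 := K) (K := K) (p := 1 - t) (q := t)
      (fun x hx w hw => hc hx hw (by linarith [ht.2]) ht.1.le (by ring)) p hp (θ • y) hθy
    have e1 : (1 - t) * 0 + t * L = L * t := by ring
    rw [e1, smul_smul] at this
    exact this
  calc ENNReal.ofReal (L * (1 / 3 + s / 6)) * volume (Prod.fst '' K)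
      = ENNReal.ofReal L * ∫⁻ t in Ioc (0 : ℝ) 1,
          ENNReal.ofReal ((1 - t) * (1 - t + t * s)) * volume (Prod.fst '' K) := by
        rw [lintegral_mul_const' _ _ hPk.measure_lt_top.ne, lintegral_sym_weight hs,
          ENNReal.ofReal_mul hL, mul_assoc]
    _ ≤ ENNReal.ofReal L * ∫⁻ t in Ioc (0 : ℝ) 1, volume (lev K (L * t)) := by
        exact mul_le_mul_right (setLIntegral_mono' measurableSet_Ioc hpt) _
    _ = ∫⁻ t in Ioc 0 L, volume (lev K t) :=
        (setLIntegral_Ioc_scale (fun t => volume (lev K t)) h0).symm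
    _ ≤ ∫⁻ t in Ioi 0, volume (lev K t) := lintegral_mono_set Ioc_subset_Ioi_self
    _ = volume K := by
        have := prod_volume_eq volume hG hk.measurableSet
        rw [← Measure.volume_eq_prod] at this
        exact this.symm

end Vale.Agent.Lib.P243
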