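import Vale.Agent.Lib.P243.SymVol
import Vale.Agent.Lib.P243.Planar

/-! The X-ray of the weight `1 / 2 + g` on a centrally symmetric convex body, `g` its gauge. -/

namespace Vale.Agent.Lib.P243

open Set MeasureTheory
open scoped ENNReal

/-- Trapezoid bound for the integral of a convex function. -/
theorem lintegral_convex_le {h : ℝ → ℝ} {a b A B c : ℝ} (hab : a ≤ b)
    (hconv : ConvexOn ℝ (Icc a b) h) (ha : h a ≤ A) (hb : h b ≤ B) (hA : 0 ≤ c + A)
    (hB : 0 ≤ c + B) :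
    ∫⁻ z in Icc a b, ENNReal.ofReal (c + h z) ≤ ENNReal.ofReal ((b - a) * (c + (A + B) / 2)) := by
  rcases hab.eq_or_lt with h0 | h0
  · subst h0; simp
  have hba : 0 < b - a := by linarith
  set κ := (B - A) / (b - a) with hκ
  have hcomb : ∀ t : ℝ, (c + A) + κ * (t - a)
      = (b - t) / (b - a) * (c + A) + (t - a) / (b - a) * (c + B) := by
    intro t; rw [hκ]; field_simp; ring
  have hnn : ∀ t ∈ Icc a b, 0 ≤ (c + A) + κ * (t - a) := by
    intro t ht
    rw [hcomb]
    exact add_nonneg (mul_nonneg (div_nonneg (by linarith [ht.2]) hba.le) hA)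
      (mul_nonneg (div_nonneg (by linarith [ht.1]) hba.le) hB)
  have hle : ∀ t ∈ Icc a b, c + h t ≤ (c + A) + κ * (t - a) := by
    intro t ht
    have hp : 0 ≤ (b - t) / (b - a) := div_nonneg (by linarith [ht.2]) hba.le
    have hq : 0 ≤ (t - a) / (b - a) := div_nonneg (by linarith [ht.1]) hba.le
    have hpq : (b - t) / (b - a) + (t - a) / (b - a) = 1 := by field_simp; ring
    have h1 := hconv.2 (left_mem_Icc.mpr hab) (right_mem_Icc.mpr hab) hp hq hpq
    have e : ((b - t) / (b - a)) • a + ((t - a) / (b - a)) • b = t := by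
      simp only [smul_eq_mul]; field_simp; ring
    rw [e] at h1
    simp only [smul_eq_mul] at h1
    rw [hcomb]
    have h2 := mul_le_mul_of_nonneg_left ha hp
    have h3 := mul_le_mul_of_nonneg_left hb hq
    have h4 : c = (b - t) / (b - a) * c + (t - a) / (b - a) * c := by
      rw [← add_mul, hpq, one_mul]
    nlinarith
  calc ∫⁻ z in Icc a b, ENNReal.ofReal (c + h z)
      ≤ ∫⁻ z in Icc a b, ENNReal.ofReal ((c + A) + κ * (z - a)) :=
        setLIntegral_mono' measurableSet_Icc fun z hz => ENNReal.ofReal_le_ofReal (hle z hz)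
    _ = ENNReal.ofReal ((c + A) * (b - a) + κ * ((b ^ 2 - a ^ 2) / 2 - a * (b - a))) :=
        lintegral_affine _ _ _ _ _ hab hnn
    _ = ENNReal.ofReal ((b - a) * (c + (A + B) / 2)) := by
        congr 1
        rw [hκ]; field_simp; ring

variable {K : Set ((ℝ × ℝ) × ℝ)} {g : (ℝ × ℝ) × ℝ → ℝ}

/-- The X-ray inequality on one fibre. -/
theorem sym_fibre (hc : Convex ℝ K) (hk : IsCompact K) (hsym : ∀ p ∈ K, -p ∈ K)
    (hgcont : Continuous g) (hg0 : ∀ p, 0 ≤ g p)
    (hgs : ∀ p q : (ℝ × ℝ) × ℝ, ∀ α β : ℝ, 0 ≤ α → 0 ≤ β → g (α • p + β • q) ≤ α * g p + β * g q)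
    (hg1 : ∀ p ∈ K, g p ≤ 1) {y : ℝ × ℝ} (hy : y ≠ 0) :
    (∫⁻ z in {z | (y, z) ∈ K}, ENNReal.ofReal (1 / 2 + g (y, z))) * volume (Prod.fst '' K)
      ≤ 3 * volume K := by
  have hG := goodFibres_of_convex_compact hc hk
  by_cases hne : {z | (y, z) ∈ K}.Nonempty
  swap
  · rw [not_nonempty_iff_eq_empty.mp hne]; simp
  have hI := eq_Icc_of_connected_compact ⟨hne, (hG.ord y).isPreconnected⟩ (hG.comp y)
  obtain ⟨zs, hzs, hmin⟩ := (hG.comp y).exists_isMinOn hne
    (f := fun z => g (y, z)) (by fun_prop)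
  set α := sInf {z | (y, z) ∈ K}
  set β := sSup {z | (y, z) ∈ K}
  have hαβ : α ≤ β := by rw [hI] at hne; exact nonempty_Icc.mp hne
  have hα : (y, α) ∈ K := by
    have : α ∈ {z | (y, z) ∈ K} := by rw [hI]; exact left_mem_Icc.mpr hαβ
    exact this
  have hβ : (y, β) ∈ K := by
    have : β ∈ {z | (y, z) ∈ K} := by rw [hI]; exact right_mem_Icc.mpr hαβ
    exact this
  have hzs' : zs ∈ Icc α β := by rw [← hI]; exact hzs
  set s := g (y, zs) with hs
  have hs0 : 0 ≤ s := hg0 _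
  have hs1 : s ≤ 1 := hg1 _ hzs
  have hzero : (0 : (ℝ × ℝ) × ℝ) ∈ K := by
    have := hc hα (hsym _ hα) (by norm_num : (0 : ℝ) ≤ 1 / 2) (by norm_num : (0 : ℝ) ≤ 1 / 2)
      (by norm_num)
    have e : (1 / 2 : ℝ) • (y, α) + (1 / 2 : ℝ) • (-(y, α)) = 0 := by
      rw [smul_neg, add_neg_cancel]
    rwa [e] at this
  have hconv : ∀ a b : ℝ, ConvexOn ℝ (Icc a b) fun z => g (y, z) := by
    intro a b
    refine ⟨convex_Icc a b, ?_⟩
    intro z1 _ z2 _ p q hp hq hpq
    have := hgs (y, z1) (y, z2) p q hp hq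
    have e : p • (y, z1) + q • (y, z2) = (y, p • z1 + q • z2) := by
      refine Prod.ext ?_ ?_
      · simp only [Prod.fst_add, Prod.smul_fst]
        rw [← add_smul, hpq, one_smul]
      · simp
    rw [e] at this
    simpa using this
  -- the X-ray is small
  have hX : ∫⁻ z in {z | (y, z) ∈ K}, ENNReal.ofReal (1 / 2 + g (y, z))
      ≤ ENNReal.ofReal ((β - α) * (1 + s / 2)) := by
    rw [hI, ← Icc_union_Icc_eq_Icc hzs'.1 hzs'.2]
    refine le_trans (lintegral_union_le _ _ _) ?_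
    have h1 := lintegral_convex_le (c := 1 / 2) (A := 1) (B := s) hzs'.1 (hconv α zs) (hg1 _ hα)
      le_rfl (by norm_num) (by linarith)
    have h2 := lintegral_convex_le (c := 1 / 2) (A := s) (B := 1) hzs'.2 (hconv zs β) le_rfl
      (hg1 _ hβ) (by linarith) (by norm_num)
    refine le_trans (add_le_add h1 h2) (le_of_eq ?_)
    rw [← ENNReal.ofReal_add]
    · congr 1; ring
    · exact mul_nonneg (by linarith [hzs'.1]) (by linarith)
    · exact mul_nonneg (by linarith [hzs'.2]) (by linarith)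
  -- the volume is large
  have hV := sym_vol hc hk hsym hy (L := β - α) (s := s) (by linarith)
    ⟨α, hα, by rw [add_sub_cancel]; exact hβ⟩ hs0 ?_
  · calc (∫⁻ z in {z | (y, z) ∈ K}, ENNReal.ofReal (1 / 2 + g (y, z))) * volume (Prod.fst '' K)
        ≤ ENNReal.ofReal ((β - α) * (1 + s / 2)) * volume (Prod.fst '' K) :=
          mul_le_mul_left hX _
      _ = 3 * (ENNReal.ofReal ((β - α) * (1 / 3 + s / 6)) * volume (Prod.fst '' K)) := by
          rw [← mul_assoc]
          congr 1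
          rw [show (3 : ℝ≥0∞) = ENNReal.ofReal 3 by simp, ← ENNReal.ofReal_mul (by norm_num)]
          congr 1; ring
      _ ≤ 3 * volume K := mul_le_mul_right hV _
  · rintro τ ⟨⟨y', z⟩, hp, hy'⟩
    simp only at hy'
    subst hy'
    rcases le_or_gt τ 1 with h1 | h1
    · nlinarith
    · have hτ0 : 0 < τ := by linarith
      have hmem : τ⁻¹ • (τ • y, z) ∈ K :=
        hc.smul_mem_of_zero_mem hzero hp ⟨(inv_pos.mpr hτ0).le, inv_le_one_of_one_le₀ h1.le⟩
      have e : τ⁻¹ • (τ • y, z) = (y, τ⁻¹ * z) := by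
        ext
        · simp [hτ0.ne']
        · simp [hτ0.ne']
        · simp
      have h2 : s ≤ g (y, τ⁻¹ * z) := by
        rw [e] at hmem
        exact hmin hmem
      have h3 := hgs (τ • y, z) 0 τ⁻¹ 0 (inv_pos.mpr hτ0).le le_rfl
      rw [zero_smul, add_zero, e, zero_mul, add_zero] at h3
      have h4 : τ⁻¹ * g (τ • y, z) ≤ τ⁻¹ * 1 :=
        mul_le_mul_of_nonneg_left (hg1 _ hp) (inv_pos.mpr hτ0).le
      have h5 : s ≤ τ⁻¹ := by linarith
      calc s * τ ≤ τ⁻¹ * τ := mul_le_mul_of_nonneg_right h5 hτ0.le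
        _ = 1 := inv_mul_cancel₀ hτ0.ne'

/-- The mass of the weight inside a cylinder. -/
theorem sym_cyl (hc : Convex ℝ K) (hk : IsCompact K) (hsym : ∀ p ∈ K, -p ∈ K)
    (hgcont : Continuous g) (hg0 : ∀ p, 0 ≤ g p)
    (hgs : ∀ p q : (ℝ × ℝ) × ℝ, ∀ α β : ℝ, 0 ≤ α → 0 ≤ β → g (α • p + β • q) ≤ α * g p + β * g q)
    (hg1 : ∀ p ∈ K, g p ≤ 1) {B : Set (ℝ × ℝ)} (hB : MeasurableSet B) :
    (∫⁻ p in K ∩ B ×ˢ univ, ENNReal.ofReal (1 / 2 + g p)) * volume (Prod.fst '' K)
      ≤ 3 * volume B * volume K := by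
  have hm : MeasurableSet (K ∩ B ×ˢ (univ : Set ℝ)) :=
    hk.measurableSet.inter (hB.prod MeasurableSet.univ)
  have hf : Measurable fun p : (ℝ × ℝ) × ℝ => ENNReal.ofReal (1 / 2 + g p) :=
    (ENNReal.continuous_ofReal.comp
      (by fun_prop : Continuous fun p : (ℝ × ℝ) × ℝ => 1 / 2 + g p)).measurable
  have h1 : ∫⁻ p in K ∩ B ×ˢ univ, ENNReal.ofReal (1 / 2 + g p)
      = ∫⁻ y in B, ∫⁻ z in {z | (y, z) ∈ K}, ENNReal.ofReal (1 / 2 + g (y, z)) := by
    rw [← lintegral_indicator hm, Measure.volume_eq_prod,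
      lintegral_prod _ (hf.indicator hm).aemeasurable, ← lintegral_indicator hB]
    refine lintegral_congr fun y => ?_
    by_cases hy : y ∈ B
    · rw [indicator_of_mem hy,
        ← lintegral_indicator ((goodFibres_of_convex_compact hc hk).comp y).measurableSet]
      refine lintegral_congr fun z => ?_
      by_cases hz : (y, z) ∈ K
      · rw [indicator_of_mem (show (y, z) ∈ K ∩ B ×ˢ univ from ⟨hz, hy, mem_univ _⟩),
          indicator_of_mem (show z ∈ {z | (y, z) ∈ K} from hz)]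
      · rw [indicator_of_notMem (fun h => hz h.1),
          indicator_of_notMem (show z ∉ {z | (y, z) ∈ K} from hz)]
    · rw [indicator_of_notMem hy]
      have : ∀ z, (K ∩ B ×ˢ univ).indicator
          (fun p : (ℝ × ℝ) × ℝ => ENNReal.ofReal (1 / 2 + g p)) (y, z) = 0 :=
        fun z => indicator_of_notMem (fun h => hy h.2.1) _
      simp only [this, lintegral_zero]
  rw [h1, ← lintegral_mul_const' _ _ (hk.image continuous_fst).measure_lt_top.ne]
  calc ∫⁻ y in B, (∫⁻ z in {z | (y, z) ∈ K}, ENNReal.ofReal (1 / 2 + g (y, z)))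
        * volume (Prod.fst '' K)
      ≤ ∫⁻ _ in B, 3 * volume K := by
        refine lintegral_mono_ae (ae_restrict_of_ae ?_)
        have : ∀ᵐ y : ℝ × ℝ, y ≠ 0 := by
          rw [ae_iff]; simp
        filter_upwards [this] with y hy
        exact sym_fibre hc hk hsym hgcont hg0 hgs hg1 hy
    _ = 3 * volume B * volume K := by
        rw [setLIntegral_const]; ring

end Vale.Agent.Lib.P243
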