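import Vale.Agent.Lib.P243.TetMain

/-! A tetrahedron without thin neighbourhoods of its edges. -/

namespace Vale.Agent.Lib.P243

open Set MeasureTheory
open scoped ENNReal

/-- The points of the tetrahedron with at most one barycentric coordinate below `1 / 32`. -/
def tetS (b : AffineBasis (Fin 4) ℝ V3) : Set V3 :=
  {x | (∀ k, 0 ≤ b.coord k x) ∧ ∃ k, ∀ j, j ≠ k → 1 / 32 ≤ b.coord j x}

end Vale.Agent.Lib.P243
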