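import Vale.Agent.Lib.P243.Tet2Piece

/-! Coverings of a tetrahedron by cylinders with arbitrary axes. -/

namespace Vale.Agent.Lib.P243

open Set MeasureTheory Module Topology
open scoped ENNReal

theorem tetS_subset (b : AffineBasis (Fin 4) ℝ V3) : tetS b ⊆ tetT b := fun _ hx => hx.1

theorem lintegral_tetW2 (b : AffineBasis (Fin 4) ℝ V3) : ∫⁻ x, tetW2 b x = volume (tetS b) := by
  have e : tetW2 b = (tetS b).indicator 1 := rfl
  rw [e, lintegral_indicator_one (measurableSet_tetS b)]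

theorem tet2_mass_le_sum (b : AffineBasis (Fin 4) ℝ V3) (n : ℕ) (u : Fin n → V3)
    (B : Fin n → Set V3)
    (hcov : ∀ x ∈ tetT b, ∃ j, ∃ c ∈ B j, ∃ t : ℝ, x = c + t • u j) :
    ∫⁻ x, tetW2 b x ≤ ∑ j, ∫⁻ x in {x | ∃ c ∈ B j, ∃ t : ℝ, x = c + t • u j}, tetW2 b x := by
  have h0 : ∫⁻ x, tetW2 b x = ∫⁻ x in tetT b, tetW2 b x := by
    rw [← lintegral_indicator (measurableSet_tetT b)]
    refine lintegral_congr fun x => ?_
    by_cases hx : x ∈ tetT b
    · rw [indicator_of_mem hx]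
    · rw [indicator_of_notMem hx, tetW2, indicator_of_notMem fun h => hx (tetS_subset b h)]
  have hsub : tetT b ⊆ ⋃ j, {x | ∃ c ∈ B j, ∃ t : ℝ, x = c + t • u j} := by
    intro x hx
    obtain ⟨j, hj⟩ := hcov x hx
    exact mem_iUnion.mpr ⟨j, hj⟩
  rw [h0]
  refine le_trans (lintegral_mono_set hsub) (le_trans (lintegral_iUnion_le _ _) ?_)
  rw [tsum_fintype]

/-- Absolute form, arbitrary axes. -/
theorem tet2_cover_abs (b : AffineBasis (Fin 4) ℝ V3) (n : ℕ) (u : Fin n → V3)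
    (hu : ∀ j, ‖u j‖ = 1)
    (B : Fin n → Set V3) (hB : ∀ j, ∀ c ∈ B j, inner ℝ (u j) c = 0)
    (hcov : ∀ x ∈ tetT b, ∃ j, ∃ c ∈ B j, ∃ t : ℝ, x = c + t • u j) (Amin : ℝ≥0∞)
    (hAj : ∀ j, Amin ≤ μHE[2] ((fun x : V3 => x - (inner ℝ (u j) x : ℝ) • u j) '' tetT b)) :
    ENNReal.ofReal (1585 / 4608) * Amin ≤ ∑ j, μHE[2] (B j) := by
  have hV := tetT_volume_ne_zero b
  have hVtop : volume (tetT b) ≠ ⊤ := (tetT_compact b).measure_lt_top.ne
  have h2 : (31700 * Amin) * volume (tetT b)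
      ≤ (92160 * ∑ j, μHE[2] (B j)) * volume (tetT b) := by
    calc (31700 * Amin) * volume (tetT b) = (31700 * volume (tetT b)) * Amin := by ring
      _ ≤ (32768 * ∑ j, ∫⁻ x in {x | ∃ c ∈ B j, ∃ t : ℝ, x = c + t • u j}, tetW2 b x) * Amin :=
          mul_le_mul_left (le_trans (tetS_mass b)
            (mul_le_mul_right (by
              rw [← lintegral_tetW2]; exact tet2_mass_le_sum b n u B hcov) _)) _
      _ = 32768 * ∑ j, (∫⁻ x in {x | ∃ c ∈ B j, ∃ t : ℝ, x = c + t • u j}, tetW2 b x) * Amin := by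
          rw [mul_assoc, Finset.sum_mul]
      _ ≤ 32768 * ∑ j, ENNReal.ofReal (15 / 16) * (3 * μHE[2] (B j) * volume (tetT b)) :=
          mul_le_mul_right (Finset.sum_le_sum fun j _ => le_trans (mul_le_mul_right (hAj j) _)
            (tet2_piece b (u j) (hu j) (B j) (hB j))) _
      _ = (92160 * ∑ j, μHE[2] (B j)) * volume (tetT b) := by
          rw [Finset.mul_sum, Finset.mul_sum, Finset.sum_mul]
          refine Finset.sum_congr rfl fun j _ => ?_
          have e : (92160 : ℝ≥0∞) = 32768 * ENNReal.ofReal (15 / 16) * 3 := by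
            rw [show (32768 : ℝ≥0∞) = ENNReal.ofReal 32768 by simp,
              show (3 : ℝ≥0∞) = ENNReal.ofReal 3 by simp,
              show (92160 : ℝ≥0∞) = ENNReal.ofReal 92160 by simp,
              ← ENNReal.ofReal_mul (by norm_num), ← ENNReal.ofReal_mul (by norm_num)]
            norm_num
          rw [e]
          ring
  have h3 : 31700 * Amin ≤ 92160 * ∑ j, μHE[2] (B j) :=
    (ENNReal.mul_le_mul_iff_left hV hVtop).mp h2
  have e : ENNReal.ofReal (1585 / 4608) = 92160⁻¹ * 31700 := by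
    rw [show (31700 : ℝ≥0∞) = ENNReal.ofReal 31700 by simp,
      show (92160 : ℝ≥0∞) = ENNReal.ofReal 92160 by simp,
      ← ENNReal.ofReal_inv_of_pos (by norm_num), ← ENNReal.ofReal_mul (by norm_num)]
    norm_num
  calc ENNReal.ofReal (1585 / 4608) * Amin = 92160⁻¹ * (31700 * Amin) := by rw [e, mul_assoc]
    _ ≤ 92160⁻¹ * (92160 * ∑ j, μHE[2] (B j)) := mul_le_mul_right h3 _
    _ = ∑ j, μHE[2] (B j) := by
        rw [← mul_assoc, ENNReal.inv_mul_cancel (by simp) (by simp), one_mul]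

/-- Coverings of a tetrahedron by cylinders with arbitrary axes: the directionwise relative
area is at least `1585 / 4608 > 1 / 3`. -/
theorem tet2_cover (b : AffineBasis (Fin 4) ℝ V3) (n : ℕ) (u : Fin n → V3)
    (hu : ∀ j, ‖u j‖ = 1)
    (B : Fin n → Set V3) (hB : ∀ j, ∀ c ∈ B j, inner ℝ (u j) c = 0)
    (hfin : ∀ j, μHE[2] (B j) ≠ ⊤)
    (hcov : ∀ x ∈ tetT b, ∃ j, ∃ c ∈ B j, ∃ t : ℝ, x = c + t • u j) :
    1585 / 4608 ≤ ∑ j, (μHE[2] (B j)).toReal / (μHE[2] ((fun x : V3 =>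
      x - (inner ℝ (u j) x : ℝ) • u j) '' tetT b)).toReal := by
  have hV := tetT_volume_ne_zero b
  have hVtop : volume (tetT b) ≠ ⊤ := (tetT_compact b).measure_lt_top.ne
  have hA0 := fun j => shadow_ne_zero (tetT b) (tetT_convex b) (tetT_compact b) hV (u j) (hu j)
  have hAtop := fun j => shadow_ne_top (tetT b) (tetT_compact b) (u j) (hu j)
  set r : Fin n → ℝ := fun j => (μHE[2] (B j)).toReal / (μHE[2] ((fun x : V3 =>
      x - (inner ℝ (u j) x : ℝ) • u j) '' tetT b)).toReal with hr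
  have hr0 : ∀ j, 0 ≤ r j := by intro j; rw [hr]; positivity
  have hpiece : ∀ j, ∫⁻ x in {x | ∃ c ∈ B j, ∃ t : ℝ, x = c + t • u j}, tetW2 b x
      ≤ ENNReal.ofReal (15 / 16 * (3 * r j)) * volume (tetT b) := by
    intro j
    have h := tet2_piece b (u j) (hu j) (B j) (hB j)
    have e : ENNReal.ofReal (3 * r j) = 3 * μHE[2] (B j) / μHE[2] ((fun x : V3 =>
        x - (inner ℝ (u j) x : ℝ) • u j) '' tetT b) := by
      rw [ENNReal.ofReal_mul (by norm_num), hr]
      simp only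
      rw [ENNReal.ofReal_div_of_pos (ENNReal.toReal_pos (hA0 _) (hAtop _)),
        ENNReal.ofReal_toReal (hfin j), ENNReal.ofReal_toReal (hAtop _), mul_div_assoc]
      simp
    rw [ENNReal.ofReal_mul (by norm_num), e, ENNReal.div_eq_inv_mul, mul_assoc, mul_assoc,
      mul_left_comm, ← ENNReal.div_eq_inv_mul]
    exact (ENNReal.le_div_iff_mul_le (Or.inl (hA0 j)) (Or.inl (hAtop j))).mpr h
  have h2 : ENNReal.ofReal 31700 * volume (tetT b)
      ≤ ENNReal.ofReal (32768 * ∑ j, 15 / 16 * (3 * r j)) * volume (tetT b) := by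
    rw [ENNReal.ofReal_mul (by norm_num),
      ENNReal.ofReal_sum_of_nonneg fun j _ =>
        mul_nonneg (by norm_num) (mul_nonneg (by norm_num) (hr0 j)), mul_assoc,
      Finset.sum_mul]
    simp only [ENNReal.ofReal_ofNat]
    refine le_trans (tetS_mass b) (mul_le_mul_right ?_ _)
    rw [← lintegral_tetW2]
    exact le_trans (tet2_mass_le_sum b n u B hcov) (Finset.sum_le_sum fun j _ => hpiece j)
  have h3 : ENNReal.ofReal 31700 ≤ ENNReal.ofReal (32768 * ∑ j, 15 / 16 * (3 * r j)) :=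
    (ENNReal.mul_le_mul_iff_left hV hVtop).mp h2
  have h4 : (31700 : ℝ) ≤ 32768 * ∑ j, 15 / 16 * (3 * r j) := by
    refine (ENNReal.ofReal_le_ofReal_iff ?_).mp h3
    exact mul_nonneg (by norm_num)
      (Finset.sum_nonneg fun j _ => mul_nonneg (by norm_num) (mul_nonneg (by norm_num) (hr0 j)))
  rw [← Finset.mul_sum, ← Finset.mul_sum] at h4
  linarith

end Vale.Agent.Lib.P243
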