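import Vale.Agent.Lib.P243.TetAllDefs

/-! UNIT M2.  Volume of `tetCore`. -/

namespace Vale.Agent.Lib.P243

open Set MeasureTheory
open scoped ENNReal

/-- UNIT M2.  Let `c = Finset.univ.affineCombination ℝ b (fun _ => 1 / 4)` (`coord j c = 1/4`).
If `x ∈ tetCore b τ` then `y = homothety c (1 - 4 τ)⁻¹ x` has coordinates
`(coord j x - τ) / (1 - 4 τ) ≥ 0` (`coord_homothety20`) and `homothety c (1 - 4 τ) y = x`
(`AffineMap.homothety_mul_apply`), so `tetCore b τ ⊆ homothety c (1 - 4 τ) '' tetT b`, of volume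
`(1 - 4 τ)^3 vol T` (`Measure.addHaar_image_homothety`, see `tet_mass`, `tetT_subset17`). -/
theorem volume_tetCore_le (b : AffineBasis (Fin 4) ℝ V3) (τ : ℝ) (h0 : 0 ≤ τ) (h1 : τ < 1 / 4) :
    volume (tetCore b τ) ≤ ENNReal.ofReal ((1 - 4 * τ) ^ 3) * volume (tetT b) := by
  set w : Fin 4 → ℝ := fun _ => 1 / 4 with hw
  have hsum : ∑ j : Fin 4, w j = 1 := by
    rw [hw]
    simp
  set c : V3 := Finset.univ.affineCombination ℝ b w with hcdef
  have hcoord : ∀ j, b.coord j c = 1 / 4 := fun j =>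
    AffineBasis.coord_apply_combination_of_mem b (Finset.mem_univ j) hsum
  have hr : (0 : ℝ) < 1 - 4 * τ := by linarith
  have himg : volume (AffineMap.homothety c (1 - 4 * τ : ℝ) '' tetT b) =
      ENNReal.ofReal ((1 - 4 * τ) ^ 3) * volume (tetT b) := by
    rw [Measure.addHaar_image_homothety]
    congr 2
    simp [abs_of_nonneg hr.le]
  rw [← himg]
  refine measure_mono ?_
  intro x hx
  refine ⟨AffineMap.homothety c ((1 - 4 * τ)⁻¹ : ℝ) x, fun j => ?_, ?_⟩
  · rw [coord_homothety20, hcoord]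
    have hxj : τ ≤ b.coord j x := hx j
    have e : (1 - 4 * τ)⁻¹ * (b.coord j x - 1 / 4) + 1 / 4 = (b.coord j x - τ) / (1 - 4 * τ) := by
      field_simp
      ring
    rw [e]
    exact div_nonneg (by linarith) hr.le
  · rw [← AffineMap.homothety_mul_apply, mul_inv_cancel₀ hr.ne']
    simp

end Vale.Agent.Lib.P243
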