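import Vale.Agent.Lib.P243.TetAllDefs

/-! UNIT M3.  Inclusion-exclusion. -/

namespace Vale.Agent.Lib.P243

open Set MeasureTheory
open scoped ENNReal

theorem measurableSet_tetCore13 (b : AffineBasis (Fin 4) ℝ V3) (τ : ℝ) :
    MeasurableSet (tetCore b τ) := by
  have h : tetCore b τ = ⋂ j, {x : V3 | τ ≤ b.coord j x} := by
    ext x; simp [tetCore]
  rw [h]
  exact (isClosed_iInter fun k => isClosed_le continuous_const (continuous_coord17 b k)).measurableSet

theorem measurableSet_tetSig13 (b : AffineBasis (Fin 4) ℝ V3) (τ : ℝ) (k : Fin 4) :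
    MeasurableSet (tetSig b τ k) := by
  have h : tetSig b τ k = tetT b ∩ ⋂ j, ⋂ (_ : j ≠ k), {x : V3 | τ ≤ b.coord j x} := by
    ext x; simp [tetSig]
  rw [h]
  exact (measurableSet_tetT b).inter (isClosed_iInter fun j => isClosed_iInter fun _ =>
    isClosed_le continuous_const (continuous_coord17 b j)).measurableSet

/-- UNIT M3.  All sets are closed, hence measurable (`continuous_coord17`).  For `0 ≤ τ`:
`tetCore ⊆ tetSig k ⊆ tetTrunc`, and `tetSig k ∩ tetSig l ⊆ tetCore` for `k ≠ l`.  So the sets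
`tetSig k \ tetCore` are pairwise disjoint, disjoint from `tetCore`, and contained in `tetTrunc`:
`∑ k, vol (tetSig k) = ∑ k, (vol (tetSig k \ tetCore) + vol tetCore)
  = vol (⋃ k, tetSig k \ tetCore) + 4 vol tetCore ≤ vol tetTrunc + 3 vol tetCore`
(`measure_diff_add_inter` or `measure_inter_add_diff`, `measure_iUnion`/`measure_biUnion_finset`,
`measure_union`). -/
theorem sum_volume_tetSig_le (b : AffineBasis (Fin 4) ℝ V3) (τ : ℝ) (h0 : 0 ≤ τ) :
    ∑ k, volume (tetSig b τ k) ≤ volume (tetTrunc b τ) + 3 * volume (tetCore b τ) := by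
  have hC := measurableSet_tetCore13 b τ
  have hS := measurableSet_tetSig13 b τ
  have h1 : ∀ k, volume (tetSig b τ k) ≤
      volume (tetCore b τ) + volume (tetSig b τ k \ tetCore b τ) := by
    intro k
    rw [← measure_inter_add_sdiff (tetSig b τ k) hC]
    gcongr
    exact inter_subset_right
  have hdisj : Pairwise (Function.onFun Disjoint fun k => tetSig b τ k \ tetCore b τ) := by
    intro k l hkl
    rw [Function.onFun, Set.disjoint_left]
    rintro x ⟨hxk, hxc⟩ ⟨hxl, _⟩
    apply hxc
    intro j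
    by_cases hj : j = k
    · subst hj
      exact hxl.2 j hkl
    · exact hxk.2 j hj
  have h2 : ∑ k, volume (tetSig b τ k \ tetCore b τ) =
      volume (⋃ k, tetSig b τ k \ tetCore b τ) := by
    rw [measure_iUnion hdisj fun k => (hS k).diff hC, tsum_fintype]
  have h3 : volume (⋃ k, tetSig b τ k \ tetCore b τ) + volume (tetCore b τ) ≤
      volume (tetTrunc b τ) := by
    rw [← measure_union _ hC]
    · apply measure_mono
      rintro x (hx | hx)
      · obtain ⟨k, hk⟩ := mem_iUnion.mp hx
        exact ⟨hk.1.1, k, hk.1.2⟩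
      · exact ⟨fun j => h0.trans (hx j), 0, fun j _ => hx j⟩
    · rw [Set.disjoint_left]
      intro x hx hc
      obtain ⟨k, hk⟩ := mem_iUnion.mp hx
      exact hk.2 hc
  calc ∑ k, volume (tetSig b τ k)
      ≤ ∑ k : Fin 4, (volume (tetCore b τ) + volume (tetSig b τ k \ tetCore b τ)) :=
        Finset.sum_le_sum fun k _ => h1 k
    _ = 4 * volume (tetCore b τ) + volume (⋃ k, tetSig b τ k \ tetCore b τ) := by
        rw [Finset.sum_add_distrib, h2]
        simp
    _ = (volume (⋃ k, tetSig b τ k \ tetCore b τ) + volume (tetCore b τ)) +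
        3 * volume (tetCore b τ) := by ring
    _ ≤ volume (tetTrunc b τ) + 3 * volume (tetCore b τ) := by gcongr

end Vale.Agent.Lib.P243
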