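import Vale.Agent.Lib.P243.TetAllM1
import Vale.Agent.Lib.P243.TetAllM2
import Vale.Agent.Lib.P243.TetAllM3

/-! UNIT M4.  The mass of the truncated tetrahedron. -/

namespace Vale.Agent.Lib.P243

open Set MeasureTheory
open scoped ENNReal

/-- UNIT M4.  From M1, M2, M3 with `τ = 1/32`:
`4 (29/32)^3 V ≤ vol W + 3 (28/32)^3 V`, and `4 * 29^3 - 3 * 28^3 = 31700`.  Lift everything to
`NNReal` as at the end of `tet_mass` (`volume_tetT_ne_top17`; `tetTrunc ⊆ tetT`). -/
theorem trunc_mass (b : AffineBasis (Fin 4) ℝ V3) :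
    ENNReal.ofReal (31700 / 32768) * volume (tetT b) ≤ volume (tetTrunc b (1 / 32)) := by
  have m1 := volume_tetSig_ge b (1 / 32) (by norm_num) (by norm_num)
  have m2 := volume_tetCore_le b (1 / 32) (by norm_num) (by norm_num)
  have m3 := sum_volume_tetSig_le b (1 / 32) (by norm_num)
  have h4 : 4 * (ENNReal.ofReal ((1 - 3 * (1 / 32)) ^ 3) * volume (tetT b)) ≤
      ∑ k, volume (tetSig b (1 / 32) k) := by
    calc 4 * (ENNReal.ofReal ((1 - 3 * (1 / 32)) ^ 3) * volume (tetT b))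
        = ∑ _k : Fin 4, (ENNReal.ofReal ((1 - 3 * (1 / 32)) ^ 3) * volume (tetT b)) := by simp
      _ ≤ _ := Finset.sum_le_sum fun k _ => m1 k
  have h5 : 4 * (ENNReal.ofReal ((1 - 3 * (1 / 32)) ^ 3) * volume (tetT b)) ≤
      volume (tetTrunc b (1 / 32)) +
        3 * (ENNReal.ofReal ((1 - 4 * (1 / 32)) ^ 3) * volume (tetT b)) := by
    refine h4.trans (m3.trans ?_)
    gcongr
  have hV := volume_tetT_ne_top17 b
  have hW : volume (tetTrunc b (1 / 32)) ≠ ∞ := by
    refine ne_top_of_le_ne_top hV (measure_mono ?_)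
    intro x hx
    exact hx.1
  lift volume (tetT b) to NNReal using hV with V
  lift volume (tetTrunc b (1 / 32)) to NNReal using hW with W
  have e1 : ENNReal.ofReal ((1 - 3 * (1 / 32)) ^ 3) = ((24389 / 32768 : NNReal) : ℝ≥0∞) := by
    rw [ENNReal.ofReal]
    congr 1
    ext
    simp
    norm_num
  have e2 : ENNReal.ofReal ((1 - 4 * (1 / 32)) ^ 3) = ((21952 / 32768 : NNReal) : ℝ≥0∞) := by
    rw [ENNReal.ofReal]
    congr 1
    ext
    simp
    norm_num
  have e3 : ENNReal.ofReal (31700 / 32768) = ((31700 / 32768 : NNReal) : ℝ≥0∞) := by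
    rw [ENNReal.ofReal]
    congr 1
    ext
    simp
    norm_num
  rw [e1, e2] at h5
  rw [e3]
  norm_cast at h5 ⊢
  rw [← NNReal.coe_le_coe] at h5 ⊢
  push_cast at h5 ⊢
  linarith

end Vale.Agent.Lib.P243
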