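import Vale.Agent.Lib.P243.Tet2Xray
import Vale.Agent.Lib.P243.TetAllMass

/-! The volume of `tetS`. -/

namespace Vale.Agent.Lib.P243

open Set MeasureTheory
open scoped ENNReal

theorem measurableSet_tetS (b : AffineBasis (Fin 4) ℝ V3) : MeasurableSet (tetS b) :=
  measurableSet_tetTrunc b (1 / 32)

theorem tetS_mass (b : AffineBasis (Fin 4) ℝ V3) :
    31700 * volume (tetT b) ≤ 32768 * volume (tetS b) := by
  have h := trunc_mass b
  have e : (31700 : ℝ≥0∞) = 32768 * ENNReal.ofReal (31700 / 32768) := by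
    rw [show (32768 : ℝ≥0∞) = ENNReal.ofReal 32768 by simp,
      show (31700 : ℝ≥0∞) = ENNReal.ofReal 31700 by simp,
      ← ENNReal.ofReal_mul (by norm_num)]
    norm_num
  rw [e, mul_assoc]
  exact mul_le_mul_right h _

end Vale.Agent.Lib.P243
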