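import Vale.Agent.Lib.P243.TetAllDefs

/-! UNIT C.  The longest chord of the tetrahedron in a given direction. -/

namespace Vale.Agent.Lib.P243

open Set MeasureTheory
open scoped ENNReal

/-- UNIT C.  Put `a k = (b.coord k).linear u`.  Then `∑ a = 0` (apply `coord_line20` and
`b.sum_coord_apply_eq_one` at `x` and `x + u`), `a ≠ 0` (otherwise `x + u` and `x` have the same
coordinates, so `u = 0`: `b.ext_elem` or `AffineBasis.affineCombination_coord_eq_self`), hence
`σ = ∑ max (a k) 0 > 0` and `∑ max (- a k) 0 = σ`.  Take `l = 1 / σ` and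
`p = Finset.univ.affineCombination ℝ b (fun k => max (- a k) 0 / σ)`
(`AffineBasis.coord_apply_combination_of_mem`): `coord k p = max (- a k) 0 / σ ≥ 0` and
`coord k (p + l u) = (max (- a k) 0 + a k) / σ = max (a k) 0 / σ ≥ 0`. -/
theorem exists_chord (b : AffineBasis (Fin 4) ℝ V3) (u : V3) (hu : u ≠ 0) :
    ∃ p ∈ tetT b, ∃ l : ℝ, 0 < l ∧ p + l • u ∈ tetT b ∧
      l * ∑ k, max ((b.coord k).linear u) 0 = 1 := by
  set a : Fin 4 → ℝ := fun k => (b.coord k).linear u with ha
  have hline : ∀ k, b.coord k (b 0 + u) = b.coord k (b 0) + a k := by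
    intro k
    have := coord_line20 b k (b 0) u 1
    rwa [one_smul, one_mul] at this
  have hsum : ∑ k, a k = 0 := by
    have h1 := b.sum_coord_apply_eq_one (b 0 + u)
    have h2 := b.sum_coord_apply_eq_one (b 0)
    simp only [hline] at h1
    rw [Finset.sum_add_distrib, h2] at h1
    linarith
  have hne : ∃ k, a k ≠ 0 := by
    by_contra hcon
    push Not at hcon
    apply hu
    have : b 0 + u = b 0 := by
      apply b.ext_elem
      intro k
      rw [hline, hcon k, add_zero]
    simpa using this
  have hpos : ∃ k, 0 < a k := by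
    by_contra hcon
    push Not at hcon
    obtain ⟨k, hk⟩ := hne
    have h0 : ∀ j ∈ Finset.univ, a j = 0 := by
      have := (Finset.sum_eq_zero_iff_of_nonpos (fun j _ => hcon j)).1 hsum
      exact this
    exact hk (h0 k (Finset.mem_univ k))
  set σ : ℝ := ∑ k, max (a k) 0 with hσ
  have hσpos : 0 < σ := by
    obtain ⟨k, hk⟩ := hpos
    apply Finset.sum_pos' (fun j _ => le_max_right _ _)
    exact ⟨k, Finset.mem_univ k, lt_of_lt_of_le hk (le_max_left _ _)⟩
  have hid : ∀ k, max (-a k) 0 + a k = max (a k) 0 := by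
    intro k
    rcases le_total 0 (a k) with h | h
    · rw [max_eq_right (by linarith), max_eq_left h]; ring
    · rw [max_eq_left (by linarith), max_eq_right h]; ring
  have hσ' : ∑ k, max (-a k) 0 = σ := by
    have : ∑ k, (max (-a k) 0 + a k) = σ := by
      simp only [hid]
      rfl
    rw [Finset.sum_add_distrib, hsum, add_zero] at this
    exact this
  set w : Fin 4 → ℝ := fun k => max (-a k) 0 / σ with hw
  have hwsum : ∑ k, w k = 1 := by
    simp only [hw]
    rw [← Finset.sum_div, hσ', div_self hσpos.ne']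
  set p : V3 := Finset.univ.affineCombination ℝ b w with hp
  have hcp : ∀ k, b.coord k p = w k := fun k =>
    b.coord_apply_combination_of_mem (Finset.mem_univ k) hwsum
  refine ⟨p, ?_, 1 / σ, by positivity, ?_, ?_⟩
  · intro k
    rw [hcp]
    exact div_nonneg (le_max_right _ _) hσpos.le
  · intro k
    rw [coord_line20, hcp]
    have : w k + 1 / σ * (b.coord k).linear u = max (a k) 0 / σ := by
      rw [← hid k]
      simp only [hw, ha]
      ring
    rw [this]
    exact div_nonneg (le_max_right _ _) hσpos.le
  · rw [one_div, inv_mul_cancel₀ hσpos.ne']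

end Vale.Agent.Lib.P243
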