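import Vale.Agent.Lib.P243.TetAllX

/-! UNIT R.  The x-ray of the truncated tetrahedron. -/

namespace Vale.Agent.Lib.P243

open Set MeasureTheory
open scoped ENNReal

theorem measurableSet_tetTrunc (b : AffineBasis (Fin 4) ℝ V3) (τ : ℝ) :
    MeasurableSet (tetTrunc b τ) := by
  have hc : ∀ j, Continuous (b.coord j) := fun j => (b.coord j).continuous_of_finiteDimensional
  have h : tetTrunc b τ = tetT b ∩ ⋃ k : Fin 4, ⋂ j : Fin 4, {x | j ≠ k → τ ≤ b.coord j x} := by
    ext x
    simp [tetTrunc]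
  rw [h]
  refine (measurableSet_tetT b).inter
    (MeasurableSet.iUnion fun k => MeasurableSet.iInter fun j => ?_)
  by_cases hjk : j = k
  · simp [hjk]
  · simp only [ne_eq, hjk, not_false_eq_true, forall_const]
    exact (isClosed_le continuous_const (hc j)).measurableSet

/-- UNIT R.  `A = {t | x0 + t u ∈ tetTrunc b τ}` is measurable and the integral is `volume A`
(`lintegral_indicator_one` after rewriting the integrand as `A.indicator 1 t`).
`volume A ≤ EMetric.diam A` (`Real.volume_le_diam`) and `EMetric.diam A ≤ ofReal ((1 - 2 τ) l)`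
(`EMetric.diam_le`, `edist_dist`, `Real.dist_eq`): for `s ≤ t` in `A`, `trunc_chord` with
`x = x0 + s u`, `y = x0 + t u` and `coord_line20` give
`(t - s) * ∑ max (a k) 0 = ∑ max ((t - s) a k) 0 ≤ 1 - 2 τ`, and `l * ∑ max (a k) 0 = 1`. -/
theorem trunc_xray (b : AffineBasis (Fin 4) ℝ V3) (τ : ℝ) (hτ : 0 ≤ τ) (u : V3) (l : ℝ)
    (hl : 0 < l) (hσ : l * ∑ k, max ((b.coord k).linear u) 0 = 1) (x0 : V3) :
    ∫⁻ t : ℝ, (tetTrunc b τ).indicator (1 : V3 → ℝ≥0∞) (x0 + t • u)
      ≤ ENNReal.ofReal ((1 - 2 * τ) * l) := by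
  set A : Set ℝ := {t | x0 + t • u ∈ tetTrunc b τ} with hA
  have hcont : Continuous (fun t : ℝ => x0 + t • u) := by fun_prop
  have hAm : MeasurableSet A := hcont.measurable (measurableSet_tetTrunc b τ)
  have hint : ∀ t : ℝ, (tetTrunc b τ).indicator (1 : V3 → ℝ≥0∞) (x0 + t • u) =
      A.indicator (1 : ℝ → ℝ≥0∞) t := by
    intro t
    by_cases ht : t ∈ A
    · have ht' : x0 + t • u ∈ tetTrunc b τ := ht
      simp [ht, ht']
    · have ht' : x0 + t • u ∉ tetTrunc b τ := ht
      simp [ht, ht']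
  simp_rw [hint]
  rw [lintegral_indicator_one hAm]
  refine (Real.volume_le_diam A).trans ?_
  -- the key one-sided estimate
  have key : ∀ s ∈ A, ∀ t ∈ A, s ≤ t → t - s ≤ (1 - 2 * τ) * l := by
    intro s hs t ht hst
    have h := trunc_chord b τ hτ (x0 + s • u) (x0 + t • u) hs ht
    have e : ∀ k, max (b.coord k (x0 + t • u) - b.coord k (x0 + s • u)) 0 =
        (t - s) * max ((b.coord k).linear u) 0 := by
      intro k
      rw [coord_line20, coord_line20, mul_max_of_nonneg _ _ (sub_nonneg.2 hst), mul_zero]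
      congr 1
      ring
    simp_rw [e] at h
    rw [← Finset.mul_sum] at h
    calc t - s = l * ((t - s) * ∑ k, max ((b.coord k).linear u) 0) := by
          rw [mul_left_comm, hσ, mul_one]
      _ ≤ l * (1 - 2 * τ) := mul_le_mul_of_nonneg_left h hl.le
      _ = (1 - 2 * τ) * l := mul_comm _ _
  refine Metric.ediam_le fun s hs t ht => ?_
  rw [edist_dist, Real.dist_eq]
  refine ENNReal.ofReal_le_ofReal ?_
  rcases le_total s t with hst | hst
  · rw [abs_sub_comm, abs_of_nonneg (sub_nonneg.2 hst)]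
    exact key s hs t ht hst
  · rw [abs_of_nonneg (sub_nonneg.2 hst)]
    exact key t ht s hs hst

end Vale.Agent.Lib.P243
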