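import Vale.Agent.Lib.P243.Tet2Defs
import Vale.Agent.Lib.P243.TetAllChord
import Vale.Agent.Lib.P243.TetAllXray

/-! Every line meets `tetS` in a set of length at most `15 / 16` of a parallel chord of the
tetrahedron. -/

namespace Vale.Agent.Lib.P243

open Set MeasureTheory
open scoped ENNReal

theorem tetS_eq (b : AffineBasis (Fin 4) ℝ V3) : tetS b = tetTrunc b (1 / 32) := rfl

theorem tetS_xray (b : AffineBasis (Fin 4) ℝ V3) (u : V3) (hu : u ≠ 0) :
    ∃ l : ℝ, 0 < l ∧ (∃ p ∈ tetT b, p + l • u ∈ tetT b) ∧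
      ∀ x0 : V3, volume {t : ℝ | x0 + t • u ∈ tetS b} ≤ ENNReal.ofReal (15 / 16 * l) := by
  obtain ⟨p, hp, l, hl, hq, hσ⟩ := exists_chord b u hu
  refine ⟨l, hl, ⟨p, hp, hq⟩, fun x0 => ?_⟩
  have h := trunc_xray b (1 / 32) (by norm_num) u l hl hσ x0
  have hm : MeasurableSet {t : ℝ | x0 + t • u ∈ tetS b} := by
    have hc : Continuous fun t : ℝ => x0 + t • u := by fun_prop
    exact hc.measurable (measurableSet_tetTrunc b (1 / 32))
  have e : (fun z : ℝ => (tetTrunc b (1 / 32)).indicator (1 : V3 → ℝ≥0∞) (x0 + z • u))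
      = ({t : ℝ | x0 + t • u ∈ tetS b}).indicator 1 := by
    funext z
    by_cases hz : x0 + z • u ∈ tetTrunc b (1 / 32)
    · have hz' : z ∈ {t : ℝ | x0 + t • u ∈ tetS b} := hz
      rw [indicator_of_mem hz, indicator_of_mem hz']
      rfl
    · have hz' : z ∉ {t : ℝ | x0 + t • u ∈ tetS b} := hz
      rw [indicator_of_notMem hz, indicator_of_notMem hz']
  rw [e, lintegral_indicator_one hm] at h
  refine h.trans (le_of_eq ?_)
  norm_num

end Vale.Agent.Lib.P243
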