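import Vale.Agent.Lib.P243.Tet3Defs

/-! UNIT C3.  The volume of a corner. -/

namespace Vale.Agent.Lib.P243

open Set MeasureTheory
open scoped ENNReal

/-- UNIT C3.  `tetCorner b κ i ⊆ homothety (b i) κ '' tetT b`: for `x` in the corner,
`y = homothety (b i) κ⁻¹ x` has coordinates `lam_m / κ ≥ 0` (`m ≠ i`) and
`(lam_i - (1 - κ)) / κ ≥ 0` (`coord_homothety20` or `coord_homothety17`), and
`homothety (b i) κ y = x`.  The image has volume `κ ^ 3 vol T`
(`Measure.addHaar_image_homothety`, `finrank = 3`; see `volume_tetCore_le` in `TetAllM2.lean`). -/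
theorem volume_tetCorner_le (b : AffineBasis (Fin 4) ℝ V3) (κ : ℝ) (h0 : 0 < κ) (i : Fin 4) :
    volume (tetCorner b κ i) ≤ ENNReal.ofReal (κ ^ 3) * volume (tetT b) := by
  have himg : volume (AffineMap.homothety (b i) (κ : ℝ) '' tetT b) =
      ENNReal.ofReal (κ ^ 3) * volume (tetT b) := by
    rw [Measure.addHaar_image_homothety]
    congr 2
    simp [abs_of_nonneg h0.le]
  rw [← himg]
  refine measure_mono ?_
  intro x hx
  obtain ⟨hxT, hxi⟩ := hx
  refine ⟨AffineMap.homothety (b i) (κ⁻¹ : ℝ) x, fun j => ?_, ?_⟩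
  · rw [coord_homothety20]
    by_cases hji : j = i
    · subst hji
      rw [AffineBasis.coord_apply_eq]
      have e : κ⁻¹ * (b.coord j x - 1) + 1 = (b.coord j x - (1 - κ)) / κ := by
        field_simp
        ring
      rw [e]
      exact div_nonneg (by linarith) h0.le
    · rw [AffineBasis.coord_apply_ne b hji]
      have hxj : 0 ≤ b.coord j x := hxT j
      have e : κ⁻¹ * (b.coord j x - 0) + 0 = b.coord j x / κ := by
        field_simp
        ring
      rw [e]
      exact div_nonneg hxj h0.le
  · rw [← AffineMap.homothety_mul_apply, mul_inv_cancel₀ h0.ne']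
    simp

end Vale.Agent.Lib.P243
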