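import Vale.Agent.Lib.P243.Tet2Main

/-! A better dual weight for all directions: the tetrahedron without the six edge neighbourhoods
`lam_i + lam_j < 1/20` and the four corners `lam_i > 9/10`. -/

namespace Vale.Agent.Lib.P243

open Set MeasureTheory
open scoped ENNReal

/-- Points of the tetrahedron with all pair sums of barycentric coordinates at least `1 / 20` and
all coordinates at most `9 / 10`. -/
def tetS3 (b : AffineBasis (Fin 4) ℝ V3) : Set V3 :=
  {x | x ∈ tetT b ∧ (∀ i j : Fin 4, i ≠ j → 1 / 20 ≤ b.coord i x + b.coord j x) ∧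
    ∀ i, b.coord i x ≤ 9 / 10}

/-- Neighbourhood of the edge opposite to `b i, b j`. -/
def tetEdge (b : AffineBasis (Fin 4) ℝ V3) (τ : ℝ) (i j : Fin 4) : Set V3 :=
  {x | x ∈ tetT b ∧ b.coord i x + b.coord j x < τ}

/-- Corner at the vertex `b i`. -/
def tetCorner (b : AffineBasis (Fin 4) ℝ V3) (κ : ℝ) (i : Fin 4) : Set V3 :=
  {x | x ∈ tetT b ∧ 1 - κ < b.coord i x}

end Vale.Agent.Lib.P243
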