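import Vale.Agent.Lib.P243.Tet3Defs

/-! UNIT E3.  The volume of an edge neighbourhood. -/

namespace Vale.Agent.Lib.P243

open Set MeasureTheory
open scoped ENNReal

theorem sum_four12 {M : Type*} [AddCommMonoid M] (i j k l : Fin 4) (hij : i ≠ j) (hik : i ≠ k)
    (hil : i ≠ l) (hjk : j ≠ k) (hjl : j ≠ l) (hkl : k ≠ l) (f : Fin 4 → M) :
    ∑ m, f m = f i + (f j + (f k + f l)) := by
  have hu : (Finset.univ : Finset (Fin 4)) = {i, j, k, l} := by
    symm
    apply Finset.eq_univ_of_card
    rw [Finset.card_insert_of_notMem (by simp [hij, hik, hil]),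
      Finset.card_insert_of_notMem (by simp [hjk, hjl]),
      Finset.card_insert_of_notMem (by simp [hkl]), Finset.card_singleton]
    rfl
  rw [hu, Finset.sum_insert (by simp [hij, hik, hil]), Finset.sum_insert (by simp [hjk, hjl]),
    Finset.sum_insert (by simp [hkl]), Finset.sum_singleton]

/-- UNIT E3a.  `k, l` are the two indices different from `i, j`; `u` is the unit vector along the
edge `b k, b l`; `π x = x - ⟪u, x⟫ u`.  For `x ∈ tetEdge b τ i j` put
`y = (lam_i / τ) b i + (lam_j / τ) b j + (1 - (lam_i + lam_j) / τ) b k ∈ tetT b`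
(`Finset.univ.affineCombination`, `AffineBasis.coord_apply_combination_of_mem`, or check
`b.coord` of `y` by hand).  Since `π (b l) = π (b k)` and `π` is linear,
`π x = π (b k) + τ (π y - π (b k)) = homothety (π (b k)) τ (π y)`
(write `x = ∑ lam_m b m`: `b.affineCombination_coord_eq_self` / `b.linear_combination_coord_eq_self`). -/
theorem proj_tetEdge_subset (b : AffineBasis (Fin 4) ℝ V3) (τ : ℝ) (h0 : 0 < τ)
    (i j k l : Fin 4) (hij : i ≠ j) (hik : i ≠ k) (hil : i ≠ l) (hjk : j ≠ k) (hjl : j ≠ l)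
    (hkl : k ≠ l) (u : V3) (len : ℝ) (hu : b l - b k = len • u) (hu1 : ‖u‖ = 1) :
    (fun x : V3 => x - (inner ℝ u x : ℝ) • u) '' tetEdge b τ i j ⊆
      AffineMap.homothety (b k - (inner ℝ u (b k) : ℝ) • u) τ ''
        ((fun x : V3 => x - (inner ℝ u x : ℝ) • u) '' tetT b) := by
  rintro _ ⟨x, ⟨hxT, hxτ⟩, rfl⟩
  set π : V3 → V3 := fun x : V3 => x - (inner ℝ u x : ℝ) • u with hπ
  have hadd : ∀ v w : V3, π (v + w) = π v + π w := by
    intro v w
    simp only [hπ, inner_add_right, add_smul]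
    abel
  have hsmul : ∀ (c : ℝ) (v : V3), π (c • v) = c • π v := by
    intro c v
    simp only [hπ, inner_smul_right, smul_sub, mul_smul]
  have hπu : π u = 0 := by
    simp only [hπ]
    rw [real_inner_self_eq_norm_sq, hu1]
    simp
  have hπl : π (b l) = π (b k) := by
    have : b l = b k + len • u := by rw [← hu]; abel
    rw [this, hadd, hsmul, hπu]
    simp
  set a := b.coord i x with ha
  set c := b.coord j x with hc
  have hsum1 : ∑ m, b.coord m x = 1 := b.sum_coord_apply_eq_one x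
  rw [sum_four12 i j k l hij hik hil hjk hjl hkl] at hsum1
  have hx : x = a • b i + (c • b j + (b.coord k x • b k + b.coord l x • b l)) := by
    have := b.linear_combination_coord_eq_self x
    rw [sum_four12 i j k l hij hik hil hjk hjl hkl] at this
    exact this.symm
  let w : Fin 4 → ℝ := fun m =>
    if m = i then a / τ else if m = j then c / τ else if m = k then 1 - (a + c) / τ else 0
  have wi : w i = a / τ := by simp [w]
  have wj : w j = c / τ := by simp [w, hij.symm]
  have wk : w k = 1 - (a + c) / τ := by simp [w, hik.symm, hjk.symm]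
  have wl : w l = 0 := by simp [w, hil.symm, hjl.symm, hkl.symm]
  have hw : ∑ m, w m = 1 := by
    rw [sum_four12 i j k l hij hik hil hjk hjl hkl, wi, wj, wk, wl]
    field_simp
    ring
  set y : V3 := Finset.univ.affineCombination ℝ b w with hy
  have hycoord : ∀ m, b.coord m y = w m := fun m =>
    b.coord_apply_combination_of_mem (Finset.mem_univ m) hw
  have hy2 : y = (a / τ) • b i + ((c / τ) • b j + ((1 - (a + c) / τ) • b k + (0 : ℝ) • b l)) := by
    rw [hy, Finset.affineCombination_eq_linear_combination _ _ _ hw,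
      sum_four12 i j k l hij hik hil hjk hjl hkl, wi, wj, wk, wl]
  have ha0 : 0 ≤ a := hxT i
  have hc0 : 0 ≤ c := hxT j
  have hyT : y ∈ tetT b := by
    intro m
    rw [hycoord]
    simp only [w]
    split_ifs
    · positivity
    · positivity
    · have : (a + c) / τ < 1 := by rw [div_lt_one h0]; exact hxτ
      linarith
    · exact le_refl _
  refine ⟨π y, ⟨y, hyT, rfl⟩, ?_⟩
  show AffineMap.homothety (π (b k)) τ (π y) = π x
  rw [AffineMap.homothety_apply, vsub_eq_sub, vadd_eq_add]
  have e1 : π x = a • π (b i) + (c • π (b j) + (b.coord k x • π (b k) + b.coord l x • π (b k))) := by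
    conv_lhs => rw [hx]
    rw [hadd, hadd, hadd, hsmul, hsmul, hsmul, hsmul, hπl]
  have e2 : π y = (a / τ) • π (b i) + ((c / τ) • π (b j) + ((1 - (a + c) / τ) • π (b k))) := by
    rw [hy2, hadd, hadd, hadd, hsmul, hsmul, hsmul, hsmul]
    simp
  have hkl' : b.coord k x + b.coord l x = 1 - a - c := by linarith
  rw [e1, e2, ← add_smul, hkl']
  have t1 : τ * (a / τ) = a := by field_simp
  have t2 : τ * (c / τ) = c := by field_simp
  have t3 : τ * ((a + c) / τ) = a + c := by field_simp
  generalize π (b i) = A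
  generalize π (b j) = B
  generalize π (b k) = C
  have : τ • ((a / τ) • A + ((c / τ) • B + (1 - (a + c) / τ) • C) - C) + C
      = (τ * (a / τ)) • A + ((τ * (c / τ)) • B + (1 - τ * ((a + c) / τ)) • C) := by
    module
  rw [this, t1, t2, t3]
  module

/-- UNIT E3b.  Let `u = (b l - b k) / ‖b l - b k‖`, `B = π '' tetEdge b τ i j`.  `tetEdge` lies in
the cylinder `{c + t u | c ∈ B}` and in `tetT b`, and `tetW b ≥ 1` on `tetT b`, so
`volume (tetEdge) ≤ ∫⁻ x in cylinder, tetW b x`.  `tet_piece b k l hkl u hu1 len hlen hu B hB` gives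
`(∫⁻ x in cylinder, tetW b x) * shadow ≤ 3 * μHE[2] B * volume (tetT b)`.  By E3a and
`MeasureTheory.euclideanHausdorffMeasure_homothety_image`, `μHE[2] B ≤ τ ^ 2 * shadow`.
Cancel `shadow` (`shadow_ne_zero`, `shadow_ne_top`, see `tet_cover` in `TetMain.lean`). -/
theorem volume_tetEdge_le (b : AffineBasis (Fin 4) ℝ V3) (τ : ℝ) (h0 : 0 < τ)
    (i j k l : Fin 4) (hij : i ≠ j) (hik : i ≠ k) (hil : i ≠ l) (hjk : j ≠ k) (hjl : j ≠ l)
    (hkl : k ≠ l) :
    volume (tetEdge b τ i j) ≤ ENNReal.ofReal (3 * τ ^ 2) * volume (tetT b) := by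
  have hd0 : b l - b k ≠ 0 := sub_ne_zero.mpr fun h => hkl (b.ind.injective h).symm
  obtain ⟨len, hlen'⟩ : ∃ len : ℝ, len = ‖b l - b k‖ := ⟨_, rfl⟩
  have hlen : 0 < len := by rw [hlen']; exact norm_pos_iff.mpr hd0
  obtain ⟨u, hudef⟩ : ∃ u : V3, u = len⁻¹ • (b l - b k) := ⟨_, rfl⟩
  have hu1 : ‖u‖ = 1 := by
    rw [hudef, norm_smul, norm_inv, Real.norm_eq_abs, abs_of_pos hlen, ← hlen',
      inv_mul_cancel₀ hlen.ne']
  have hu : b l - b k = len • u := by
    rw [hudef, smul_smul, mul_inv_cancel₀ hlen.ne', one_smul]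
  set B : Set V3 := (fun x : V3 => x - (inner ℝ u x : ℝ) • u) '' tetEdge b τ i j with hBdef
  have hB : ∀ c ∈ B, inner ℝ u c = 0 := by
    rintro _ ⟨x, -, rfl⟩
    simp [inner_sub_right, inner_smul_right, real_inner_self_eq_norm_sq, hu1]
  have hpiece := tet_piece b k l hkl u hu1 len hlen hu B hB
  have hsub : tetEdge b τ i j ⊆ {x | ∃ c ∈ B, ∃ t : ℝ, x = c + t • u} := by
    intro x hx
    exact ⟨x - (inner ℝ u x : ℝ) • u, ⟨x, hx, rfl⟩, inner ℝ u x, by simp⟩
  have h1 : volume (tetEdge b τ i j)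
      ≤ ∫⁻ x in {x | ∃ c ∈ B, ∃ t : ℝ, x = c + t • u}, tetW b x := by
    calc volume (tetEdge b τ i j) = ∫⁻ _ in tetEdge b τ i j, 1 := by simp
      _ ≤ ∫⁻ x in tetEdge b τ i j, tetW b x := by
          refine setLIntegral_mono (measurable_tetW b) fun x hx => ?_
          have hxT : x ∈ tetT b := hx.1
          rw [tetW, indicator_of_mem hxT]
          exact le_self_add
      _ ≤ _ := lintegral_mono_set hsub
  have hV := tetT_volume_ne_zero b
  have hA0 := shadow_ne_zero (tetT b) (tetT_convex b) (tetT_compact b) hV u hu1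
  have hAtop := shadow_ne_top (tetT b) (tetT_compact b) u hu1
  have h2 : μHE[2] B ≤ ENNReal.ofReal (τ ^ 2)
      * μHE[2] ((fun x : V3 => x - (inner ℝ u x : ℝ) • u) '' tetT b) := by
    refine (measure_mono (proj_tetEdge_subset b τ h0 i j k l hij hik hil hjk hjl hkl u len hu
      hu1)).trans (le_of_eq ?_)
    rw [MeasureTheory.euclideanHausdorffMeasure_homothety_image 2 _ h0.ne']
    rw [ENNReal.smul_def, smul_eq_mul]
    congr 1
    rw [ENNReal.ofReal, ENNReal.coe_inj]
    ext
    simp [abs_of_pos h0]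
    positivity
  have h3 : volume (tetEdge b τ i j)
        * μHE[2] ((fun x : V3 => x - (inner ℝ u x : ℝ) • u) '' tetT b)
      ≤ (ENNReal.ofReal (3 * τ ^ 2) * volume (tetT b))
        * μHE[2] ((fun x : V3 => x - (inner ℝ u x : ℝ) • u) '' tetT b) := by
    calc _ ≤ 3 * μHE[2] B * volume (tetT b) := le_trans (mul_le_mul_left h1 _) hpiece
      _ ≤ 3 * (ENNReal.ofReal (τ ^ 2)
          * μHE[2] ((fun x : V3 => x - (inner ℝ u x : ℝ) • u) '' tetT b)) * volume (tetT b) := by
          gcongr
      _ = _ := by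
          rw [ENNReal.ofReal_mul (by norm_num)]
          simp only [ENNReal.ofReal_ofNat]
          ring
  exact (ENNReal.mul_le_mul_iff_left hA0 hAtop).mp h3

end Vale.Agent.Lib.P243
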