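import Vale.Agent.Lib.P243.Tet3Edge
import Vale.Agent.Lib.P243.Tet3Corner

/-! UNIT M3'.  The mass of `tetS3`. -/

namespace Vale.Agent.Lib.P243

open Set MeasureTheory
open scoped ENNReal

/-- UNIT U3.  A point of `tetT b` outside `tetS3 b` lies in one of the six edge neighbourhoods or
in one of the four corners (`1 - 1/10 = 9/10`; `fin_cases` on the pair, use commutativity of `+`). -/
theorem tetT_subset_union (b : AffineBasis (Fin 4) ℝ V3) :
    tetT b ⊆ tetS3 b ∪ (tetEdge b (1 / 20) 0 1 ∪ tetEdge b (1 / 20) 0 2 ∪ tetEdge b (1 / 20) 0 3 ∪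
      tetEdge b (1 / 20) 1 2 ∪ tetEdge b (1 / 20) 1 3 ∪ tetEdge b (1 / 20) 2 3) ∪
      (tetCorner b (1 / 10) 0 ∪ tetCorner b (1 / 10) 1 ∪ tetCorner b (1 / 10) 2 ∪
        tetCorner b (1 / 10) 3) := by
  intro x hx
  by_contra hcon
  simp only [mem_union, not_or] at hcon
  obtain ⟨⟨hS, ⟨⟨⟨⟨⟨e01, e02⟩, e03⟩, e12⟩, e13⟩, e23⟩⟩, ⟨⟨⟨c0, c1⟩, c2⟩, c3⟩⟩ := hcon
  have E : ∀ p q : Fin 4, x ∉ tetEdge b (1 / 20) p q →
      1 / 20 ≤ b.coord p x + b.coord q x := by
    intro p q h
    by_contra h2
    exact h ⟨hx, not_le.mp h2⟩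
  have C : ∀ p : Fin 4, x ∉ tetCorner b (1 / 10) p → b.coord p x ≤ 9 / 10 := by
    intro p h
    by_contra h2
    exact h ⟨hx, by have := not_le.mp h2; linarith⟩
  have h4 : ∀ i : Fin 4, i = 0 ∨ i = 1 ∨ i = 2 ∨ i = 3 := by decide
  have a01 := E _ _ e01
  have a02 := E _ _ e02
  have a03 := E _ _ e03
  have a12 := E _ _ e12
  have a13 := E _ _ e13
  have a23 := E _ _ e23
  apply hS
  refine ⟨hx, ?_, ?_⟩
  · intro i j hij
    rcases h4 i with rfl | rfl | rfl | rfl <;> rcases h4 j with rfl | rfl | rfl | rfl <;>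
      first
      | exact absurd rfl hij
      | linarith
  · intro i
    rcases h4 i with rfl | rfl | rfl | rfl
    · exact C _ c0
    · exact C _ c1
    · exact C _ c2
    · exact C _ c3

/-- UNIT M3'.  `measure_mono`, `measure_union_le` nine times, `volume_tetEdge_le` (six times, each
`3/400`), `volume_tetCorner_le` (four times, each `1/1000`): `V ≤ vol S3 + (18/400 + 4/1000) V`,
so `951 V ≤ 1000 vol S3` (`V` is finite: `volume_tetT_ne_top17`; lift to `NNReal` or use `toReal`,
as at the end of `trunc_mass`). -/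
theorem s3_mass (b : AffineBasis (Fin 4) ℝ V3) :
    951 * volume (tetT b) ≤ 1000 * volume (tetS3 b) := by
  have e01 := volume_tetEdge_le b (1 / 20) (by norm_num) 0 1 2 3 (by decide) (by decide)
    (by decide) (by decide) (by decide) (by decide)
  have e02 := volume_tetEdge_le b (1 / 20) (by norm_num) 0 2 1 3 (by decide) (by decide)
    (by decide) (by decide) (by decide) (by decide)
  have e03 := volume_tetEdge_le b (1 / 20) (by norm_num) 0 3 1 2 (by decide) (by decide)
    (by decide) (by decide) (by decide) (by decide)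
  have e12 := volume_tetEdge_le b (1 / 20) (by norm_num) 1 2 0 3 (by decide) (by decide)
    (by decide) (by decide) (by decide) (by decide)
  have e13 := volume_tetEdge_le b (1 / 20) (by norm_num) 1 3 0 2 (by decide) (by decide)
    (by decide) (by decide) (by decide) (by decide)
  have e23 := volume_tetEdge_le b (1 / 20) (by norm_num) 2 3 0 1 (by decide) (by decide)
    (by decide) (by decide) (by decide) (by decide)
  have c0 := volume_tetCorner_le b (1 / 10) (by norm_num) 0
  have c1 := volume_tetCorner_le b (1 / 10) (by norm_num) 1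
  have c2 := volume_tetCorner_le b (1 / 10) (by norm_num) 2
  have c3 := volume_tetCorner_le b (1 / 10) (by norm_num) 3
  have U : ∀ (A B : Set V3) (a c : ℝ≥0∞), volume A ≤ a → volume B ≤ c →
      volume (A ∪ B) ≤ a + c :=
    fun A B a c h1 h2 => (measure_union_le A B).trans (add_le_add h1 h2)
  have hEs := U _ _ _ _ (U _ _ _ _ (U _ _ _ _ (U _ _ _ _ (U _ _ _ _ e01 e02) e03) e12) e13) e23
  have hCs := U _ _ _ _ (U _ _ _ _ (U _ _ _ _ c0 c1) c2) c3
  have h1 := (measure_mono (tetT_subset_union b)).trans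
    (U _ _ _ _ (U _ _ _ _ (le_refl (volume (tetS3 b))) hEs) hCs)
  have hV := volume_tetT_ne_top17 b
  have hW : volume (tetS3 b) ≠ ∞ := by
    refine ne_top_of_le_ne_top hV (measure_mono ?_)
    intro x hx
    exact hx.1
  lift volume (tetT b) to NNReal using hV with V
  lift volume (tetS3 b) to NNReal using hW with W
  have q1 : ENNReal.ofReal (3 * (1 / 20) ^ 2) = ((3 / 400 : NNReal) : ℝ≥0∞) := by
    rw [ENNReal.ofReal]
    congr 1
    ext
    simp
    norm_num
  have q2 : ENNReal.ofReal ((1 / 10) ^ 3) = ((1 / 1000 : NNReal) : ℝ≥0∞) := by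
    rw [ENNReal.ofReal]
    congr 1
    ext
    simp
    norm_num
  rw [q1, q2] at h1
  norm_cast at h1 ⊢
  rw [← NNReal.coe_le_coe] at h1 ⊢
  push_cast at h1 ⊢
  linarith

end Vale.Agent.Lib.P243
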