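import Vale.Agent.Lib.P243.Tet3Xray
import Vale.Agent.Lib.P243.Tet3Mass

/-! Coverings of a tetrahedron by cylinders with arbitrary axes: the constant `317 / 900`. -/

namespace Vale.Agent.Lib.P243

open Set MeasureTheory Module Topology
open scoped ENNReal

/-- The indicator weight of `tetS3`. -/
noncomputable def tetW3 (b : AffineBasis (Fin 4) ℝ V3) (x : V3) : ℝ≥0∞ :=
  (tetS3 b).indicator 1 x

theorem measurable_tetW3 (b : AffineBasis (Fin 4) ℝ V3) : Measurable (tetW3 b) :=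
  measurable_one.indicator (measurableSet_tetS3 b)

theorem tet3_piece (b : AffineBasis (Fin 4) ℝ V3) (u : V3) (hu1 : ‖u‖ = 1) (B : Set V3)
    (hB : ∀ c ∈ B, inner ℝ u c = 0) :
    (∫⁻ x in {x | ∃ c ∈ B, ∃ t : ℝ, x = c + t • u}, tetW3 b x)
        * μHE[2] ((fun x : V3 => x - (inner ℝ u x : ℝ) • u) '' tetT b)
      ≤ ENNReal.ofReal (9 / 10) * (3 * μHE[2] B * volume (tetT b)) := by
  have hu0 : u ≠ 0 := by
    intro h; rw [h, norm_zero] at hu1; exact zero_ne_one hu1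
  obtain ⟨p, hp, l, hl, hq, hσ⟩ := exists_chord b u hu0
  refine gen_piece (tetT b) (tetT_convex b) (tetT_compact b) (tetW3 b) (measurable_tetW3 b) u hu1
    l hl _ p hp hq (fun x0 => ?_) B hB
  rw [← ENNReal.ofReal_mul (by norm_num)]
  exact s3_xray b u l hl hσ x0

theorem tetS3_subset (b : AffineBasis (Fin 4) ℝ V3) : tetS3 b ⊆ tetT b := fun _ hx => hx.1

theorem lintegral_tetW3 (b : AffineBasis (Fin 4) ℝ V3) : ∫⁻ x, tetW3 b x = volume (tetS3 b) := by
  have e : tetW3 b = (tetS3 b).indicator 1 := rfl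
  rw [e, lintegral_indicator_one (measurableSet_tetS3 b)]

theorem tet3_mass_le_sum (b : AffineBasis (Fin 4) ℝ V3) (n : ℕ) (u : Fin n → V3)
    (B : Fin n → Set V3)
    (hcov : ∀ x ∈ tetT b, ∃ j, ∃ c ∈ B j, ∃ t : ℝ, x = c + t • u j) :
    ∫⁻ x, tetW3 b x ≤ ∑ j, ∫⁻ x in {x | ∃ c ∈ B j, ∃ t : ℝ, x = c + t • u j}, tetW3 b x := by
  have h0 : ∫⁻ x, tetW3 b x = ∫⁻ x in tetT b, tetW3 b x := by
    rw [← lintegral_indicator (measurableSet_tetT b)]
    refine lintegral_congr fun x => ?_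
    by_cases hx : x ∈ tetT b
    · rw [indicator_of_mem hx]
    · rw [indicator_of_notMem hx, tetW3, indicator_of_notMem fun h => hx (tetS3_subset b h)]
  have hsub : tetT b ⊆ ⋃ j, {x | ∃ c ∈ B j, ∃ t : ℝ, x = c + t • u j} := by
    intro x hx
    obtain ⟨j, hj⟩ := hcov x hx
    exact mem_iUnion.mpr ⟨j, hj⟩
  rw [h0]
  refine le_trans (lintegral_mono_set hsub) (le_trans (lintegral_iUnion_le _ _) ?_)
  rw [tsum_fintype]

/-- Absolute form, arbitrary axes. -/
theorem tet3_cover_abs (b : AffineBasis (Fin 4) ℝ V3) (n : ℕ) (u : Fin n → V3)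
    (hu : ∀ j, ‖u j‖ = 1)
    (B : Fin n → Set V3) (hB : ∀ j, ∀ c ∈ B j, inner ℝ (u j) c = 0)
    (hcov : ∀ x ∈ tetT b, ∃ j, ∃ c ∈ B j, ∃ t : ℝ, x = c + t • u j) (Amin : ℝ≥0∞)
    (hAj : ∀ j, Amin ≤ μHE[2] ((fun x : V3 => x - (inner ℝ (u j) x : ℝ) • u j) '' tetT b)) :
    ENNReal.ofReal (317 / 900) * Amin ≤ ∑ j, μHE[2] (B j) := by
  have hV := tetT_volume_ne_zero b
  have hVtop : volume (tetT b) ≠ ⊤ := (tetT_compact b).measure_lt_top.ne
  have h2 : (951 * Amin) * volume (tetT b)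
      ≤ (2700 * ∑ j, μHE[2] (B j)) * volume (tetT b) := by
    calc (951 * Amin) * volume (tetT b) = (951 * volume (tetT b)) * Amin := by ring
      _ ≤ (1000 * ∑ j, ∫⁻ x in {x | ∃ c ∈ B j, ∃ t : ℝ, x = c + t • u j}, tetW3 b x) * Amin :=
          mul_le_mul_left (le_trans (s3_mass b)
            (mul_le_mul_right (by
              rw [← lintegral_tetW3]; exact tet3_mass_le_sum b n u B hcov) _)) _
      _ = 1000 * ∑ j, (∫⁻ x in {x | ∃ c ∈ B j, ∃ t : ℝ, x = c + t • u j}, tetW3 b x) * Amin := by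
          rw [mul_assoc, Finset.sum_mul]
      _ ≤ 1000 * ∑ j, ENNReal.ofReal (9 / 10) * (3 * μHE[2] (B j) * volume (tetT b)) :=
          mul_le_mul_right (Finset.sum_le_sum fun j _ => le_trans (mul_le_mul_right (hAj j) _)
            (tet3_piece b (u j) (hu j) (B j) (hB j))) _
      _ = (2700 * ∑ j, μHE[2] (B j)) * volume (tetT b) := by
          rw [Finset.mul_sum, Finset.mul_sum, Finset.sum_mul]
          refine Finset.sum_congr rfl fun j _ => ?_
          have e : (2700 : ℝ≥0∞) = 1000 * ENNReal.ofReal (9 / 10) * 3 := by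
            rw [show (1000 : ℝ≥0∞) = ENNReal.ofReal 1000 by simp,
              show (3 : ℝ≥0∞) = ENNReal.ofReal 3 by simp,
              show (2700 : ℝ≥0∞) = ENNReal.ofReal 2700 by simp,
              ← ENNReal.ofReal_mul (by norm_num), ← ENNReal.ofReal_mul (by norm_num)]
            norm_num
          rw [e]
          ring
  have h3 : 951 * Amin ≤ 2700 * ∑ j, μHE[2] (B j) :=
    (ENNReal.mul_le_mul_iff_left hV hVtop).mp h2
  have e : ENNReal.ofReal (317 / 900) = 2700⁻¹ * 951 := by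
    rw [show (951 : ℝ≥0∞) = ENNReal.ofReal 951 by simp,
      show (2700 : ℝ≥0∞) = ENNReal.ofReal 2700 by simp,
      ← ENNReal.ofReal_inv_of_pos (by norm_num), ← ENNReal.ofReal_mul (by norm_num)]
    norm_num
  calc ENNReal.ofReal (317 / 900) * Amin = 2700⁻¹ * (951 * Amin) := by rw [e, mul_assoc]
    _ ≤ 2700⁻¹ * (2700 * ∑ j, μHE[2] (B j)) := mul_le_mul_right h3 _
    _ = ∑ j, μHE[2] (B j) := by
        rw [← mul_assoc, ENNReal.inv_mul_cancel (by simp) (by simp), one_mul]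

/-- Coverings of a tetrahedron by cylinders with arbitrary axes: the directionwise relative
area is at least `317 / 900 > 1 / 3`. -/
theorem tet3_cover (b : AffineBasis (Fin 4) ℝ V3) (n : ℕ) (u : Fin n → V3)
    (hu : ∀ j, ‖u j‖ = 1)
    (B : Fin n → Set V3) (hB : ∀ j, ∀ c ∈ B j, inner ℝ (u j) c = 0)
    (hfin : ∀ j, μHE[2] (B j) ≠ ⊤)
    (hcov : ∀ x ∈ tetT b, ∃ j, ∃ c ∈ B j, ∃ t : ℝ, x = c + t • u j) :
    317 / 900 ≤ ∑ j, (μHE[2] (B j)).toReal / (μHE[2] ((fun x : V3 =>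
      x - (inner ℝ (u j) x : ℝ) • u j) '' tetT b)).toReal := by
  have hV := tetT_volume_ne_zero b
  have hVtop : volume (tetT b) ≠ ⊤ := (tetT_compact b).measure_lt_top.ne
  have hA0 := fun j => shadow_ne_zero (tetT b) (tetT_convex b) (tetT_compact b) hV (u j) (hu j)
  have hAtop := fun j => shadow_ne_top (tetT b) (tetT_compact b) (u j) (hu j)
  set r : Fin n → ℝ := fun j => (μHE[2] (B j)).toReal / (μHE[2] ((fun x : V3 =>
      x - (inner ℝ (u j) x : ℝ) • u j) '' tetT b)).toReal with hr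
  have hr0 : ∀ j, 0 ≤ r j := by intro j; rw [hr]; positivity
  have hpiece : ∀ j, ∫⁻ x in {x | ∃ c ∈ B j, ∃ t : ℝ, x = c + t • u j}, tetW3 b x
      ≤ ENNReal.ofReal (9 / 10 * (3 * r j)) * volume (tetT b) := by
    intro j
    have h := tet3_piece b (u j) (hu j) (B j) (hB j)
    have e : ENNReal.ofReal (3 * r j) = 3 * μHE[2] (B j) / μHE[2] ((fun x : V3 =>
        x - (inner ℝ (u j) x : ℝ) • u j) '' tetT b) := by
      rw [ENNReal.ofReal_mul (by norm_num), hr]
      simp only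
      rw [ENNReal.ofReal_div_of_pos (ENNReal.toReal_pos (hA0 _) (hAtop _)),
        ENNReal.ofReal_toReal (hfin j), ENNReal.ofReal_toReal (hAtop _), mul_div_assoc]
      simp
    rw [ENNReal.ofReal_mul (by norm_num), e, ENNReal.div_eq_inv_mul, mul_assoc, mul_assoc,
      mul_left_comm, ← ENNReal.div_eq_inv_mul]
    exact (ENNReal.le_div_iff_mul_le (Or.inl (hA0 j)) (Or.inl (hAtop j))).mpr h
  have h2 : ENNReal.ofReal 951 * volume (tetT b)
      ≤ ENNReal.ofReal (1000 * ∑ j, 9 / 10 * (3 * r j)) * volume (tetT b) := by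
    rw [ENNReal.ofReal_mul (by norm_num),
      ENNReal.ofReal_sum_of_nonneg fun j _ =>
        mul_nonneg (by norm_num) (mul_nonneg (by norm_num) (hr0 j)), mul_assoc,
      Finset.sum_mul]
    simp only [ENNReal.ofReal_ofNat]
    refine le_trans (s3_mass b) (mul_le_mul_right ?_ _)
    rw [← lintegral_tetW3]
    exact le_trans (tet3_mass_le_sum b n u B hcov) (Finset.sum_le_sum fun j _ => hpiece j)
  have h3 : ENNReal.ofReal 951 ≤ ENNReal.ofReal (1000 * ∑ j, 9 / 10 * (3 * r j)) :=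
    (ENNReal.mul_le_mul_iff_left hV hVtop).mp h2
  have h4 : (951 : ℝ) ≤ 1000 * ∑ j, 9 / 10 * (3 * r j) := by
    refine (ENNReal.ofReal_le_ofReal_iff ?_).mp h3
    exact mul_nonneg (by norm_num)
      (Finset.sum_nonneg fun j _ => mul_nonneg (by norm_num) (mul_nonneg (by norm_num) (hr0 j)))
  rw [← Finset.mul_sum, ← Finset.mul_sum] at h4
  linarith

end Vale.Agent.Lib.P243
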