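import Vale.Agent.Lib.P243.Tet3Defs

/-! UNIT X3.  Two points of `tetS3`. -/

namespace Vale.Agent.Lib.P243

open Set MeasureTheory
open scoped ENNReal

theorem s3_chord_aux (p0 p1 p2 p3 q0 q1 q2 q3 : ℝ)
    (a0 : 0 ≤ p0) (a1 : 0 ≤ p1) (a2 : 0 ≤ p2) (a3 : 0 ≤ p3)
    (b0 : 0 ≤ q0) (b1 : 0 ≤ q1) (b2 : 0 ≤ q2) (b3 : 0 ≤ q3)
    (hl1 : p0 + p1 + p2 + p3 = 1) (hm1 : q0 + q1 + q2 + q3 = 1)
    (x01 : 1 / 20 ≤ p0 + p1) (x02 : 1 / 20 ≤ p0 + p2) (x03 : 1 / 20 ≤ p0 + p3)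
    (x12 : 1 / 20 ≤ p1 + p2) (x13 : 1 / 20 ≤ p1 + p3) (x23 : 1 / 20 ≤ p2 + p3)
    (y01 : 1 / 20 ≤ q0 + q1) (y02 : 1 / 20 ≤ q0 + q2) (y03 : 1 / 20 ≤ q0 + q3)
    (y12 : 1 / 20 ≤ q1 + q2) (y13 : 1 / 20 ≤ q1 + q3) (y23 : 1 / 20 ≤ q2 + q3)
    (c0 : p0 ≤ 9 / 10) (c1 : p1 ≤ 9 / 10) (c2 : p2 ≤ 9 / 10) (c3 : p3 ≤ 9 / 10)
    (d0 : q0 ≤ 9 / 10) (d1 : q1 ≤ 9 / 10) (d2 : q2 ≤ 9 / 10) (d3 : q3 ≤ 9 / 10) :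
    max (q0 - p0) 0 + max (q1 - p1) 0 + max (q2 - p2) 0 + max (q3 - p3) 0 ≤ 9 / 10 := by
  rcases max_cases (q0 - p0) 0 with ⟨e0, _⟩ | ⟨e0, _⟩ <;>
  rcases max_cases (q1 - p1) 0 with ⟨e1, _⟩ | ⟨e1, _⟩ <;>
  rcases max_cases (q2 - p2) 0 with ⟨e2, _⟩ | ⟨e2, _⟩ <;>
  rcases max_cases (q3 - p3) 0 with ⟨e3, _⟩ | ⟨e3, _⟩ <;>
  rw [e0, e1, e2, e3] <;> linarith

/-- UNIT X3.  Pure linear arithmetic, same pattern as `trunc_chord` in `TetAllX.lean`.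
Write `lam = coord · x`, `mu = coord · y` (nonnegative, sum `1`).  For `Q = {k | mu_k > lam_k}`:
`∑_{k ∈ Q} (mu_k - lam_k) = 1 - ∑_{k ∉ Q} mu_k - ∑_{k ∈ Q} lam_k`.  If `|Q| = 1`, `Q = {k}`:
`∑_{j ≠ k} mu_j = 1 - mu_k ≥ 1/10`.  If `|Q| = 3`: `∑_{k ∈ Q} lam_k = 1 - lam_j ≥ 1/10`.
If `|Q| = 2`: both pair sums are `≥ 1/20`.  `|Q| = 0, 4`: trivial.
So: `Fin.sum_univ_four`, `rcases max_cases` four times, `linarith` with the right instances. -/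
theorem s3_chord (b : AffineBasis (Fin 4) ℝ V3) (x y : V3)
    (hx : x ∈ tetS3 b) (hy : y ∈ tetS3 b) :
    ∑ k, max (b.coord k y - b.coord k x) 0 ≤ 9 / 10 := by
  obtain ⟨hxT, hxp, hxc⟩ := hx
  obtain ⟨hyT, hyp, hyc⟩ := hy
  have sx := b.sum_coord_apply_eq_one x
  have sy := b.sum_coord_apply_eq_one y
  rw [Fin.sum_univ_four] at sx sy ⊢
  exact s3_chord_aux _ _ _ _ _ _ _ _ (hxT 0) (hxT 1) (hxT 2) (hxT 3) (hyT 0) (hyT 1) (hyT 2) (hyT 3)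
    sx sy
    (hxp 0 1 (by decide)) (hxp 0 2 (by decide)) (hxp 0 3 (by decide))
    (hxp 1 2 (by decide)) (hxp 1 3 (by decide)) (hxp 2 3 (by decide))
    (hyp 0 1 (by decide)) (hyp 0 2 (by decide)) (hyp 0 3 (by decide))
    (hyp 1 2 (by decide)) (hyp 1 3 (by decide)) (hyp 2 3 (by decide))
    (hxc 0) (hxc 1) (hxc 2) (hxc 3) (hyc 0) (hyc 1) (hyc 2) (hyc 3)

end Vale.Agent.Lib.P243
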