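import Vale.Agent.Lib.P243.Tet3X

/-! UNIT R3.  The x-ray of `tetS3`: copy of `TetAllXray.lean` with `s3_chord`. -/

namespace Vale.Agent.Lib.P243

open Set MeasureTheory
open scoped ENNReal

theorem measurableSet_tetS3 (b : AffineBasis (Fin 4) ℝ V3) : MeasurableSet (tetS3 b) := by
  have hc : ∀ j, Continuous (b.coord j) := fun j => (b.coord j).continuous_of_finiteDimensional
  have h : tetS3 b = tetT b ∩ ((⋂ i : Fin 4, ⋂ j : Fin 4,
      {x | i ≠ j → 1 / 20 ≤ b.coord i x + b.coord j x}) ∩ ⋂ i : Fin 4, {x | b.coord i x ≤ 9 / 10}) := by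
    ext x
    simp only [tetS3, mem_setOf_eq, mem_inter_iff, mem_iInter]
  rw [h]
  refine (measurableSet_tetT b).inter (MeasurableSet.inter
    (MeasurableSet.iInter fun i => MeasurableSet.iInter fun j => ?_)
    (MeasurableSet.iInter fun i => (isClosed_le (hc i) continuous_const).measurableSet))
  by_cases hij : i = j
  · simp [hij]
  · simp only [ne_eq, hij, not_false_eq_true, forall_const]
    exact (isClosed_le continuous_const ((hc i).add (hc j))).measurableSet

/-- UNIT R3.  Copy the proof of `trunc_xray` (`TetAllXray.lean`), with `s3_chord` instead of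
`trunc_chord` and `9 / 10` instead of `1 - 2 τ`. -/
theorem s3_xray (b : AffineBasis (Fin 4) ℝ V3) (u : V3) (l : ℝ)
    (hl : 0 < l) (hσ : l * ∑ k, max ((b.coord k).linear u) 0 = 1) (x0 : V3) :
    ∫⁻ t : ℝ, (tetS3 b).indicator (1 : V3 → ℝ≥0∞) (x0 + t • u)
      ≤ ENNReal.ofReal (9 / 10 * l) := by
  set A : Set ℝ := {t | x0 + t • u ∈ tetS3 b} with hA
  have hcont : Continuous (fun t : ℝ => x0 + t • u) := by fun_prop
  have hAm : MeasurableSet A := hcont.measurable (measurableSet_tetS3 b)
  have hint : ∀ t : ℝ, (tetS3 b).indicator (1 : V3 → ℝ≥0∞) (x0 + t • u) =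
      A.indicator (1 : ℝ → ℝ≥0∞) t := by
    intro t
    by_cases ht : t ∈ A
    · have ht' : x0 + t • u ∈ tetS3 b := ht
      simp [ht, ht']
    · have ht' : x0 + t • u ∉ tetS3 b := ht
      simp [ht, ht']
  simp_rw [hint]
  rw [lintegral_indicator_one hAm]
  refine (Real.volume_le_diam A).trans ?_
  -- the key one-sided estimate
  have key : ∀ s ∈ A, ∀ t ∈ A, s ≤ t → t - s ≤ 9 / 10 * l := by
    intro s hs t ht hst
    have h := s3_chord b (x0 + s • u) (x0 + t • u) hs ht
    have e : ∀ k, max (b.coord k (x0 + t • u) - b.coord k (x0 + s • u)) 0 =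
        (t - s) * max ((b.coord k).linear u) 0 := by
      intro k
      rw [coord_line20, coord_line20, mul_max_of_nonneg _ _ (sub_nonneg.2 hst), mul_zero]
      congr 1
      ring
    simp_rw [e] at h
    rw [← Finset.mul_sum] at h
    calc t - s = l * ((t - s) * ∑ k, max ((b.coord k).linear u) 0) := by
          rw [mul_left_comm, hσ, mul_one]
      _ ≤ l * (9 / 10) := mul_le_mul_of_nonneg_left h hl.le
      _ = 9 / 10 * l := mul_comm _ _
  refine Metric.ediam_le fun s hs t ht => ?_
  rw [edist_dist, Real.dist_eq]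
  refine ENNReal.ofReal_le_ofReal ?_
  rcases le_total s t with hst | hst
  · rw [abs_sub_comm, abs_of_nonneg (sub_nonneg.2 hst)]
    exact key s hs t ht hst
  · rw [abs_of_nonneg (sub_nonneg.2 hst)]
    exact key t ht s hs hst

end Vale.Agent.Lib.P243
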