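import Vale.Agent.Lib.P243.TetMain

/-! A dual weight for ALL directions: the tetrahedron with thin neighbourhoods of its six edges
removed.  `tetTrunc b τ` = points of `T` with at most one barycentric coordinate below `τ`. -/

namespace Vale.Agent.Lib.P243

open Set MeasureTheory
open scoped ENNReal

/-- Points of the tetrahedron with at most one barycentric coordinate below `τ`. -/
def tetTrunc (b : AffineBasis (Fin 4) ℝ V3) (τ : ℝ) : Set V3 :=
  {x | x ∈ tetT b ∧ ∃ k : Fin 4, ∀ j, j ≠ k → τ ≤ b.coord j x}

/-- Points of the tetrahedron whose coordinates other than the `k`-th are at least `τ`. -/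
def tetSig (b : AffineBasis (Fin 4) ℝ V3) (τ : ℝ) (k : Fin 4) : Set V3 :=
  {x | x ∈ tetT b ∧ ∀ j, j ≠ k → τ ≤ b.coord j x}

/-- Points all of whose coordinates are at least `τ`. -/
def tetCore (b : AffineBasis (Fin 4) ℝ V3) (τ : ℝ) : Set V3 :=
  {x | ∀ j, τ ≤ b.coord j x}

/-- Coordinates of a homothety with an arbitrary centre. -/
theorem coord_homothety20 (b : AffineBasis (Fin 4) ℝ V3) (c : V3) (m : Fin 4) (r : ℝ) (x : V3) :
    b.coord m (AffineMap.homothety c r x) = r * (b.coord m x - b.coord m c) + b.coord m c := by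
  rw [AffineMap.homothety_eq_lineMap, AffineMap.apply_lineMap, AffineMap.lineMap_apply_module']
  simp

/-- Coordinates along a line. -/
theorem coord_line20 (b : AffineBasis (Fin 4) ℝ V3) (k : Fin 4) (x u : V3) (t : ℝ) :
    b.coord k (x + t • u) = b.coord k x + t * (b.coord k).linear u := by
  have h := (b.coord k).map_vadd x (t • u)
  simp only [vadd_eq_add, map_smul, smul_eq_mul] at h
  rw [add_comm x, h, add_comm]

end Vale.Agent.Lib.P243
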