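import Vale.Agent.Lib.P243.TetAllDefs

/-! UNIT M1.  Volume of `tetSig`. -/

namespace Vale.Agent.Lib.P243

open Set MeasureTheory
open scoped ENNReal

/-- UNIT M1.  Let `c = Finset.univ.affineCombination ℝ b (fun j => if j = k then 0 else 1 / 3)`
(`coord j c = if j = k then 0 else 1/3` by `AffineBasis.coord_apply_combination_of_mem`).  By
`coord_homothety20`, `coord j (homothety c (1 - 3 τ) x) = (1 - 3 τ) coord j x + (if j = k then 0
else τ)`, so `homothety c (1 - 3 τ) '' tetT b ⊆ tetSig b τ k`; the image has volume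
`(1 - 3 τ)^3 vol T` (`Measure.addHaar_image_homothety`, `finrank = 3`, see `tet_mass`). -/
theorem volume_tetSig_ge (b : AffineBasis (Fin 4) ℝ V3) (τ : ℝ) (h0 : 0 ≤ τ) (h1 : τ ≤ 1 / 3)
    (k : Fin 4) :
    ENNReal.ofReal ((1 - 3 * τ) ^ 3) * volume (tetT b) ≤ volume (tetSig b τ k) := by
  set w : Fin 4 → ℝ := fun j => if j = k then 0 else 1 / 3 with hw
  have hsum : ∑ j : Fin 4, w j = 1 := by
    rw [hw]
    fin_cases k <;> simp [Fin.sum_univ_four] <;> norm_num
  set c : V3 := Finset.univ.affineCombination ℝ b w with hcdef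
  have hcoord : ∀ j, b.coord j c = w j := fun j =>
    AffineBasis.coord_apply_combination_of_mem b (Finset.mem_univ j) hsum
  have himg : volume (AffineMap.homothety c (1 - 3 * τ : ℝ) '' tetT b) =
      ENNReal.ofReal ((1 - 3 * τ) ^ 3) * volume (tetT b) := by
    rw [Measure.addHaar_image_homothety]
    congr 2
    have : (0 : ℝ) ≤ 1 - 3 * τ := by linarith
    simp [abs_of_nonneg this]
  rw [← himg]
  refine measure_mono ?_
  rintro _ ⟨x, hx, rfl⟩
  have hr : (0 : ℝ) ≤ 1 - 3 * τ := by linarith
  refine ⟨fun j => ?_, fun j hj => ?_⟩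
  · rw [coord_homothety20, hcoord]
    have hxj := hx j
    by_cases hjk : j = k
    · simp only [hw, hjk, if_true]
      have := mul_nonneg hr (hx k)
      linarith
    · simp only [hw, hjk, if_false]
      have := mul_nonneg hr hxj
      nlinarith
  · rw [coord_homothety20, hcoord]
    simp only [hw, hj, if_false]
    have := mul_nonneg hr (hx j)
    nlinarith

end Vale.Agent.Lib.P243
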