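import Vale.Agent.Lib.P243.TetAllPiece
import Vale.Agent.Lib.P243.TetAllChord
import Vale.Agent.Lib.P243.TetAllXray
import Vale.Agent.Lib.P243.TetAllMass

/-! Coverings of a tetrahedron by cylinders with arbitrary axes. -/

namespace Vale.Agent.Lib.P243

open Set MeasureTheory Module Topology
open scoped ENNReal

theorem trunc_piece (b : AffineBasis (Fin 4) ℝ V3) (u : V3) (hu : ‖u‖ = 1) (B : Set V3)
    (hB : ∀ c ∈ B, inner ℝ u c = 0) :
    (∫⁻ x in {x | ∃ c ∈ B, ∃ t : ℝ, x = c + t • u},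
        (tetTrunc b (1 / 32)).indicator (1 : V3 → ℝ≥0∞) x)
        * μHE[2] ((fun x : V3 => x - (inner ℝ u x : ℝ) • u) '' tetT b)
      ≤ ENNReal.ofReal (3 * (15 / 16)) * μHE[2] B * volume (tetT b) := by
  have hu0 : u ≠ 0 := by
    intro h; rw [h, norm_zero] at hu; exact zero_ne_one hu
  obtain ⟨p, hp, l, hl, hq, hσ⟩ := exists_chord b u hu0
  refine gen_piece20 b _ (measurable_one.indicator (measurableSet_tetTrunc b _)) u hu l (15 / 16) hl
    (by norm_num) p hp hq (fun x0 => ?_) B hB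
  have h := trunc_xray b (1 / 32) (by norm_num) u l hl hσ x0
  have e : (1 - 2 * (1 / 32 : ℝ)) = 15 / 16 := by norm_num
  rwa [e] at h

theorem trunc_mass_le_sum (b : AffineBasis (Fin 4) ℝ V3) (n : ℕ) (u : Fin n → V3)
    (B : Fin n → Set V3)
    (hcov : ∀ x ∈ tetT b, ∃ j, ∃ c ∈ B j, ∃ t : ℝ, x = c + t • u j) :
    volume (tetTrunc b (1 / 32)) ≤ ∑ j, ∫⁻ x in {x | ∃ c ∈ B j, ∃ t : ℝ, x = c + t • u j},
      (tetTrunc b (1 / 32)).indicator (1 : V3 → ℝ≥0∞) x := by
  have h0 : volume (tetTrunc b (1 / 32))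
      = ∫⁻ x in tetT b, (tetTrunc b (1 / 32)).indicator (1 : V3 → ℝ≥0∞) x := by
    rw [← lintegral_indicator_one (measurableSet_tetTrunc b _),
      ← lintegral_indicator (measurableSet_tetT b)]
    refine lintegral_congr fun x => ?_
    by_cases hx : x ∈ tetT b
    · rw [indicator_of_mem hx]
    · rw [indicator_of_notMem hx, indicator_of_notMem fun h => hx h.1]
  have hsub : tetT b ⊆ ⋃ j, {x | ∃ c ∈ B j, ∃ t : ℝ, x = c + t • u j} := by
    intro x hx
    obtain ⟨j, hj⟩ := hcov x hx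
    exact mem_iUnion.mpr ⟨j, hj⟩
  rw [h0]
  refine le_trans (lintegral_mono_set hsub) (le_trans (lintegral_iUnion_le _ _) ?_)
  rw [tsum_fintype]

/-- Coverings of a tetrahedron by cylinders with arbitrary axes: the directionwise relative area
is at least `1585 / 4608 > 1 / 3`. -/
theorem tet_all_cover (b : AffineBasis (Fin 4) ℝ V3) (n : ℕ) (u : Fin n → V3)
    (hu : ∀ j, ‖u j‖ = 1)
    (B : Fin n → Set V3) (hB : ∀ j, ∀ c ∈ B j, inner ℝ (u j) c = 0)
    (hfin : ∀ j, μHE[2] (B j) ≠ ⊤)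
    (hcov : ∀ x ∈ tetT b, ∃ j, ∃ c ∈ B j, ∃ t : ℝ, x = c + t • u j) :
    1585 / 4608 ≤ ∑ j, (μHE[2] (B j)).toReal / (μHE[2] ((fun x : V3 =>
      x - (inner ℝ (u j) x : ℝ) • u j) '' tetT b)).toReal := by
  have hV := tetT_volume_ne_zero b
  have hVtop : volume (tetT b) ≠ ⊤ := (tetT_compact b).measure_lt_top.ne
  have hA0 := fun j => shadow_ne_zero (tetT b) (tetT_convex b) (tetT_compact b) hV (u j) (hu j)
  have hAtop := fun j => shadow_ne_top (tetT b) (tetT_compact b) (u j) (hu j)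
  set r : Fin n → ℝ := fun j => (μHE[2] (B j)).toReal / (μHE[2] ((fun x : V3 =>
      x - (inner ℝ (u j) x : ℝ) • u j) '' tetT b)).toReal with hr
  have hr0 : ∀ j, 0 ≤ r j := by intro j; rw [hr]; positivity
  have hpiece : ∀ j, ∫⁻ x in {x | ∃ c ∈ B j, ∃ t : ℝ, x = c + t • u j},
      (tetTrunc b (1 / 32)).indicator (1 : V3 → ℝ≥0∞) x
      ≤ ENNReal.ofReal (3 * (15 / 16) * r j) * volume (tetT b) := by
    intro j
    have h := trunc_piece b (u j) (hu j) (B j) (hB j)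
    have e : ENNReal.ofReal (3 * (15 / 16) * r j)
        = ENNReal.ofReal (3 * (15 / 16)) * μHE[2] (B j) / μHE[2] ((fun x : V3 =>
        x - (inner ℝ (u j) x : ℝ) • u j) '' tetT b) := by
      rw [ENNReal.ofReal_mul (by norm_num), hr]
      simp only
      rw [ENNReal.ofReal_div_of_pos (ENNReal.toReal_pos (hA0 _) (hAtop _)),
        ENNReal.ofReal_toReal (hfin j), ENNReal.ofReal_toReal (hAtop _), mul_div_assoc]
    rw [e, ENNReal.div_eq_inv_mul, mul_assoc, ← ENNReal.div_eq_inv_mul]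
    exact (ENNReal.le_div_iff_mul_le (Or.inl (hA0 j)) (Or.inl (hAtop j))).mpr h
  have h2 : ENNReal.ofReal (31700 / 32768) * volume (tetT b)
      ≤ ENNReal.ofReal (∑ j, 3 * (15 / 16) * r j) * volume (tetT b) := by
    rw [ENNReal.ofReal_sum_of_nonneg fun j _ => mul_nonneg (by norm_num) (hr0 j), Finset.sum_mul]
    exact le_trans (trunc_mass b) (le_trans (trunc_mass_le_sum b n u B hcov)
      (Finset.sum_le_sum fun j _ => hpiece j))
  have h3 : ENNReal.ofReal (31700 / 32768) ≤ ENNReal.ofReal (∑ j, 3 * (15 / 16) * r j) :=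
    (ENNReal.mul_le_mul_iff_left hV hVtop).mp h2
  have h4 : (31700 / 32768 : ℝ) ≤ ∑ j, 3 * (15 / 16) * r j := by
    refine (ENNReal.ofReal_le_ofReal_iff ?_).mp h3
    exact Finset.sum_nonneg fun j _ => mul_nonneg (by norm_num) (hr0 j)
  rw [← Finset.mul_sum] at h4
  linarith

/-- Absolute form: the total base area is at least `1585 / 4608` times the least shadow area
among the directions that are used. -/
theorem tet_all_cover_abs (b : AffineBasis (Fin 4) ℝ V3) (n : ℕ) (u : Fin n → V3)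
    (hu : ∀ j, ‖u j‖ = 1)
    (B : Fin n → Set V3) (hB : ∀ j, ∀ c ∈ B j, inner ℝ (u j) c = 0)
    (hcov : ∀ x ∈ tetT b, ∃ j, ∃ c ∈ B j, ∃ t : ℝ, x = c + t • u j) (Amin : ℝ≥0∞)
    (hAj : ∀ j, Amin ≤ μHE[2] ((fun x : V3 => x - (inner ℝ (u j) x : ℝ) • u j) '' tetT b)) :
    ENNReal.ofReal (1585 / 4608) * Amin ≤ ∑ j, μHE[2] (B j) := by
  have hV := tetT_volume_ne_zero b
  have hVtop : volume (tetT b) ≠ ⊤ := (tetT_compact b).measure_lt_top.ne
  have h2 : (ENNReal.ofReal (31700 / 32768) * Amin) * volume (tetT b)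
      ≤ (ENNReal.ofReal (3 * (15 / 16)) * ∑ j, μHE[2] (B j)) * volume (tetT b) := by
    calc (ENNReal.ofReal (31700 / 32768) * Amin) * volume (tetT b)
        = (ENNReal.ofReal (31700 / 32768) * volume (tetT b)) * Amin := by ring
      _ ≤ (∑ j, ∫⁻ x in {x | ∃ c ∈ B j, ∃ t : ℝ, x = c + t • u j},
            (tetTrunc b (1 / 32)).indicator (1 : V3 → ℝ≥0∞) x) * Amin :=
          mul_le_mul_left (le_trans (trunc_mass b) (trunc_mass_le_sum b n u B hcov)) _
      _ = ∑ j, (∫⁻ x in {x | ∃ c ∈ B j, ∃ t : ℝ, x = c + t • u j},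
            (tetTrunc b (1 / 32)).indicator (1 : V3 → ℝ≥0∞) x) * Amin := by
          rw [Finset.sum_mul]
      _ ≤ ∑ j, ENNReal.ofReal (3 * (15 / 16)) * μHE[2] (B j) * volume (tetT b) :=
          Finset.sum_le_sum fun j _ => le_trans (mul_le_mul_right (hAj j) _)
            (trunc_piece b (u j) (hu j) (B j) (hB j))
      _ = (ENNReal.ofReal (3 * (15 / 16)) * ∑ j, μHE[2] (B j)) * volume (tetT b) := by
          rw [Finset.mul_sum, Finset.sum_mul]
  have h3 : ENNReal.ofReal (31700 / 32768) * Amin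
      ≤ ENNReal.ofReal (3 * (15 / 16)) * ∑ j, μHE[2] (B j) :=
    (ENNReal.mul_le_mul_iff_left hV hVtop).mp h2
  have e : ENNReal.ofReal (1585 / 4608)
      = ENNReal.ofReal (16 / 45) * ENNReal.ofReal (31700 / 32768) := by
    rw [← ENNReal.ofReal_mul (by norm_num)]; norm_num
  have e1 : ENNReal.ofReal (16 / 45) * ENNReal.ofReal (3 * (15 / 16)) = 1 := by
    rw [← ENNReal.ofReal_mul (by norm_num)]; norm_num
  calc ENNReal.ofReal (1585 / 4608) * Amin
      = ENNReal.ofReal (16 / 45) * (ENNReal.ofReal (31700 / 32768) * Amin) := by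
        rw [e, mul_assoc]
    _ ≤ ENNReal.ofReal (16 / 45) * (ENNReal.ofReal (3 * (15 / 16)) * ∑ j, μHE[2] (B j)) :=
        mul_le_mul_right h3 _
    _ = ∑ j, μHE[2] (B j) := by rw [← mul_assoc, e1, one_mul]

end Vale.Agent.Lib.P243
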