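import Vale.Agent.Lib.P243.TetAllDefs

/-! The Fubini piece lemma for an arbitrary weight and an arbitrary chord. -/

namespace Vale.Agent.Lib.P243

open Set MeasureTheory Module Topology
open scoped ENNReal

theorem gen_piece20 (b : AffineBasis (Fin 4) ℝ V3) (w : V3 → ℝ≥0∞) (hw : Measurable w) (u : V3)
    (hu1 : ‖u‖ = 1) (l c : ℝ) (hl : 0 < l) (hc : 0 ≤ c) (p : V3) (hp : p ∈ tetT b)
    (hq : p + l • u ∈ tetT b)
    (hx : ∀ x0 : V3, ∫⁻ t : ℝ, w (x0 + t • u) ≤ ENNReal.ofReal (c * l)) (B : Set V3)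
    (hB : ∀ c ∈ B, inner ℝ u c = 0) :
    (∫⁻ x in {x | ∃ c ∈ B, ∃ t : ℝ, x = c + t • u}, w x)
        * μHE[2] ((fun x : V3 => x - (inner ℝ u x : ℝ) • u) '' tetT b)
      ≤ ENNReal.ofReal (3 * c) * μHE[2] B * volume (tetT b) := by
  have hu0 : u ≠ 0 := by
    intro h; rw [h, norm_zero] at hu1; exact zero_ne_one hu1
  obtain ⟨a, ha, hau⟩ := exists_unit_perp (k := 1) (by simp) u hu0
  obtain ⟨d, hd, hdu, hda⟩ := exists_third u a hu1 ha hau
  have had : inner ℝ a d = 0 := by rw [real_inner_comm]; exact hda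
  obtain ⟨Φ, hΦ, hΦf⟩ := exists_coords3 a d u ha hd hu1 had hau hdu
  set K : Set V3 := tetT b with hK
  have hconv : Convex ℝ K := tetT_convex b
  have hcomp : IsCompact K := tetT_compact b
  set ψ : V3 → ℝ × ℝ := fun x => ((inner ℝ a x : ℝ), (inner ℝ d x : ℝ)) with hψ
  have hfun : (Φ : V3 → (ℝ × ℝ) × ℝ)
      = fun x => (((inner ℝ a x : ℝ), (inner ℝ d x : ℝ)), (inner ℝ u x : ℝ)) := funext hΦf
  have hK'c : Convex ℝ (Φ '' K) := by
    rintro _ ⟨x, hx, rfl⟩ _ ⟨z, hz, rfl⟩ p q hp hq hpq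
    refine ⟨p • x + q • z, hconv hx hz hp hq hpq, ?_⟩
    rw [hΦf, hΦf, hΦf]
    ext <;> simp [inner_add_right, inner_smul_right]
  have hK'k : IsCompact (Φ '' K) := by
    rw [hfun]; exact hcomp.image (by fun_prop)
  have hK'v : volume (Φ '' K) = volume K := by
    rw [MeasurableEquiv.image_eq_preimage_symm]
    exact hΦ.symm.measure_preimage_equiv K
  have hfst : Prod.fst '' (Φ '' K) = ψ '' K := by
    rw [image_image]
    refine image_congr fun x _ => ?_
    rw [hΦf]
  have hshadow : ψ '' K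
      = ψ '' ((fun x : V3 => x - (inner ℝ u x : ℝ) • u) '' K) := by
    rw [image_image]
    refine image_congr fun x _ => ?_
    simp only [hψ, inner_sub_right, inner_smul_right, hau, hdu, mul_zero, sub_zero]
  have hshv : volume (ψ '' K)
      = μHE[2] ((fun x : V3 => x - (inner ℝ u x : ℝ) • u) '' K) := by
    rw [hshadow]
    exact planar_coords u a d hu1 ha hd had hau hdu _ (shadow_perp K u hu1)
  have hBv : volume (toMeasurable volume (ψ '' B)) = μHE[2] B := by
    rw [measure_toMeasurable]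
    exact planar_coords u a d hu1 ha hd had hau hdu B hB
  set T : (ℝ × ℝ) × ℝ → V3 := fun p => p.1.1 • a + p.1.2 • d + p.2 • u with hT
  have hua : inner ℝ u a = 0 := by rw [real_inner_comm]; exact hau
  have hud : inner ℝ u d = 0 := by rw [real_inner_comm]; exact hdu
  have hΦT : ∀ p, Φ (T p) = p := by
    intro p
    rw [hΦf]
    simp only [hT, inner_add_right, inner_smul_right, real_inner_self_eq_norm_sq, ha, hd, hu1, had,
      hda, hau, hdu, hua, hud]
    ext <;> simp
  have hTΦ : ∀ x, T (Φ x) = x := fun x => Φ.injective (hΦT _)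
  have hTm : Measurable T := by
    have : Continuous T := by fun_prop
    exact this.measurable
  set S : Set (ℝ × ℝ) := toMeasurable volume (ψ '' B) with hS
  have hSm : MeasurableSet S := measurableSet_toMeasurable volume (ψ '' B)
  have hgm : Measurable fun p : (ℝ × ℝ) × ℝ => w (T p) := hw.comp hTm
  have hms : MeasurableSet (S ×ˢ (univ : Set ℝ)) := hSm.prod MeasurableSet.univ
  -- step 1: pass to coordinates
  have h1 : ∫⁻ x in {x | ∃ c ∈ B, ∃ t : ℝ, x = c + t • u}, w x
      ≤ ∫⁻ p in S ×ˢ (univ : Set ℝ), w (T p) := by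
    rw [← hΦ.setLIntegral_comp_preimage hms hgm]
    simp only [hTΦ]
    refine lintegral_mono_set ?_
    rintro x ⟨c, hc, t, rfl⟩
    refine ⟨?_, mem_univ _⟩
    apply subset_toMeasurable
    refine ⟨c, hc, ?_⟩
    rw [hΦf]
    simp only [hψ, inner_add_right, inner_smul_right, hau, hdu, mul_zero, add_zero]
  -- step 2: Fubini and the bound along lines
  have h2 : ∫⁻ p in S ×ˢ (univ : Set ℝ), w (T p) ≤ ENNReal.ofReal (c * l) * μHE[2] B := by
    rw [Measure.volume_eq_prod, ← Measure.prod_restrict, Measure.restrict_univ,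
      lintegral_prod _ hgm.aemeasurable]
    calc ∫⁻ y in S, ∫⁻ z : ℝ, w (T (y, z))
        ≤ ∫⁻ _ in S, ENNReal.ofReal (c * l) := by
          refine lintegral_mono fun y => ?_
          exact hx (y.1 • a + y.2 • d)
      _ = ENNReal.ofReal (c * l) * μHE[2] B := by
          rw [setLIntegral_const, hBv]
  -- step 3: the cone bound
  have h3 : ENNReal.ofReal l * μHE[2] ((fun x : V3 => x - (inner ℝ u x : ℝ) • u) '' K)
      ≤ 3 * volume K := by
    have hlev : ψ p ∈ lev (Φ '' K) l := by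
      refine ⟨(inner ℝ u p : ℝ), ⟨p, hp, hΦf _⟩, ⟨p + l • u, hq, ?_⟩⟩
      rw [hΦf]
      simp only [hψ, inner_add_right, inner_smul_right, hau, hdu, mul_zero, add_zero,
        real_inner_self_eq_norm_sq, hu1]
      norm_num
    have := cone_bound hK'c hK'k hl.le hlev
    rwa [hfst, hshv, hK'v] at this
  calc (∫⁻ x in {x | ∃ c ∈ B, ∃ t : ℝ, x = c + t • u}, w x)
        * μHE[2] ((fun x : V3 => x - (inner ℝ u x : ℝ) • u) '' K)
      ≤ (ENNReal.ofReal (c * l) * μHE[2] B)
        * μHE[2] ((fun x : V3 => x - (inner ℝ u x : ℝ) • u) '' K) :=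
        mul_le_mul_left (h1.trans h2) _
    _ = ENNReal.ofReal c * μHE[2] B * (ENNReal.ofReal l
        * μHE[2] ((fun x : V3 => x - (inner ℝ u x : ℝ) • u) '' K)) := by
        rw [ENNReal.ofReal_mul hc]; ring
    _ ≤ ENNReal.ofReal c * μHE[2] B * (3 * volume K) := mul_le_mul_right h3 _
    _ = ENNReal.ofReal (3 * c) * μHE[2] B * volume K := by
        rw [ENNReal.ofReal_mul (by norm_num)]
        simp only [ENNReal.ofReal_ofNat]
        ring

end Vale.Agent.Lib.P243
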