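import Vale.Agent.Lib.P243.TetAllDefs

/-! UNIT X.  Two points of the truncated tetrahedron. -/

namespace Vale.Agent.Lib.P243

open Set MeasureTheory
open scoped ENNReal

theorem trunc_chord_aux (τ : ℝ) (l m : Fin 4 → ℝ) (hl0 : ∀ k, 0 ≤ l k) (hm0 : ∀ k, 0 ≤ m k)
    (hl1 : l 0 + l 1 + l 2 + l 3 = 1) (hm1 : m 0 + m 1 + m 2 + m 3 = 1)
    (kx ky : Fin 4) (hx : ∀ j, j ≠ kx → τ ≤ l j) (hy : ∀ j, j ≠ ky → τ ≤ m j) :
    max (m 0 - l 0) 0 + max (m 1 - l 1) 0 + max (m 2 - l 2) 0 + max (m 3 - l 3) 0 ≤ 1 - 2 * τ := by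
  have a0 := hl0 0; have a1 := hl0 1; have a2 := hl0 2; have a3 := hl0 3
  have b0 := hm0 0; have b1 := hm0 1; have b2 := hm0 2; have b3 := hm0 3
  have x0 := hx 0; have x1 := hx 1; have x2 := hx 2; have x3 := hx 3
  have y0 := hy 0; have y1 := hy 1; have y2 := hy 2; have y3 := hy 3
  clear hl0 hm0 hx hy
  generalize l 0 = p0 at *
  generalize l 1 = p1 at *
  generalize l 2 = p2 at *
  generalize l 3 = p3 at *
  generalize m 0 = q0 at *
  generalize m 1 = q1 at *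
  generalize m 2 = q2 at *
  generalize m 3 = q3 at *
  fin_cases kx <;> fin_cases ky <;> simp at x0 x1 x2 x3 y0 y1 y2 y3 <;>
  rcases max_cases (q0 - p0) 0 with ⟨e0, _⟩ | ⟨e0, _⟩ <;>
  rcases max_cases (q1 - p1) 0 with ⟨e1, _⟩ | ⟨e1, _⟩ <;>
  rcases max_cases (q2 - p2) 0 with ⟨e2, _⟩ | ⟨e2, _⟩ <;>
  rcases max_cases (q3 - p3) 0 with ⟨e3, _⟩ | ⟨e3, _⟩ <;>
  rw [e0, e1, e2, e3] <;> linarith

/-- UNIT X.  Pure linear arithmetic.  Write `λ = coord · x`, `μ = coord · y` (both nonnegative with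
sum `1`: `b.sum_coord_apply_eq_one`, `Fin.sum_univ_four`).  For EVERY subset `P` of `Fin 4`,
`∑_{k ∈ P} (μ_k - λ_k) = 1 - ∑_{k ∉ P} μ_k - ∑_{k ∈ P} λ_k ≤ 1 - 2 τ`, because at most one `μ_k`
and at most one `λ_k` is below `τ` (for `P = ∅` or `univ` use `3 τ ≤ 1`).  So: expand the sum,
`rcases max_cases` four times, `fin_cases` the two exceptional indices, `linarith`. -/
theorem trunc_chord (b : AffineBasis (Fin 4) ℝ V3) (τ : ℝ) (hτ : 0 ≤ τ) (x y : V3)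
    (hx : x ∈ tetTrunc b τ) (hy : y ∈ tetTrunc b τ) :
    ∑ k, max (b.coord k y - b.coord k x) 0 ≤ 1 - 2 * τ := by
  obtain ⟨hxT, kx, hkx⟩ := hx
  obtain ⟨hyT, ky, hky⟩ := hy
  have sx := b.sum_coord_apply_eq_one x
  have sy := b.sum_coord_apply_eq_one y
  rw [Fin.sum_univ_four] at sx sy ⊢
  exact trunc_chord_aux τ (fun k => b.coord k x) (fun k => b.coord k y) hxT hyT sx sy kx ky hkx hky

end Vale.Agent.Lib.P243
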