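import Vale.Agent.Lib.P243.TetDefs

/-! UNIT A.  Chord times shadow is at most three times the volume. -/

namespace Vale.Agent.Lib.P243

open Set MeasureTheory
open scoped ENNReal

theorem volume_homothety_plane (P : Set (ℝ × ℝ)) (y : ℝ × ℝ) (r : ℝ) :
    volume ((fun p : ℝ × ℝ => r • p + (1 - r) • y) '' P) = ENNReal.ofReal (r ^ 2) * volume P := by
  have h := Measure.addHaar_image_homothety (volume : Measure (ℝ × ℝ)) y r P
  have e : (fun p : ℝ × ℝ => r • p + (1 - r) • y) = AffineMap.homothety y r := by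
    funext p
    rw [AffineMap.homothety_apply]
    simp only [vsub_eq_sub, vadd_eq_add, smul_sub, sub_smul, one_smul]
    abel
  rw [e, h]
  have hf : Module.finrank ℝ (ℝ × ℝ) = 2 := by simp
  rw [hf, abs_of_nonneg (sq_nonneg r)]

/-- UNIT A.  Proof: for `t ∈ (0,1]`, `lev K (L*t) ⊇ (1-t) • P + t • y` with `P = lev K 0 = fst '' K`
(use `lev_combo` / `lev_convex`-style convexity as in `sym_vol`), whose area is `(1-t)^2 |P|`
(`Measure.addHaar_image_homothety` or `addHaar_smul` plus translation); then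
`volume K = ∫⁻ t in Ioi 0, volume (lev K t)` (`prod_volume_eq`, `goodFibres_of_convex_compact`)
`≥ ∫_0^L (1 - t/L)^2 |P| dt = L |P| / 3`.  See `sym_vol` in SymVol.lean for the same pattern. -/
theorem cone_bound {K : Set ((ℝ × ℝ) × ℝ)} (hc : Convex ℝ K) (hk : IsCompact K) {y : ℝ × ℝ}
    {L : ℝ} (hL : 0 ≤ L) (hyL : y ∈ lev K L) :
    ENNReal.ofReal L * volume (Prod.fst '' K) ≤ 3 * volume K := by
  rcases hL.eq_or_lt with h0 | h0
  · rw [← h0]; simp
  have hG := goodFibres_of_convex_compact hc hk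
  have hPk : IsCompact (Prod.fst '' K) := hk.image continuous_fst
  have hpt : ∀ t ∈ Ioc (0 : ℝ) 1,
      ENNReal.ofReal ((1 + (-1) * t) ^ 2) * volume (Prod.fst '' K) ≤ volume (lev K (L * t)) := by
    intro t ht
    rw [← volume_homothety_plane (Prod.fst '' K) y (1 + (-1) * t)]
    apply measure_mono
    rintro _ ⟨p, hp, rfl⟩
    rw [← lev_zero] at hp
    have := lev_combo (K0 := K) (K1 := K) (K := K) (p := 1 - t) (q := t)
      (fun x hx w hw => hc hx hw (by linarith [ht.2]) ht.1.le (by ring)) p hp y hyL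
    have e1 : (1 - t) * 0 + t * L = L * t := by ring
    rw [e1] at this
    have e2 : (1 + (-1) * t) = 1 - t := by ring
    have e3 : 1 - (1 - t) = t := by ring
    simp only [e2, e3]
    exact this
  have hint : ∫⁻ t in Ioc (0 : ℝ) 1, ENNReal.ofReal ((1 + (-1) * t) ^ 2)
      = ENNReal.ofReal (1 / 3) := by
    rw [lintegral_affine_sq 1 (-1) zero_le_one]
    congr 1
    norm_num
  have key : ENNReal.ofReal (L * (1 / 3)) * volume (Prod.fst '' K) ≤ volume K := by
    calc ENNReal.ofReal (L * (1 / 3)) * volume (Prod.fst '' K)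
        = ENNReal.ofReal L * ∫⁻ t in Ioc (0 : ℝ) 1,
            ENNReal.ofReal ((1 + (-1) * t) ^ 2) * volume (Prod.fst '' K) := by
          rw [lintegral_mul_const' _ _ hPk.measure_lt_top.ne, hint,
            ENNReal.ofReal_mul hL, mul_assoc]
      _ ≤ ENNReal.ofReal L * ∫⁻ t in Ioc (0 : ℝ) 1, volume (lev K (L * t)) := by
          exact mul_le_mul_right (setLIntegral_mono' measurableSet_Ioc hpt) _
      _ = ∫⁻ t in Ioc 0 L, volume (lev K t) :=
          (setLIntegral_Ioc_scale (fun t => volume (lev K t)) h0).symm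
      _ ≤ ∫⁻ t in Ioi 0, volume (lev K t) := lintegral_mono_set Ioc_subset_Ioi_self
      _ = volume K := by
          have := prod_volume_eq volume hG hk.measurableSet
          rw [← Measure.volume_eq_prod] at this
          exact this.symm
  have e : ENNReal.ofReal L = 3 * ENNReal.ofReal (L * (1 / 3)) := by
    have h3 : (3 : ℝ≥0∞) = ENNReal.ofReal 3 := by simp
    rw [h3, ← ENNReal.ofReal_mul (by norm_num)]
    congr 1
    ring
  rw [e, mul_assoc]
  exact mul_le_mul_right key 3

end Vale.Agent.Lib.P243
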