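import Vale.Agent.Lib.P243.SymMain

/-! A tetrahedron, its central octahedron and the weight `1_T + 1_O`. -/

namespace Vale.Agent.Lib.P243

open Set MeasureTheory
open scoped ENNReal

/-- Euclidean three-space. -/
abbrev V3 := EuclideanSpace ℝ (Fin 3)

/-- The tetrahedron with vertices `b 0, b 1, b 2, b 3` (all barycentric coordinates nonnegative). -/
def tetT (b : AffineBasis (Fin 4) ℝ V3) : Set V3 := {x | ∀ k, 0 ≤ b.coord k x}

/-- The central octahedron: all barycentric coordinates in `[0, 1/2]`. -/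
def tetO (b : AffineBasis (Fin 4) ℝ V3) : Set V3 :=
  {x | ∀ k, 0 ≤ b.coord k x ∧ b.coord k x ≤ 1 / 2}

/-- The weight `1_T + 1_O`. -/
noncomputable def tetW (b : AffineBasis (Fin 4) ℝ V3) (x : V3) : ℝ≥0∞ :=
  (tetT b).indicator 1 x + (tetO b).indicator 1 x

theorem tetT_eq (b : AffineBasis (Fin 4) ℝ V3) : tetT b = convexHull ℝ (Set.range b) :=
  (b.convexHull_eq_nonneg_coord).symm

end Vale.Agent.Lib.P243
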