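import Vale.Agent.Lib.P243.TetPiece

/-! Coverings of a tetrahedron by cylinders parallel to its edges. -/

namespace Vale.Agent.Lib.P243

open Set MeasureTheory Module Topology
open scoped ENNReal

theorem tetT_volume_ne_zero (b : AffineBasis (Fin 4) ℝ V3) : volume (tetT b) ≠ 0 := by
  have hint : (interior (tetT b)).Nonempty := by
    rw [tetT_eq]; exact ⟨_, b.centroid_mem_interior_convexHull⟩
  exact ((isOpen_interior.measure_pos volume hint).trans_le (measure_mono interior_subset)).ne'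

/-- A unit vector parallel to an edge, written with a positive length. -/
theorem edge_normal_form (b : AffineBasis (Fin 4) ℝ V3) (u : V3) (hu : ‖u‖ = 1)
    (hedge : ∃ i k : Fin 4, i ≠ k ∧ ∃ c : ℝ, u = c • (b k - b i)) :
    ∃ i k : Fin 4, i ≠ k ∧ ∃ l : ℝ, 0 < l ∧ b k - b i = l • u := by
  obtain ⟨i, k, hik, c, hc⟩ := hedge
  have hc0 : c ≠ 0 := by
    rintro rfl
    rw [zero_smul] at hc
    rw [hc, norm_zero] at hu
    exact zero_ne_one hu
  rcases lt_or_gt_of_ne hc0 with h | h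
  · refine ⟨k, i, hik.symm, -c⁻¹, by simpa using inv_lt_zero.mpr h, ?_⟩
    rw [hc, smul_smul, neg_mul, inv_mul_cancel₀ hc0, neg_one_smul, neg_sub]
  · refine ⟨i, k, hik, c⁻¹, inv_pos.mpr h, ?_⟩
    rw [hc, smul_smul, inv_mul_cancel₀ hc0, one_smul]

theorem tet_piece' (b : AffineBasis (Fin 4) ℝ V3) (u : V3) (hu : ‖u‖ = 1)
    (hedge : ∃ i k : Fin 4, i ≠ k ∧ ∃ c : ℝ, u = c • (b k - b i)) (B : Set V3)
    (hB : ∀ c ∈ B, inner ℝ u c = 0) :
    (∫⁻ x in {x | ∃ c ∈ B, ∃ t : ℝ, x = c + t • u}, tetW b x)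
        * μHE[2] ((fun x : V3 => x - (inner ℝ u x : ℝ) • u) '' tetT b)
      ≤ 3 * μHE[2] B * volume (tetT b) := by
  obtain ⟨i, k, hik, l, hl, hlu⟩ := edge_normal_form b u hu hedge
  exact tet_piece b i k hik u hu l hl hlu B hB

theorem tetW_eq_zero (b : AffineBasis (Fin 4) ℝ V3) {x : V3} (hx : x ∉ tetT b) : tetW b x = 0 := by
  have hO : x ∉ tetO b := fun h => hx fun k => (h k).1
  simp [tetW, hx, hO]

theorem tet_mass_le_sum (b : AffineBasis (Fin 4) ℝ V3) (n : ℕ) (u : Fin n → V3)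
    (B : Fin n → Set V3)
    (hcov : ∀ x ∈ tetT b, ∃ j, ∃ c ∈ B j, ∃ t : ℝ, x = c + t • u j) :
    ∫⁻ x, tetW b x ≤ ∑ j, ∫⁻ x in {x | ∃ c ∈ B j, ∃ t : ℝ, x = c + t • u j}, tetW b x := by
  have h0 : ∫⁻ x, tetW b x = ∫⁻ x in tetT b, tetW b x := by
    rw [← lintegral_indicator (measurableSet_tetT b)]
    refine lintegral_congr fun x => ?_
    by_cases hx : x ∈ tetT b
    · rw [indicator_of_mem hx]
    · rw [indicator_of_notMem hx, tetW_eq_zero b hx]
  have hsub : tetT b ⊆ ⋃ j, {x | ∃ c ∈ B j, ∃ t : ℝ, x = c + t • u j} := by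
    intro x hx
    obtain ⟨j, hj⟩ := hcov x hx
    exact mem_iUnion.mpr ⟨j, hj⟩
  rw [h0]
  refine le_trans (lintegral_mono_set hsub) (le_trans (lintegral_iUnion_le _ _) ?_)
  rw [tsum_fintype]

/-- Absolute form with the minimum over the directions that are used. -/
theorem tet_cover_abs (b : AffineBasis (Fin 4) ℝ V3) (n : ℕ) (u : Fin n → V3)
    (hu : ∀ j, ‖u j‖ = 1)
    (hedge : ∀ j, ∃ i k : Fin 4, i ≠ k ∧ ∃ c : ℝ, u j = c • (b k - b i))
    (B : Fin n → Set V3) (hB : ∀ j, ∀ c ∈ B j, inner ℝ (u j) c = 0)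
    (hcov : ∀ x ∈ tetT b, ∃ j, ∃ c ∈ B j, ∃ t : ℝ, x = c + t • u j) (Amin : ℝ≥0∞)
    (hAj : ∀ j, Amin ≤ μHE[2] ((fun x : V3 => x - (inner ℝ (u j) x : ℝ) • u j) '' tetT b)) :
    (1 / 2 : ℝ≥0∞) * Amin ≤ ∑ j, μHE[2] (B j) := by
  have hV := tetT_volume_ne_zero b
  have hVtop : volume (tetT b) ≠ ⊤ := (tetT_compact b).measure_lt_top.ne
  have h2 : (3 * Amin) * volume (tetT b) ≤ (6 * ∑ j, μHE[2] (B j)) * volume (tetT b) := by
    calc (3 * Amin) * volume (tetT b) = (3 * volume (tetT b)) * Amin := by ring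
      _ ≤ (2 * ∑ j, ∫⁻ x in {x | ∃ c ∈ B j, ∃ t : ℝ, x = c + t • u j}, tetW b x) * Amin :=
          mul_le_mul_left (le_trans (tet_mass b)
            (mul_le_mul_right (tet_mass_le_sum b n u B hcov) _)) _
      _ = 2 * ∑ j, (∫⁻ x in {x | ∃ c ∈ B j, ∃ t : ℝ, x = c + t • u j}, tetW b x) * Amin := by
          rw [mul_assoc, Finset.sum_mul]
      _ ≤ 2 * ∑ j, 3 * μHE[2] (B j) * volume (tetT b) :=
          mul_le_mul_right (Finset.sum_le_sum fun j _ => le_trans (mul_le_mul_right (hAj j) _)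
            (tet_piece' b (u j) (hu j) (hedge j) (B j) (hB j))) _
      _ = (6 * ∑ j, μHE[2] (B j)) * volume (tetT b) := by
          rw [Finset.mul_sum, Finset.mul_sum, Finset.sum_mul]
          refine Finset.sum_congr rfl fun j _ => ?_
          rw [show (6 : ℝ≥0∞) = 2 * 3 by norm_num]
          ring
  have h3 : 3 * Amin ≤ 6 * ∑ j, μHE[2] (B j) :=
    (ENNReal.mul_le_mul_iff_left hV hVtop).mp h2
  have e : (1 / 2 : ℝ≥0∞) = 6⁻¹ * 3 := by
    rw [show (6 : ℝ≥0∞) = 2 * 3 by norm_num, ENNReal.mul_inv (by simp) (by simp), mul_assoc,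
      ENNReal.inv_mul_cancel (by simp) (by simp), mul_one, one_div]
  calc (1 / 2 : ℝ≥0∞) * Amin = 6⁻¹ * (3 * Amin) := by rw [e, mul_assoc]
    _ ≤ 6⁻¹ * (6 * ∑ j, μHE[2] (B j)) := mul_le_mul_right h3 _
    _ = ∑ j, μHE[2] (B j) := by
        rw [← mul_assoc, ENNReal.inv_mul_cancel (by simp) (by simp), one_mul]

/-- Coverings of a tetrahedron by cylinders parallel to its edges: the directionwise relative
area is at least `1 / 2`. -/
theorem tet_cover (b : AffineBasis (Fin 4) ℝ V3) (n : ℕ) (u : Fin n → V3)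
    (hu : ∀ j, ‖u j‖ = 1)
    (hedge : ∀ j, ∃ i k : Fin 4, i ≠ k ∧ ∃ c : ℝ, u j = c • (b k - b i))
    (B : Fin n → Set V3) (hB : ∀ j, ∀ c ∈ B j, inner ℝ (u j) c = 0)
    (hfin : ∀ j, μHE[2] (B j) ≠ ⊤)
    (hcov : ∀ x ∈ tetT b, ∃ j, ∃ c ∈ B j, ∃ t : ℝ, x = c + t • u j) :
    1 / 2 ≤ ∑ j, (μHE[2] (B j)).toReal / (μHE[2] ((fun x : V3 =>
      x - (inner ℝ (u j) x : ℝ) • u j) '' tetT b)).toReal := by
  have hV := tetT_volume_ne_zero b
  have hVtop : volume (tetT b) ≠ ⊤ := (tetT_compact b).measure_lt_top.ne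
  have hA0 := fun j => shadow_ne_zero (tetT b) (tetT_convex b) (tetT_compact b) hV (u j) (hu j)
  have hAtop := fun j => shadow_ne_top (tetT b) (tetT_compact b) (u j) (hu j)
  set r : Fin n → ℝ := fun j => (μHE[2] (B j)).toReal / (μHE[2] ((fun x : V3 =>
      x - (inner ℝ (u j) x : ℝ) • u j) '' tetT b)).toReal with hr
  have hr0 : ∀ j, 0 ≤ r j := by intro j; rw [hr]; positivity
  have hpiece : ∀ j, ∫⁻ x in {x | ∃ c ∈ B j, ∃ t : ℝ, x = c + t • u j}, tetW b x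
      ≤ ENNReal.ofReal (3 * r j) * volume (tetT b) := by
    intro j
    have h := tet_piece' b (u j) (hu j) (hedge j) (B j) (hB j)
    have e : ENNReal.ofReal (3 * r j) = 3 * μHE[2] (B j) / μHE[2] ((fun x : V3 =>
        x - (inner ℝ (u j) x : ℝ) • u j) '' tetT b) := by
      rw [ENNReal.ofReal_mul (by norm_num), hr]
      simp only
      rw [ENNReal.ofReal_div_of_pos (ENNReal.toReal_pos (hA0 _) (hAtop _)),
        ENNReal.ofReal_toReal (hfin j), ENNReal.ofReal_toReal (hAtop _), mul_div_assoc]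
      simp
    rw [e, ENNReal.div_eq_inv_mul, mul_assoc, ← ENNReal.div_eq_inv_mul]
    exact (ENNReal.le_div_iff_mul_le (Or.inl (hA0 j)) (Or.inl (hAtop j))).mpr h
  have h2 : ENNReal.ofReal 3 * volume (tetT b)
      ≤ ENNReal.ofReal (2 * ∑ j, 3 * r j) * volume (tetT b) := by
    rw [ENNReal.ofReal_mul (by norm_num),
      ENNReal.ofReal_sum_of_nonneg fun j _ => mul_nonneg (by norm_num) (hr0 j), mul_assoc,
      Finset.sum_mul]
    simp only [ENNReal.ofReal_ofNat]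
    exact le_trans (tet_mass b) (mul_le_mul_right (le_trans (tet_mass_le_sum b n u B hcov)
      (Finset.sum_le_sum fun j _ => hpiece j)) _)
  have h3 : ENNReal.ofReal 3 ≤ ENNReal.ofReal (2 * ∑ j, 3 * r j) :=
    (ENNReal.mul_le_mul_iff_left hV hVtop).mp h2
  have h4 : (3 : ℝ) ≤ 2 * ∑ j, 3 * r j := by
    refine (ENNReal.ofReal_le_ofReal_iff ?_).mp h3
    exact mul_nonneg (by norm_num)
      (Finset.sum_nonneg fun j _ => mul_nonneg (by norm_num) (hr0 j))
  rw [← Finset.mul_sum] at h4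
  linarith

end Vale.Agent.Lib.P243
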