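import Vale.Agent.Lib.P243.TetDefs

/-! UNIT C.  Measurability and total mass of the weight. -/

namespace Vale.Agent.Lib.P243

open Set MeasureTheory
open scoped ENNReal

theorem continuous_coord17 (b : AffineBasis (Fin 4) ℝ V3) (k : Fin 4) :
    Continuous (fun x : V3 => b.coord k x) :=
  (b.coord k).continuous_of_finiteDimensional

theorem isClosed_tetT17 (b : AffineBasis (Fin 4) ℝ V3) : IsClosed (tetT b) := by
  have h : tetT b = ⋂ k, {x : V3 | 0 ≤ b.coord k x} := by
    ext x; simp [tetT]
  rw [h]
  exact isClosed_iInter fun k => isClosed_le continuous_const (continuous_coord17 b k)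

theorem measurableSet_tetT (b : AffineBasis (Fin 4) ℝ V3) : MeasurableSet (tetT b) :=
  (isClosed_tetT17 b).measurableSet

theorem measurableSet_tetO (b : AffineBasis (Fin 4) ℝ V3) : MeasurableSet (tetO b) := by
  have h : tetO b = ⋂ k, ({x : V3 | 0 ≤ b.coord k x} ∩ {x : V3 | b.coord k x ≤ 1 / 2}) := by
    ext x; simp [tetO]
  rw [h]
  exact (isClosed_iInter fun k => (isClosed_le continuous_const (continuous_coord17 b k)).inter
    (isClosed_le (continuous_coord17 b k) continuous_const)).measurableSet

theorem measurable_tetW (b : AffineBasis (Fin 4) ℝ V3) : Measurable (tetW b) := by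
  unfold tetW
  exact (measurable_one.indicator (measurableSet_tetT b)).add
    (measurable_one.indicator (measurableSet_tetO b))

theorem coord_homothety17 (b : AffineBasis (Fin 4) ℝ V3) (k m : Fin 4) (r : ℝ) (x : V3) :
    b.coord m (AffineMap.homothety (b k) r x) =
      r * (b.coord m x - b.coord m (b k)) + b.coord m (b k) := by
  rw [AffineMap.homothety_eq_lineMap, AffineMap.apply_lineMap, AffineMap.lineMap_apply_module']
  simp

theorem tetT_subset17 (b : AffineBasis (Fin 4) ℝ V3) :
    tetT b ⊆ tetO b ∪ ⋃ k, AffineMap.homothety (b k) (1 / 2 : ℝ) '' tetT b := by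
  intro x hx
  by_cases h : ∀ k, b.coord k x ≤ 1 / 2
  · exact Or.inl fun k => ⟨hx k, h k⟩
  · push Not at h
    obtain ⟨k, hk⟩ := h
    refine Or.inr (mem_iUnion.mpr ⟨k, AffineMap.homothety (b k) (2 : ℝ) x, ?_, ?_⟩)
    · intro m
      rw [coord_homothety17]
      by_cases hm : m = k
      · subst hm
        rw [AffineBasis.coord_apply_eq]
        linarith
      · rw [AffineBasis.coord_apply_ne b hm]
        have := hx m
        linarith
    · rw [← AffineMap.homothety_mul_apply]
      norm_num

theorem volume_tetT_ne_top17 (b : AffineBasis (Fin 4) ℝ V3) : volume (tetT b) ≠ ∞ := by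
  rw [tetT_eq]
  have hc : IsCompact (convexHull ℝ (Set.range b)) :=
    Set.Finite.isCompact_convexHull (𝕜 := ℝ) (Set.finite_range b)
  exact hc.measure_lt_top.ne

/-- UNIT C.  `T ⊆ O ∪ ⋃ k, homothety (b k) (1/2) '' T` (if `coord k x > 1/2` then
`y = homothety (b k) 2 x` has coordinates `2 c_m - δ_{mk} ≥ 0`), each image has volume `V / 8`
(`Measure.addHaar_image_homothety`, `finrank = 3`), so `vol O ≥ V / 2` and
`∫ w = vol T + vol O ≥ 3 V / 2`. -/
theorem tet_mass (b : AffineBasis (Fin 4) ℝ V3) :
    3 * volume (tetT b) ≤ 2 * ∫⁻ x, tetW b x := by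
  have hint : ∫⁻ x, tetW b x = volume (tetT b) + volume (tetO b) := by
    unfold tetW
    rw [lintegral_add_left (measurable_one.indicator (measurableSet_tetT b)),
      lintegral_indicator_one (measurableSet_tetT b), lintegral_indicator_one (measurableSet_tetO b)]
  have himg : ∀ k, volume (AffineMap.homothety (b k) (1 / 2 : ℝ) '' tetT b) =
      ENNReal.ofReal (1 / 8) * volume (tetT b) := by
    intro k
    rw [Measure.addHaar_image_homothety]
    congr 2
    simp
    norm_num
  have h1 : volume (tetT b) ≤ volume (tetO b) + 4 * (ENNReal.ofReal (1 / 8) * volume (tetT b)) := by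
    calc volume (tetT b) ≤ volume (tetO b ∪ ⋃ k, AffineMap.homothety (b k) (1 / 2 : ℝ) '' tetT b) :=
          measure_mono (tetT_subset17 b)
      _ ≤ volume (tetO b) + volume (⋃ k, AffineMap.homothety (b k) (1 / 2 : ℝ) '' tetT b) :=
          measure_union_le _ _
      _ ≤ volume (tetO b) + ∑ k : Fin 4, volume (AffineMap.homothety (b k) (1 / 2 : ℝ) '' tetT b) := by
          gcongr
          exact measure_iUnion_fintype_le _ _
      _ = volume (tetO b) + 4 * (ENNReal.ofReal (1 / 8) * volume (tetT b)) := by
          simp only [himg, Finset.sum_const, Finset.card_univ, Fintype.card_fin, nsmul_eq_mul]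
          norm_num
  have hV := volume_tetT_ne_top17 b
  have hO : volume (tetO b) ≠ ∞ := by
    refine ne_top_of_le_ne_top hV (measure_mono ?_)
    intro x hx k
    exact (hx k).1
  rw [hint]
  lift volume (tetT b) to NNReal using hV with V
  lift volume (tetO b) to NNReal using hO with O
  have h8 : ENNReal.ofReal (1 / 8) = ((1 / 8 : NNReal) : ℝ≥0∞) := by
    rw [ENNReal.ofReal]
    congr 1
    ext
    simp
  rw [h8] at h1
  norm_cast at h1 ⊢
  rw [← NNReal.coe_le_coe] at h1 ⊢
  push_cast at h1 ⊢
  linarith

end Vale.Agent.Lib.P243
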