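import Vale.Agent.Lib.P243.TetDefs

/-! UNIT B.  The integral of the weight along a line parallel to an edge. -/

namespace Vale.Agent.Lib.P243

open Set MeasureTheory
open scoped ENNReal

theorem tet_coord_line (b : AffineBasis (Fin 4) ℝ V3) (i j : Fin 4) (u : V3) (l : ℝ)
    (hl : 0 < l) (hu : b j - b i = l • u) (x0 : V3) (t : ℝ) (k : Fin 4) :
    b.coord k (x0 + t • u) = b.coord k x0
      + t / l * ((if k = j then 1 else 0) - (if k = i then 1 else 0)) := by
  have h1 : b.coord k (x0 + t • u) = (b.coord k).linear (t • u) + b.coord k x0 := by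
    have := (b.coord k).map_vadd x0 (t • u)
    simpa [vadd_eq_add, add_comm] using this
  have h2 : l * (b.coord k).linear u = (if k = j then 1 else 0) - (if k = i then 1 else 0) := by
    have := (b.coord k).linearMap_vsub (b j) (b i)
    rw [vsub_eq_sub, hu, map_smul, b.coord_apply, b.coord_apply] at this
    simpa using this
  rw [h1, map_smul, smul_eq_mul, ← h2]
  field_simp
  ring

theorem tet_xray (b : AffineBasis (Fin 4) ℝ V3) (i j : Fin 4) (hij : i ≠ j) (u : V3) (l : ℝ)
    (hl : 0 < l) (hu : b j - b i = l • u) (x0 : V3) :
    ∫⁻ t : ℝ, tetW b (x0 + t • u) ≤ ENNReal.ofReal l := by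
  have hci : ∀ t, b.coord i (x0 + t • u) = b.coord i x0 - t / l := by
    intro t
    rw [tet_coord_line b i j u l hl hu x0 t i]
    simp [hij]
    ring
  have hcj : ∀ t, b.coord j (x0 + t • u) = b.coord j x0 + t / l := by
    intro t
    rw [tet_coord_line b i j u l hl hu x0 t j]
    simp [hij.symm]
  have hOT : tetO b ⊆ tetT b := fun x hx k => (hx k).1
  by_cases hmiss : ∃ t0 : ℝ, x0 + t0 • u ∈ tetT b
  · obtain ⟨t0, ht0⟩ := hmiss
    set ci := b.coord i x0 with hci_def
    set cj := b.coord j x0 with hcj_def
    have hs0 : 0 ≤ ci + cj := by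
      have h1 := ht0 i
      have h2 := ht0 j
      rw [hci] at h1
      rw [hcj] at h2
      linarith
    have hs1 : ci + cj ≤ 1 := by
      have hsum := b.sum_coord_apply_eq_one (x0 + t0 • u)
      have hle : ∑ k ∈ ({i, j} : Finset (Fin 4)), b.coord k (x0 + t0 • u)
          ≤ ∑ k, b.coord k (x0 + t0 • u) :=
        Finset.sum_le_sum_of_subset_of_nonneg (Finset.subset_univ _) (fun k _ _ => ht0 k)
      rw [Finset.sum_pair hij, hci, hcj, hsum] at hle
      linarith
    have hpt : ∀ t : ℝ, tetW b (x0 + t • u) ≤ (Icc (-cj * l) (ci * l)).indicator 1 t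
        + (Icc ((ci - 1 / 2) * l) ((1 / 2 - cj) * l)).indicator 1 t := by
      intro t
      unfold tetW
      apply add_le_add
      · by_cases hT : x0 + t • u ∈ tetT b
        · have h1 := hT i
          have h2 := hT j
          rw [hci] at h1
          rw [hcj] at h2
          have hm : t ∈ Icc (-cj * l) (ci * l) := by
            constructor
            · have : -cj ≤ t / l := by linarith
              rwa [le_div_iff₀ hl] at this
            · have : t / l ≤ ci := by linarith
              rwa [div_le_iff₀ hl] at this
          rw [Set.indicator_of_mem hm, Set.indicator_of_mem hT]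
          simp
        · rw [Set.indicator_of_notMem hT]
          exact zero_le
      · by_cases hO : x0 + t • u ∈ tetO b
        · have h1 := (hO i).2
          have h2 := (hO j).2
          rw [hci] at h1
          rw [hcj] at h2
          have hm : t ∈ Icc ((ci - 1 / 2) * l) ((1 / 2 - cj) * l) := by
            constructor
            · have : ci - 1 / 2 ≤ t / l := by linarith
              rwa [le_div_iff₀ hl] at this
            · have : t / l ≤ 1 / 2 - cj := by linarith
              rwa [div_le_iff₀ hl] at this
          rw [Set.indicator_of_mem hm, Set.indicator_of_mem hO]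
          simp
        · rw [Set.indicator_of_notMem hO]
          exact zero_le
    calc ∫⁻ t : ℝ, tetW b (x0 + t • u)
        ≤ ∫⁻ t : ℝ, ((Icc (-cj * l) (ci * l)).indicator 1 t
          + (Icc ((ci - 1 / 2) * l) ((1 / 2 - cj) * l)).indicator 1 t) := lintegral_mono hpt
      _ = ENNReal.ofReal (ci * l - -cj * l)
          + ENNReal.ofReal ((1 / 2 - cj) * l - (ci - 1 / 2) * l) := by
          rw [lintegral_add_left (measurable_one.indicator measurableSet_Icc),
            lintegral_indicator_one measurableSet_Icc, lintegral_indicator_one measurableSet_Icc,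
            Real.volume_Icc, Real.volume_Icc]
      _ = ENNReal.ofReal l := by
          rw [← ENNReal.ofReal_add]
          · congr 1
            ring
          · nlinarith
          · nlinarith
  · have hz : ∀ t : ℝ, tetW b (x0 + t • u) = 0 := by
      intro t
      have h1 : x0 + t • u ∉ tetT b := fun h => hmiss ⟨t, h⟩
      have h2 : x0 + t • u ∉ tetO b := fun h => h1 (hOT h)
      simp [tetW, h1, h2]
    simp [hz]

end Vale.Agent.Lib.P243
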